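import Mathlib

/-!
Track B of P143, module N: a jointly measurable version of Brownian motion built from a dyadically
refining Gaussian array (one coordinate).
`g j k` is the `k`-th standard Gaussian step at mesh `2^{-j}`, with the refinement
`g j k = (g (j+1) (2k) + g (j+1) (2k+1)) / √2`.
-/

set_option linter.unusedVariables false
set_option linter.unusedSectionVars false

open MeasureTheory Filter Topology ProbabilityTheory
open scoped ENNReal

namespace Vale.Agent.Lib.P143B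

noncomputable section

variable {Ω : Type*} [MeasurableSpace Ω]

/-- The value at the dyadic time `k 2^{-j}`. -/
def dyW (g : ℕ → ℕ → Ω → ℝ) (j k : ℕ) (ω : Ω) : ℝ :=
  Real.sqrt ((1 / 2 : ℝ) ^ j) * ∑ l ∈ Finset.range k, g j l ω

/-- The value at an arbitrary time: limsup of the values at the dyadic approximations from below. -/
def contW (g : ℕ → ℕ → Ω → ℝ) (s : ℝ) (ω : Ω) : ℝ :=
  limsup (fun j => dyW g j ⌊s * 2 ^ j⌋₊ ω) atTop

/-- Dyadic refinement of the array. -/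
def IsRefining (g : ℕ → ℕ → Ω → ℝ) : Prop :=
  ∀ j k ω, g j k ω = (g (j + 1) (2 * k) ω + g (j + 1) (2 * k + 1) ω) / Real.sqrt 2

variable {g : ℕ → ℕ → Ω → ℝ}

private lemma sqrt_half_succ (j : ℕ) :
    Real.sqrt ((1 / 2 : ℝ) ^ (j + 1)) = Real.sqrt ((1 / 2 : ℝ) ^ j) / Real.sqrt 2 := by
  rw [pow_succ, Real.sqrt_mul (by positivity), Real.sqrt_div (by norm_num), Real.sqrt_one]
  ring

private lemma sum_refine (hr : IsRefining g) (j k : ℕ) (ω : Ω) :
    ∑ l ∈ Finset.range k, g j l ω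
      = (∑ l ∈ Finset.range (2 * k), g (j + 1) l ω) / Real.sqrt 2 := by
  induction k with
  | zero => simp
  | succ k ih =>
    rw [Finset.sum_range_succ, ih, hr j k ω, show 2 * (k + 1) = 2 * k + 1 + 1 by ring,
      Finset.sum_range_succ, Finset.sum_range_succ]
    ring

theorem dyW_refine (hr : IsRefining g) (j k : ℕ) (ω : Ω) :
    dyW g (j + 1) (2 * k) ω = dyW g j k ω := by
  unfold dyW
  rw [sum_refine hr j k ω, sqrt_half_succ]
  ring

private lemma dyW_refine_pow (hr : IsRefining g) (j k r : ℕ) (ω : Ω) :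
    dyW g (j + r) (k * 2 ^ r) ω = dyW g j k ω := by
  induction r with
  | zero => simp
  | succ r ih =>
    rw [← add_assoc, show k * 2 ^ (r + 1) = 2 * (k * 2 ^ r) by ring, dyW_refine hr, ih]

/-- At dyadic times, `contW` is the dyadic value. -/
theorem contW_dyadic (hr : IsRefining g) (j k : ℕ) (ω : Ω) :
    contW g ((k : ℝ) * (1 / 2 : ℝ) ^ j) ω = dyW g j k ω := by
  unfold contW
  refine Tendsto.limsup_eq (tendsto_const_nhds.congr' ?_)
  filter_upwards [eventually_ge_atTop j] with i hi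
  obtain ⟨r, rfl⟩ := Nat.exists_eq_add_of_le hi
  have : (k : ℝ) * (1 / 2 : ℝ) ^ j * 2 ^ (j + r) = ((k * 2 ^ r : ℕ) : ℝ) := by
    push_cast
    rw [pow_add]
    have h2 : ((1 / 2 : ℝ)) ^ j * 2 ^ j = 1 := by
      rw [← mul_pow]; norm_num
    calc (k : ℝ) * (1 / 2 : ℝ) ^ j * (2 ^ j * 2 ^ r)
        = (k : ℝ) * ((1 / 2 : ℝ) ^ j * 2 ^ j) * 2 ^ r := by ring
      _ = _ := by rw [h2]; ring
  rw [this, Nat.floor_natCast, dyW_refine_pow hr]

/-- At integer times: the sum of the level-zero steps. -/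
theorem contW_natCast (hr : IsRefining g) (k : ℕ) (ω : Ω) :
    contW g (k : ℝ) ω = ∑ l ∈ Finset.range k, g 0 l ω := by
  have := contW_dyadic hr 0 k ω
  simpa [dyW] using this

private lemma dyW_measurable (hm : ∀ j k, Measurable (g j k)) (j k : ℕ) :
    Measurable (dyW g j k) := by
  unfold dyW
  refine Measurable.const_mul ?_ _
  exact Finset.measurable_sum _ fun l _ => hm j l

/-- Joint measurability. -/
theorem contW_measurable (hm : ∀ j k, Measurable (g j k)) :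
    Measurable fun q : Ω × ℝ => contW g q.2 q.1 := by
  unfold contW
  refine Measurable.limsup fun j => ?_
  have h1 : Measurable fun p : ℕ × Ω => dyW g j p.1 p.2 :=
    measurable_from_prod_countable_right fun k => dyW_measurable hm j k
  have h2 : Measurable fun q : Ω × ℝ => (⌊q.2 * 2 ^ j⌋₊, q.1) :=
    (Nat.measurable_floor.comp (measurable_snd.mul_const _)).prodMk measurable_fst
  exact h1.comp h2

private lemma floor_two_mul {x : ℝ} (hx : 0 ≤ x) :
    ⌊2 * x⌋₊ = 2 * ⌊x⌋₊ ∨ ⌊2 * x⌋₊ = 2 * ⌊x⌋₊ + 1 := by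
  have h1 : (⌊x⌋₊ : ℝ) ≤ x := Nat.floor_le hx
  have h2 : x < ⌊x⌋₊ + 1 := Nat.lt_floor_add_one x
  by_cases h : 2 * x < 2 * (⌊x⌋₊ : ℝ) + 1
  · left
    rw [Nat.floor_eq_iff (by positivity)]
    push_cast
    constructor <;> linarith
  · right
    rw [Nat.floor_eq_iff (by positivity)]
    push_cast
    constructor <;> linarith

/-- One-step bound for the dyadic approximations. -/
private lemma dyW_step (hr : IsRefining g) {s : ℝ} (hs : 0 ≤ s) (i : ℕ) (ω : Ω) :
    ‖dyW g i ⌊s * 2 ^ i⌋₊ ω - dyW g (i + 1) ⌊s * 2 ^ (i + 1)⌋₊ ω‖ₑ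
      ≤ ENNReal.ofReal (Real.sqrt ((1 / 2 : ℝ) ^ (i + 1)))
        * ‖g (i + 1) (2 * ⌊s * 2 ^ i⌋₊) ω‖ₑ := by
  have hx : 0 ≤ s * 2 ^ i := by positivity
  have e : s * 2 ^ (i + 1) = 2 * (s * 2 ^ i) := by rw [pow_succ]; ring
  rw [e]
  rcases floor_two_mul hx with h | h
  · rw [h, dyW_refine hr]
    simp
  · rw [h, ← dyW_refine hr]
    have : dyW g (i + 1) (2 * ⌊s * 2 ^ i⌋₊) ω - dyW g (i + 1) (2 * ⌊s * 2 ^ i⌋₊ + 1) ω
        = - (Real.sqrt ((1 / 2 : ℝ) ^ (i + 1)) * g (i + 1) (2 * ⌊s * 2 ^ i⌋₊) ω) := by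
      unfold dyW
      rw [Finset.sum_range_succ]
      ring
    rw [this, enorm_neg, enorm_mul, Real.enorm_of_nonneg (Real.sqrt_nonneg _)]

/-- The first absolute moment of the standard Gaussian is at most one. -/
private lemma lintegral_enorm_gaussian_le : ∫⁻ x, ‖x‖ₑ ∂(gaussianReal 0 1) ≤ 1 := by
  have hm2 : MemLp id 2 (gaussianReal 0 1) := memLp_id_gaussianReal 2
  have hi2 : Integrable (fun x : ℝ => x ^ 2) (gaussianReal 0 1) := hm2.integrable_sq
  have hvar : ∫ x, x ^ 2 ∂(gaussianReal 0 1) = 1 := by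
    have h := variance_id_gaussianReal (μ := 0) (v := 1)
    rw [variance_eq_integral measurable_id.aemeasurable] at h
    simpa [integral_id_gaussianReal] using h
  have hi : Integrable (fun x : ℝ => (1 + x ^ 2) / 2) (gaussianReal 0 1) :=
    ((integrable_const (1 : ℝ)).add hi2).div_const 2
  calc ∫⁻ x, ‖x‖ₑ ∂(gaussianReal 0 1)
      ≤ ∫⁻ x, ENNReal.ofReal ((1 + x ^ 2) / 2) ∂(gaussianReal 0 1) := by
        refine lintegral_mono fun x => ?_
        rw [← ofReal_norm]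
        refine ENNReal.ofReal_le_ofReal ?_
        rw [Real.norm_eq_abs]
        nlinarith [sq_abs x, sq_nonneg (|x| - 1)]
    _ = ENNReal.ofReal (∫ x, (1 + x ^ 2) / 2 ∂(gaussianReal 0 1)) := by
        rw [ofReal_integral_eq_lintegral_ofReal hi (Eventually.of_forall fun x => by
          show (0 : ℝ) ≤ (1 + x ^ 2) / 2
          positivity)]
    _ = 1 := by
        rw [integral_div, integral_add (integrable_const _) hi2, hvar]
        simp

private lemma lintegral_enorm_le (P : Measure Ω) [IsProbabilityMeasure P]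
    (hm : ∀ j k, Measurable (g j k)) (hl : ∀ j k, P.map (g j k) = gaussianReal 0 1) (j k : ℕ) :
    ∫⁻ ω, ‖g j k ω‖ₑ ∂P ≤ 1 := by
  have := lintegral_map (μ := P) (f := fun x : ℝ => ‖x‖ₑ) measurable_enorm (hm j k)
  rw [← this, hl]
  exact lintegral_enorm_gaussian_le

/-- Pointwise bound: distance of the limsup from a term is at most the sum of the increments. -/
private lemma limsup_sub_le (a : ℕ → ℝ) (n : ℕ) :
    ‖limsup a atTop - a n‖ₑ ≤ ∑' m, ‖a (n + m) - a (n + m + 1)‖ₑ := by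
  set d : ℕ → ℝ≥0∞ := fun m => ‖a m - a (m + 1)‖ₑ with hd
  show _ ≤ ∑' m, d (n + m)
  by_cases h : tsum d = ∞
  · have h2 := Summable.sum_add_tsum_nat_add' (f := d) (k := n) ENNReal.summable
    have h3 : ∑' m, d (m + n) = ∞ := by
      by_contra hne
      have hfin : ∑ i ∈ Finset.range n, d i ≠ ∞ :=
        (ENNReal.sum_lt_top.2 fun i _ => by simp [hd, enorm_lt_top]).ne
      exact (ENNReal.add_ne_top.2 ⟨hfin, hne⟩) (h2.trans h)
    have h4 : ∑' m, d (n + m) = ∞ := by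
      rw [← h3]
      exact tsum_congr fun m => by rw [add_comm]
    rw [h4]
    exact le_top
  · have hc : CauchySeq a := cauchySeq_of_edist_le_of_tsum_ne_top d (fun m => by
      rw [edist_eq_enorm_sub]) h
    obtain ⟨x, hx⟩ := cauchySeq_tendsto_of_complete hc
    have h1 := edist_le_tsum_of_edist_le_of_tendsto d (fun m => by
      rw [edist_eq_enorm_sub]) hx n
    rw [hx.limsup_eq, ← edist_eq_enorm_sub, edist_comm]
    exact h1

/-- Distance in mean from the dyadic approximation. The constant is not important. -/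
theorem contW_sub_le (P : Measure Ω) [IsProbabilityMeasure P] (hr : IsRefining g)
    (hm : ∀ j k, Measurable (g j k)) (hl : ∀ j k, P.map (g j k) = gaussianReal 0 1)
    {s : ℝ} (hs : 0 ≤ s) (j : ℕ) :
    ∫⁻ ω, ‖contW g s ω - dyW g j ⌊s * 2 ^ j⌋₊ ω‖ₑ ∂P
      ≤ ENNReal.ofReal (8 * Real.sqrt ((1 / 2 : ℝ) ^ j)) := by
  -- the geometric series
  have hr0 : ∀ m : ℕ, Real.sqrt ((1 / 2 : ℝ) ^ (j + m + 1))
      ≤ Real.sqrt ((1 / 2 : ℝ) ^ j) * (3 / 4 : ℝ) ^ (m + 1) := by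
    intro m
    rw [show j + m + 1 = j + (m + 1) by ring, pow_add,
      Real.sqrt_mul (by positivity)]
    refine mul_le_mul_of_nonneg_left ?_ (Real.sqrt_nonneg _)
    rw [Real.sqrt_le_left (by positivity), ← pow_mul, mul_comm, pow_mul]
    exact pow_le_pow_left₀ (by norm_num) (by norm_num) _
  have hgeo : HasSum (fun m : ℕ => Real.sqrt ((1 / 2 : ℝ) ^ j) * (3 / 4 : ℝ) ^ (m + 1))
      (Real.sqrt ((1 / 2 : ℝ) ^ j) * 3) := by
    have h := (hasSum_geometric_of_lt_one (r := (3 / 4 : ℝ)) (by norm_num) (by norm_num))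
    have h2 := h.mul_left (Real.sqrt ((1 / 2 : ℝ) ^ j) * (3 / 4))
    have e : Real.sqrt ((1 / 2 : ℝ) ^ j) * (3 / 4) * (1 - 3 / 4 : ℝ)⁻¹
        = Real.sqrt ((1 / 2 : ℝ) ^ j) * 3 := by
      rw [show (1 - 3 / 4 : ℝ)⁻¹ = 4 by norm_num]; ring
    rw [e] at h2
    have e2 : (fun m : ℕ => Real.sqrt ((1 / 2 : ℝ) ^ j) * (3 / 4 : ℝ) ^ (m + 1))
        = fun i : ℕ => Real.sqrt ((1 / 2 : ℝ) ^ j) * (3 / 4) * (3 / 4) ^ i := by
      funext m
      rw [pow_succ]; ring
    rw [e2]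
    exact h2
  have hsq : 0 ≤ Real.sqrt ((1 / 2 : ℝ) ^ j) := Real.sqrt_nonneg _
  -- pointwise
  have hpt : ∀ ω, ‖contW g s ω - dyW g j ⌊s * 2 ^ j⌋₊ ω‖ₑ
      ≤ ∑' m, ENNReal.ofReal (Real.sqrt ((1 / 2 : ℝ) ^ (j + m + 1)))
        * ‖g (j + m + 1) (2 * ⌊s * 2 ^ (j + m)⌋₊) ω‖ₑ := by
    intro ω
    refine (limsup_sub_le (fun i => dyW g i ⌊s * 2 ^ i⌋₊ ω) j).trans ?_
    exact ENNReal.tsum_le_tsum fun m => dyW_step hr hs (j + m) ω
  calc ∫⁻ ω, ‖contW g s ω - dyW g j ⌊s * 2 ^ j⌋₊ ω‖ₑ ∂P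
      ≤ ∫⁻ ω, ∑' m, ENNReal.ofReal (Real.sqrt ((1 / 2 : ℝ) ^ (j + m + 1)))
        * ‖g (j + m + 1) (2 * ⌊s * 2 ^ (j + m)⌋₊) ω‖ₑ ∂P := lintegral_mono hpt
    _ = ∑' m, ∫⁻ ω, ENNReal.ofReal (Real.sqrt ((1 / 2 : ℝ) ^ (j + m + 1)))
        * ‖g (j + m + 1) (2 * ⌊s * 2 ^ (j + m)⌋₊) ω‖ₑ ∂P := by
        refine lintegral_tsum fun m => ?_
        exact ((hm _ _).enorm.const_mul _).aemeasurable
    _ ≤ ∑' m : ℕ, ENNReal.ofReal (Real.sqrt ((1 / 2 : ℝ) ^ j) * (3 / 4 : ℝ) ^ (m + 1)) := by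
        refine ENNReal.tsum_le_tsum fun m => ?_
        rw [lintegral_const_mul _ (hm _ _).enorm]
        calc _ ≤ ENNReal.ofReal (Real.sqrt ((1 / 2 : ℝ) ^ (j + m + 1))) * 1 := by
              gcongr
              exact lintegral_enorm_le P hm hl _ _
          _ ≤ _ := by
              rw [mul_one]
              exact ENNReal.ofReal_le_ofReal (hr0 m)
    _ = ENNReal.ofReal (Real.sqrt ((1 / 2 : ℝ) ^ j) * 3) := by
        rw [← ENNReal.ofReal_tsum_of_nonneg (fun m => by positivity) hgeo.summable, hgeo.tsum_eq]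
    _ ≤ _ := ENNReal.ofReal_le_ofReal (by linarith)

end

end Vale.Agent.Lib.P143B
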