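import Mathlib

/-!
Track B of P143, module O: the integral equation `x(t) = ∫₀ᵗ b(x(s) + W(s)) ds` with a forcing `W`
and a drift `b` that is bounded and Lipschitz in the sup norm, on an arbitrary index type.
No probability here: `W` is any forcing measurable in time. Picard iterates with Lebesgue integrals.
-/

set_option linter.unusedVariables false
set_option linter.unusedSectionVars false

open MeasureTheory Filter Topology

namespace Vale.Agent.Lib.P143B

noncomputable section

variable {I : Type*}

/-- Bounded measurable drift, `L`-Lipschitz in the sup norm (differences may be bounded even if the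
arguments are unbounded). -/
structure IsDrift (L : ℝ) (b : (I → ℝ) → I → ℝ) : Prop where
  nonneg : 0 ≤ L
  bdd : ∀ y e, |b y e| ≤ 1
  lip : ∀ (y y' : I → ℝ) (a : ℝ), (∀ f, |y f - y' f| ≤ a) → ∀ e, |b y e - b y' e| ≤ L * a
  meas : ∀ e, Measurable fun y => b y e

/-- Picard iterates. -/
def pic (b : (I → ℝ) → I → ℝ) (W : ℝ → I → ℝ) : ℕ → ℝ → I → ℝ
  | 0, _, _ => 0
  | k + 1, t, e => ∫ s in (0 : ℝ)..t, b (fun f => pic b W k s f + W s f) e

/-- The solution, as the limsup of the Picard iterates. -/
def sol (b : (I → ℝ) → I → ℝ) (W : ℝ → I → ℝ) (t : ℝ) (e : I) : ℝ :=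
  limsup (fun k => pic b W k t e) atTop

variable {L : ℝ} {b b' : (I → ℝ) → I → ℝ} {W W' : ℝ → I → ℝ}

/-- Bounded measurable functions are interval integrable. -/
private lemma ii_of_bdd {g : ℝ → ℝ} (hg : Measurable g) (hb : ∀ s, |g s| ≤ 1) (a c : ℝ) :
    IntervalIntegrable g volume a c := by
  rw [intervalIntegrable_iff]
  refine Measure.integrableOn_of_bounded (M := 1) (by simp) hg.aestronglyMeasurable ?_
  exact Eventually.of_forall fun s => by simpa using hb s

/-- Continuity of primitives of bounded measurable functions. -/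
private lemma cont_prim {g : ℝ → ℝ} (hg : Measurable g) (hb : ∀ s, |g s| ≤ 1) :
    Continuous fun t => ∫ s in (0 : ℝ)..t, g s :=
  intervalIntegral.continuous_primitive (fun a c => ii_of_bdd hg hb a c) 0

/-- Bound for the integral of a function bounded by one. -/
private lemma abs_int_le {g : ℝ → ℝ} (hb : ∀ s, |g s| ≤ 1) {t : ℝ} (ht : 0 ≤ t) :
    |∫ s in (0 : ℝ)..t, g s| ≤ t := by
  have := intervalIntegral.norm_integral_le_of_norm_le_const (a := 0) (b := t) (f := g) (C := 1)
    (fun s _ => by simpa using hb s)
  simpa [abs_of_nonneg ht] using this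

theorem pic_measurable (hb : IsDrift L b) (hW : ∀ e, Measurable fun s => W s e) (k : ℕ) (e : I) :
    Measurable fun s => pic b W k s e := by
  induction k generalizing e with
  | zero => exact measurable_const
  | succ k ih =>
    have hg : Measurable fun s => b (fun f => pic b W k s f + W s f) e :=
      (hb.meas e).comp (measurable_pi_iff.2 fun f => (ih f).add (hW f))
    exact (cont_prim hg fun s => hb.bdd _ e).measurable

/-- The integrand of the Picard recursion is measurable. -/
private lemma pic_integrand_meas (hb : IsDrift L b) (hW : ∀ e, Measurable fun s => W s e) (k : ℕ)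
    (e : I) : Measurable fun s => b (fun f => pic b W k s f + W s f) e :=
  (hb.meas e).comp (measurable_pi_iff.2 fun f => (pic_measurable hb hW k f).add (hW f))

theorem abs_pic_le (hb : IsDrift L b) (k : ℕ) {t : ℝ} (ht : 0 ≤ t) (e : I) :
    |pic b W k t e| ≤ t := by
  cases k with
  | zero => simpa [pic] using ht
  | succ k => exact abs_int_le (fun s => hb.bdd _ e) ht

/-- The increment bound. -/
def incr (L : ℝ) (k : ℕ) (t : ℝ) : ℝ := 2 * L ^ k * t ^ (k + 1) / (Nat.factorial (k + 1))

theorem incr_nonneg (hL : 0 ≤ L) (k : ℕ) {t : ℝ} (ht : 0 ≤ t) : 0 ≤ incr L k t := by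
  unfold incr; positivity

theorem integral_incr (L : ℝ) (k : ℕ) (t : ℝ) :
    ∫ s in (0 : ℝ)..t, L * incr L k s = incr L (k + 1) t := by
  have hf : ∀ s : ℝ, L * incr L k s
      = (2 * L ^ (k + 1) / (Nat.factorial (k + 1))) * s ^ (k + 1) := by
    intro s; unfold incr; ring
  simp_rw [hf]
  rw [intervalIntegral.integral_const_mul, integral_pow]
  unfold incr
  have h1 : ((k + 1 : ℕ) : ℝ) + 1 ≠ 0 := by positivity
  have h2 : ((Nat.factorial (k + 1) : ℕ) : ℝ) ≠ 0 := by positivity
  rw [Nat.factorial_succ (k + 1)]
  push_cast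
  push_cast at h1
  field_simp
  ring

theorem pic_incr (hb : IsDrift L b) (hW : ∀ e, Measurable fun s => W s e) (k : ℕ) {t : ℝ}
    (ht : 0 ≤ t) (e : I) : |pic b W (k + 1) t e - pic b W k t e| ≤ incr L k t := by
  induction k generalizing t e with
  | zero =>
    have h1 := abs_pic_le (W := W) hb 1 ht e
    simp only [pic, sub_zero, incr]
    simp only [pic, zero_add] at h1
    simp only [pow_zero, zero_add, pow_one, Nat.factorial_one, Nat.cast_one, div_one, mul_one]
    linarith
  | succ k ih =>
    have e1 : pic b W (k + 1 + 1) t e - pic b W (k + 1) t e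
        = ∫ s in (0 : ℝ)..t, (b (fun f => pic b W (k + 1) s f + W s f) e
            - b (fun f => pic b W k s f + W s f) e) := by
      rw [intervalIntegral.integral_sub
        (ii_of_bdd (pic_integrand_meas hb hW _ e) (fun s => hb.bdd _ e) _ _)
        (ii_of_bdd (pic_integrand_meas hb hW _ e) (fun s => hb.bdd _ e) _ _)]
      rfl
    rw [e1, ← integral_incr]
    have := intervalIntegral.norm_integral_le_of_norm_le (a := 0) (b := t) (μ := volume)
      (f := fun s => b (fun f => pic b W (k + 1) s f + W s f) e
            - b (fun f => pic b W k s f + W s f) e)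
      (g := fun s => L * incr L k s) ht ?_ ?_
    · simpa using this
    · refine Eventually.of_forall fun s hs => ?_
      have hs0 : 0 ≤ s := hs.1.le
      rw [Real.norm_eq_abs]
      refine hb.lip _ _ _ (fun f => ?_) e
      have := ih hs0 f
      simpa using this
    · have hc : Continuous fun s => L * incr L k s := by
        unfold incr; fun_prop
      exact hc.intervalIntegrable _ _

theorem summable_incr (hL : 0 ≤ L) {t : ℝ} (ht : 0 ≤ t) : Summable fun k => incr L k t := by
  have h := (Real.summable_pow_div_factorial (L * t)).mul_left (2 * t)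
  refine Summable.of_nonneg_of_le (fun k => incr_nonneg hL k ht) (fun k => ?_) h
  unfold incr
  have h1 : ((Nat.factorial k : ℕ) : ℝ) ≤ (Nat.factorial (k + 1) : ℕ) := by
    exact_mod_cast Nat.factorial_le (Nat.le_succ k)
  have h0 : (0 : ℝ) < (Nat.factorial k : ℕ) := by positivity
  have h2 : 2 * L ^ k * t ^ (k + 1) / (Nat.factorial (k + 1) : ℕ)
      = (2 * t) * ((L * t) ^ k) / (Nat.factorial (k + 1) : ℕ) := by
    rw [mul_pow, pow_succ]; ring
  rw [h2, mul_div_assoc]
  gcongr

theorem tendsto_pic (hb : IsDrift L b) (hW : ∀ e, Measurable fun s => W s e) {t : ℝ} (ht : 0 ≤ t)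
    (e : I) : Tendsto (fun k => pic b W k t e) atTop (𝓝 (sol b W t e)) := by
  have hc : CauchySeq fun k => pic b W k t e := by
    refine cauchySeq_of_dist_le_of_summable (fun k => incr L k t) (fun k => ?_)
      (summable_incr hb.nonneg ht)
    rw [Real.dist_eq, abs_sub_comm]
    exact pic_incr hb hW k ht e
  obtain ⟨a, ha⟩ := cauchySeq_tendsto_of_complete hc
  have : sol b W t e = a := ha.limsup_eq
  rwa [this]

/-- Tail of the Picard series. -/
def tailR (L : ℝ) (k : ℕ) (t : ℝ) : ℝ := ∑' m, incr L (k + m) t

theorem tendsto_tailR (t : ℝ) : Tendsto (fun k => tailR L k t) atTop (𝓝 0) := by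
  have := tendsto_sum_nat_add (fun k => incr L k t)
  refine this.congr fun k => ?_
  unfold tailR
  exact tsum_congr fun m => by rw [add_comm]

theorem abs_sol_sub_pic_le (hb : IsDrift L b) (hW : ∀ e, Measurable fun s => W s e) {t : ℝ}
    (ht : 0 ≤ t) (k : ℕ) (e : I) : |pic b W k t e - sol b W t e| ≤ tailR L k t := by
  have := dist_le_tsum_of_dist_le_of_tendsto (f := fun k => pic b W k t e)
    (fun k => incr L k t) (fun k => by
      rw [Real.dist_eq, abs_sub_comm]
      exact pic_incr hb hW k ht e) (summable_incr hb.nonneg ht) (tendsto_pic hb hW ht e) k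
  rw [Real.dist_eq] at this
  exact this

theorem abs_sol_le (hb : IsDrift L b) (hW : ∀ e, Measurable fun s => W s e) {t : ℝ} (ht : 0 ≤ t)
    (e : I) : |sol b W t e| ≤ t :=
  le_of_tendsto (tendsto_pic hb hW ht e).abs (Eventually.of_forall fun k => abs_pic_le hb k ht e)

/-- The solution solves the integral equation. -/
theorem sol_fixed (hb : IsDrift L b) (hW : ∀ e, Measurable fun s => W s e) {t : ℝ} (ht : 0 ≤ t)
    (e : I) : sol b W t e = ∫ s in (0 : ℝ)..t, b (fun f => sol b W s f + W s f) e := by
  have h1 : Tendsto (fun k => pic b W (k + 1) t e) atTop (𝓝 (sol b W t e)) :=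
    (tendsto_pic hb hW ht e).comp (tendsto_add_atTop_nat 1)
  have h2 : Tendsto (fun k => pic b W (k + 1) t e) atTop
      (𝓝 (∫ s in (0 : ℝ)..t, b (fun f => sol b W s f + W s f) e)) := by
    refine intervalIntegral.tendsto_integral_filter_of_dominated_convergence (fun _ => (1 : ℝ))
      (Eventually.of_forall fun k => (pic_integrand_meas hb hW k e).aestronglyMeasurable)
      (Eventually.of_forall fun k => Eventually.of_forall fun s _ => by
        simpa using hb.bdd _ e)
      (by simp) ?_
    refine Eventually.of_forall fun s hs => ?_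
    rw [Set.uIoc_of_le ht] at hs
    have hs0 : 0 ≤ s := hs.1.le
    have hR := tendsto_tailR (L := L) s
    have hR' : Tendsto (fun k => L * tailR L k s) atTop (𝓝 0) := by
      simpa using hR.const_mul L
    refine tendsto_iff_dist_tendsto_zero.2 (squeeze_zero (fun _ => dist_nonneg) (fun k => ?_) hR')
    rw [Real.dist_eq]
    refine hb.lip _ _ _ (fun f => ?_) e
    have := abs_sol_sub_pic_le hb hW hs0 k f
    simpa using this
  exact tendsto_nhds_unique h1 h2

/-- Convergence of the Picard iterates under convergence of drifts. -/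
theorem pic_tendsto {bn : ℕ → (I → ℝ) → I → ℝ} (hbn : ∀ n, IsDrift L (bn n)) (hb : IsDrift L b)
    (hW : ∀ e, Measurable fun s => W s e)
    (hlim : ∀ (yn : ℕ → I → ℝ) (y : I → ℝ) (C : ℝ),
      (∀ f, Tendsto (fun n => yn n f) atTop (𝓝 (y f))) → (∀ n f, |yn n f - y f| ≤ C) →
        ∀ e, Tendsto (fun n => bn n (yn n) e) atTop (𝓝 (b y e)))
    (k : ℕ) {t : ℝ} (ht : 0 ≤ t) (e : I) :
    Tendsto (fun n => pic (bn n) W k t e) atTop (𝓝 (pic b W k t e)) := by
  induction k generalizing t e with
  | zero => simp [pic]
  | succ k ih =>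
    refine intervalIntegral.tendsto_integral_filter_of_dominated_convergence (fun _ => (1 : ℝ))
      (Eventually.of_forall fun n => (pic_integrand_meas (hbn n) hW k e).aestronglyMeasurable)
      (Eventually.of_forall fun n => Eventually.of_forall fun s _ => by
        simpa using (hbn n).bdd _ e)
      (by simp) ?_
    refine Eventually.of_forall fun s hs => ?_
    rw [Set.uIoc_of_le ht] at hs
    have hs0 : 0 ≤ s := hs.1.le
    refine hlim _ _ (2 * s) (fun f => ?_) (fun n f => ?_) e
    · simpa using (ih hs0 f).add_const (W s f)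
    · have h1 := abs_pic_le (W := W) (hbn n) k hs0 f
      have h2 := abs_pic_le (W := W) hb k hs0 f
      have : (pic (bn n) W k s f + W s f) - (pic b W k s f + W s f)
          = pic (bn n) W k s f - pic b W k s f := by ring
      rw [this]
      calc |pic (bn n) W k s f - pic b W k s f|
          ≤ |pic (bn n) W k s f| + |pic b W k s f| := abs_sub _ _
        _ ≤ 2 * s := by linarith

/-- Stability under convergence of drifts, in the topology of edgewise convergence with bounded
differences. -/
theorem sol_tendsto {bn : ℕ → (I → ℝ) → I → ℝ} (hbn : ∀ n, IsDrift L (bn n)) (hb : IsDrift L b)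
    (hW : ∀ e, Measurable fun s => W s e)
    (hlim : ∀ (yn : ℕ → I → ℝ) (y : I → ℝ) (C : ℝ),
      (∀ f, Tendsto (fun n => yn n f) atTop (𝓝 (y f))) → (∀ n f, |yn n f - y f| ≤ C) →
        ∀ e, Tendsto (fun n => bn n (yn n) e) atTop (𝓝 (b y e)))
    {t : ℝ} (ht : 0 ≤ t) (e : I) :
    Tendsto (fun n => sol (bn n) W t e) atTop (𝓝 (sol b W t e)) := by
  rw [Metric.tendsto_atTop]
  intro ε hε
  have hR := tendsto_tailR (L := L) t
  obtain ⟨k, hk⟩ := ((tendsto_order.1 hR).2 (ε / 3) (by positivity)).exists
  have hp := pic_tendsto hbn hb hW hlim k ht e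
  rw [Metric.tendsto_atTop] at hp
  obtain ⟨N, hN⟩ := hp (ε / 3) (by positivity)
  refine ⟨N, fun n hn => ?_⟩
  have h1 := abs_sol_sub_pic_le (hbn n) hW ht k e
  have h2 := abs_sol_sub_pic_le hb hW ht k e
  have h3 := hN n hn
  rw [Real.dist_eq] at h3 ⊢
  rw [abs_lt] at h3 ⊢
  rw [abs_le] at h1 h2
  constructor <;> linarith [h1.1, h1.2, h2.1, h2.2, h3.1, h3.2]

/-- Joint measurability of the Picard iterates. -/
theorem pic_measurable_joint {β : Type*} [MeasurableSpace β] {b : β → (I → ℝ) → I → ℝ}
    {W : β → ℝ → I → ℝ} (hbd : ∀ q, IsDrift L (b q))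
    (hb : ∀ e, Measurable fun q : β × (I → ℝ) => b q.1 q.2 e)
    (hW : ∀ e, Measurable fun q : β × ℝ => W q.1 q.2 e) (k : ℕ) (e : I) :
    Measurable fun q : β × ℝ => pic (b q.1) (W q.1) k q.2 e := by
  induction k generalizing e with
  | zero => exact measurable_const
  | succ k ih =>
    have hG : Measurable fun q : β × ℝ =>
        b q.1 (fun f => pic (b q.1) (W q.1) k q.2 f + W q.1 q.2 f) e := by
      have hm : Measurable fun q : β × ℝ =>
          (q.1, fun f => pic (b q.1) (W q.1) k q.2 f + W q.1 q.2 f) :=
        measurable_fst.prodMk (measurable_pi_iff.2 fun f => (ih f).add (hW f))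
      exact (hb e).comp hm
    let u : ℝ → β → ℝ := fun t q => pic (b q) (W q) (k + 1) t e
    have hu : Measurable (Function.uncurry u) := by
      refine measurable_uncurry_of_continuous_of_measurable (fun q => ?_) (fun t => ?_)
      · have hWq : ∀ f, Measurable fun s => W q s f := fun f =>
          (hW f).comp measurable_prodMk_left
        exact cont_prim (pic_integrand_meas (hbd q) hWq k e) (fun s => (hbd q).bdd _ e)
      · have hS : ∀ S : Set ℝ, Measurable fun q : β =>
            ∫ s in S, b q (fun f => pic (b q) (W q) k s f + W q s f) e := by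
          intro S
          have := (hG.stronglyMeasurable).integral_prod_right' (ν := volume.restrict S)
          exact this.measurable
        have : u t = fun q =>
            (∫ s in Set.Ioc 0 t, b q (fun f => pic (b q) (W q) k s f + W q s f) e)
            - ∫ s in Set.Ioc t 0, b q (fun f => pic (b q) (W q) k s f + W q s f) e := by
          funext q; rfl
        rw [this]
        exact (hS _).sub (hS _)
    exact hu.comp measurable_swap

/-- Joint measurability in a parameter and in time. -/
theorem sol_measurable {β : Type*} [MeasurableSpace β] {b : β → (I → ℝ) → I → ℝ}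
    {W : β → ℝ → I → ℝ} (hbd : ∀ q, IsDrift L (b q))
    (hb : ∀ e, Measurable fun q : β × (I → ℝ) => b q.1 q.2 e)
    (hW : ∀ e, Measurable fun q : β × ℝ => W q.1 q.2 e) (e : I) :
    Measurable fun q : β × ℝ => sol (b q.1) (W q.1) q.2 e :=
  Measurable.limsup fun k => pic_measurable_joint hbd hb hW k e

/-- Equivariance of the Picard iterates. -/
theorem pic_equivariant (π : I ≃ I) (hb : ∀ y e, b' y (π e) = b (y ∘ π) e)
    (hW : ∀ s e, W' s (π e) = W s e) (k : ℕ) (t : ℝ) (e : I) :
    pic b' W' k t (π e) = pic b W k t e := by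
  induction k generalizing t e with
  | zero => rfl
  | succ k ih =>
    simp only [pic]
    refine intervalIntegral.integral_congr fun s _ => ?_
    show b' _ (π e) = b _ e
    rw [hb]
    congr 1
    funext f
    simp only [Function.comp]
    rw [ih, hW]

/-- Equivariance. -/
theorem sol_equivariant (π : I ≃ I) (hb : ∀ y e, b' y (π e) = b (y ∘ π) e)
    (hW : ∀ s e, W' s (π e) = W s e) (t : ℝ) (e : I) :
    sol b' W' t (π e) = sol b W t e := by
  unfold sol
  congr 1
  funext k
  exact pic_equivariant π hb hW k t e

end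

end Vale.Agent.Lib.P143B
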