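import Vale.Agent.Lib.P143B.Electric
import Vale.Agent.Lib.P143B.Ode

/-!
Track B of P143: the drifts. `bP P y e` is the mean spin of `e` in the spanning tree measure of the
piece `P` tilted by `y` (conductances `exp (2 y)`), and `bG S y e` is the infimum of these over the
pieces inside the edge set `S` that contain `e`.
-/

set_option linter.unusedVariables false
set_option linter.unusedSectionVars false

open Finset Filter Topology MeasureTheory
open Vale.Agent.Lib.P143

namespace Vale.Agent.Lib.P143B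

noncomputable section

open Classical

variable {V : Type*}

/-- The conductances attached to a tilt. -/
def cond (y : Sym2 V → ℝ) (f : Sym2 V) : ℝ := Real.exp (2 * y f)

lemma cond_pos (y : Sym2 V → ℝ) (f : Sym2 V) : 0 < cond y f := Real.exp_pos _

/-- Mean spin of `e` in the spanning tree measure of `P` tilted by `y`. -/
def bP (P : Piece V) (y : Sym2 V → ℝ) (e : Sym2 V) : ℝ := 2 * pE P (cond y) e - 1

/-- The infinite-volume drift on the graph with edge set `S`. -/
def bG (S : Set (Sym2 V)) (y : Sym2 V → ℝ) (e : Sym2 V) : ℝ :=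
  if e ∈ S then ⨅ P : Piece V, if ((P.edges : Set (Sym2 V)) ⊆ S ∧ e ∈ P.edges) then bP P y e else 1
  else -1

lemma abs_bP_le (P : Piece V) (y : Sym2 V → ℝ) (e : Sym2 V) : |bP P y e| ≤ 1 := by
  unfold bP
  have h0 := pE_nonneg P (cond_pos y) e
  have h1 := pE_le_one P (cond_pos y) e
  rw [abs_le]
  constructor <;> linarith

lemma exp_sub_one_le {x : ℝ} (h0 : 0 ≤ x) (h1 : x ≤ 1 / 2) : Real.exp x - 1 ≤ 2 * x := by
  have h2 : 1 - x ≤ Real.exp (-x) := by
    have := Real.add_one_le_exp (-x)
    linarith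
  have h3 : Real.exp x * (1 - x) ≤ 1 := by
    have h4 : Real.exp x * Real.exp (-x) = 1 := by rw [← Real.exp_add]; simp
    have h5 : 0 < Real.exp x := Real.exp_pos x
    nlinarith
  have h6 : Real.exp x ≤ 1 + 2 * x := by
    have h7 : 0 < 1 - x := by linarith
    have h8 : Real.exp x ≤ 1 / (1 - x) := by
      rw [le_div_iff₀ h7]; exact h3
    have h9 : 1 / (1 - x) ≤ 1 + 2 * x := by
      rw [div_le_iff₀ h7]; nlinarith
    linarith
  linarith

/-- One sided Lipschitz bound for the marginals. -/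
lemma pE_sub_le (P : Piece V) {y y' : Sym2 V → ℝ} {a : ℝ} (ha : ∀ f, |y f - y' f| ≤ a)
    (e : Sym2 V) (ha0 : 0 ≤ a) : pE P (cond y') e - pE P (cond y) e ≤ 8 * a := by
  have hκ : pE P (cond y') e ≤ (Real.exp (2 * a)) ^ 2 * pE P (cond y) e := by
    refine pE_mul_le P (cond_pos y) (cond_pos y') (fun f => ?_) (fun f => ?_) e
    · unfold cond
      rw [← Real.exp_add]
      apply Real.exp_le_exp.2
      have := (abs_le.1 (ha f)).1
      linarith
    · unfold cond
      rw [← Real.exp_add]
      apply Real.exp_le_exp.2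
      have := (abs_le.1 (ha f)).2
      linarith
  have h0 := pE_nonneg P (cond_pos y) e
  have h1 := pE_le_one P (cond_pos y) e
  have h1' := pE_le_one P (cond_pos y') e
  have e2 : (Real.exp (2 * a)) ^ 2 = Real.exp (4 * a) := by
    rw [sq, ← Real.exp_add]; congr 1; ring
  rw [e2] at hκ
  by_cases hx : 4 * a ≤ 1 / 2
  · have h2 := exp_sub_one_le (by linarith : (0 : ℝ) ≤ 4 * a) hx
    have h3 : (Real.exp (4 * a) - 1) * pE P (cond y) e ≤ 2 * (4 * a) * 1 :=
      mul_le_mul h2 h1 h0 (by linarith)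
    nlinarith
  · push Not at hx
    linarith

/-- `bP` is a drift with constant `16`. -/
lemma isDrift_bP (P : Piece V) : IsDrift 16 (bP P) where
  nonneg := by norm_num
  bdd := abs_bP_le P
  lip := by
    intro y y' a h e
    have ha0 : 0 ≤ a := (abs_nonneg _).trans (h e)
    have h1 := pE_sub_le P h e ha0
    have h2 := pE_sub_le P (y := y') (y' := y) (a := a) (fun f => by rw [abs_sub_comm]; exact h f) e ha0
    unfold bP
    rw [abs_le]
    constructor <;> linarith
  meas := by
    intro e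
    unfold bP pE treeSum cond
    refine (Measurable.const_mul ?_ _).sub_const _
    refine Measurable.div ?_ ?_
    all_goals
      refine Finset.measurable_sum _ fun T _ => Finset.measurable_prod _ fun f _ => ?_
      exact Real.measurable_exp.comp ((measurable_pi_apply _).const_mul _)

/-- The single vertex piece. -/
def Piece.single (x : V) : Piece V where
  verts := {x}
  edges := ∅
  ne := Finset.singleton_nonempty x
  mem := by simp
  nondiag := by simp
  conn := by
    intro a ha b hb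
    rw [Finset.mem_singleton] at ha hb
    rw [ha, hb]

/-- A term of the infimum defining `bG`. -/
def bTerm (S : Set (Sym2 V)) (e : Sym2 V) (y : Sym2 V → ℝ) (P : Piece V) : ℝ :=
  if ((P.edges : Set (Sym2 V)) ⊆ S ∧ e ∈ P.edges) then bP P y e else 1

lemma abs_bTerm_le (S : Set (Sym2 V)) (e : Sym2 V) (y : Sym2 V → ℝ) (P : Piece V) :
    |bTerm S e y P| ≤ 1 := by
  unfold bTerm
  split_ifs
  · exact abs_bP_le P y e
  · simp

lemma bddBelow_bTerm (S : Set (Sym2 V)) (e : Sym2 V) (y : Sym2 V → ℝ) :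
    BddBelow (Set.range (bTerm S e y)) :=
  ⟨-1, by rintro _ ⟨P, rfl⟩; exact (abs_le.1 (abs_bTerm_le S e y P)).1⟩

lemma nonempty_piece (e : Sym2 V) : Nonempty (Piece V) :=
  ⟨Piece.single e.out.1⟩

lemma abs_bG_le (S : Set (Sym2 V)) (y : Sym2 V → ℝ) (e : Sym2 V) : |bG S y e| ≤ 1 := by
  unfold bG
  split_ifs with he
  · have := nonempty_piece e
    change |⨅ P, bTerm S e y P| ≤ 1
    rw [abs_le]
    constructor
    · exact le_ciInf fun P => (abs_le.1 (abs_bTerm_le S e y P)).1
    · exact (ciInf_le (bddBelow_bTerm S e y) (Piece.single e.out.1)).trans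
        (abs_le.1 (abs_bTerm_le S e y _)).2
  · simp

/-- `bG` is a drift with constant `16`. -/
lemma isDrift_bG [Countable V] (S : Set (Sym2 V)) : IsDrift 16 (bG S) where
  nonneg := by norm_num
  bdd := abs_bG_le S
  lip := by
    intro y y' a h e
    have ha0 : 0 ≤ a := (abs_nonneg _).trans (h e)
    unfold bG
    split_ifs with he
    · have := nonempty_piece e
      change |(⨅ P, bTerm S e y P) - ⨅ P, bTerm S e y' P| ≤ 16 * a
      have hterm : ∀ (y y' : Sym2 V → ℝ), (∀ f, |y f - y' f| ≤ a) →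
          (⨅ P, bTerm S e y P) ≤ (⨅ P, bTerm S e y' P) + 16 * a := by
        intro y y' h
        rw [← sub_le_iff_le_add]
        refine le_ciInf fun P => ?_
        rw [sub_le_iff_le_add]
        refine (ciInf_le (bddBelow_bTerm S e y) P).trans ?_
        unfold bTerm
        split_ifs
        · have := (isDrift_bP P).lip y y' a h e
          have := (abs_le.1 this).2
          linarith
        · linarith
      rw [abs_le]
      have h1 := hterm y y' h
      have h2 := hterm y' y (fun f => by rw [abs_sub_comm]; exact h f)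
      constructor <;> linarith
    · simp; linarith
  meas := by
    intro e
    unfold bG
    by_cases he : e ∈ S
    · simp only [he, if_true]
      have : Countable (Piece V) := by
        let j : Piece V → Finset V × Finset (Sym2 V) := fun P => (P.verts, P.edges)
        have hj : Function.Injective j := by
          rintro ⟨a, b, _, _, _, _⟩ ⟨a', b', _, _, _, _⟩ h
          simp only [j, Prod.mk.injEq] at h
          obtain ⟨rfl, rfl⟩ := h
          rfl
        exact hj.countable
      refine Measurable.iInf fun P => ?_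
      split_ifs
      · exact (isDrift_bP P).meas e
      · exact measurable_const
    · simp only [he, if_false]
      exact measurable_const

/-! ### Exhaustions -/

/-- An exhaustion of the graph with edge set `S` by pieces. -/
structure IsExh (S : Set (Sym2 V)) (Pn : ℕ → Piece V) : Prop where
  mono : ∀ n, (Pn n).Le (Pn (n + 1))
  sub : ∀ n, ((Pn n).edges : Set (Sym2 V)) ⊆ S
  cover_edges : ∀ f ∈ S, ∃ n, f ∈ (Pn n).edges
  cover_verts : ∀ x, ∃ n, x ∈ (Pn n).verts

lemma IsExh.le_of_le {S : Set (Sym2 V)} {Pn : ℕ → Piece V} (h : IsExh S Pn) {k n : ℕ} (hkn : k ≤ n) :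
    (Pn k).Le (Pn n) := by
  induction hkn with
  | refl => exact Piece.Le.refl _
  | step _ ih => exact ih.trans (h.mono _)

lemma IsExh.shift {S : Set (Sym2 V)} {Pn : ℕ → Piece V} (h : IsExh S Pn) (n0 : ℕ) :
    IsExh S (fun n => Pn (n + n0)) where
  mono := fun n => by
    have := h.mono (n + n0)
    rwa [show n + n0 + 1 = n + 1 + n0 by omega] at this
  sub := fun n => h.sub _
  cover_edges := fun f hf => by
    obtain ⟨n, hn⟩ := h.cover_edges f hf
    exact ⟨n, (h.le_of_le (Nat.le_add_right n n0)).2 hn⟩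
  cover_verts := fun x => by
    obtain ⟨n, hn⟩ := h.cover_verts x
    exact ⟨n, (h.le_of_le (Nat.le_add_right n n0)).1 hn⟩

/-- Every piece in the graph is contained in a member of an exhaustion. -/
lemma IsExh.exists_le {S : Set (Sym2 V)} {Pn : ℕ → Piece V} (h : IsExh S Pn) (P : Piece V)
    (hP : (P.edges : Set (Sym2 V)) ⊆ S) : ∃ n, P.Le (Pn n) := by
  have h1 : ∀ᶠ n in atTop, ∀ f ∈ P.edges, f ∈ (Pn n).edges := by
    rw [Filter.eventually_all_finset]
    intro f hf
    obtain ⟨m, hm⟩ := h.cover_edges f (hP hf)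
    exact (eventually_ge_atTop m).mono fun n hn => (h.le_of_le hn).2 hm
  have h2 : ∀ᶠ n in atTop, ∀ x ∈ P.verts, x ∈ (Pn n).verts := by
    rw [Filter.eventually_all_finset]
    intro x hx
    obtain ⟨m, hm⟩ := h.cover_verts x
    exact (eventually_ge_atTop m).mono fun n hn => (h.le_of_le hn).1 hm
  obtain ⟨n, hn1, hn2⟩ := (h1.and h2).exists
  exact ⟨n, hn2, hn1⟩

lemma pE_eq_zero (P : Piece V) (c : Sym2 V → ℝ) {e : Sym2 V} (he : e ∉ P.edges) : pE P c e = 0 := by
  have h0 : treeSum P.u P.v (fun f => c f.1) (fun T => ∃ f ∈ T, f.1 = e) = 0 := by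
    unfold treeSum
    refine Finset.sum_eq_zero fun T hT => ?_
    simp only [Finset.mem_filter, Finset.mem_univ, true_and] at hT
    obtain ⟨_, f, _, rfl⟩ := hT
    exact absurd f.2 he
  unfold pE
  rw [h0, zero_div]

/-- Along an exhaustion, `bG` is the limit of the marginals. -/
lemma bG_eq_iInf {S : Set (Sym2 V)} {Pn : ℕ → Piece V} (h : IsExh S Pn) {e : Sym2 V}
    (he : e ∈ (Pn 0).edges) (y : Sym2 V → ℝ) :
    bG S y e = 2 * (⨅ k, pE (Pn k) (cond y) e) - 1 := by
  have heS : e ∈ S := h.sub 0 he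
  have hemem : ∀ k, e ∈ (Pn k).edges := fun k => (h.le_of_le (Nat.zero_le k)).2 he
  have hbdd : BddBelow (Set.range fun k => pE (Pn k) (cond y) e) :=
    ⟨0, by rintro _ ⟨k, rfl⟩; exact pE_nonneg _ (cond_pos y) e⟩
  have := nonempty_piece e
  unfold bG
  rw [if_pos heS]
  change (⨅ P, bTerm S e y P) = _
  apply le_antisymm
  · have h1 : ((⨅ P, bTerm S e y P) + 1) / 2 ≤ ⨅ k, pE (Pn k) (cond y) e := by
      refine le_ciInf fun k => ?_
      have h2 := ciInf_le (bddBelow_bTerm S e y) (Pn k)
      have h3 : bTerm S e y (Pn k) = bP (Pn k) y e := by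
        unfold bTerm
        rw [if_pos ⟨h.sub k, hemem k⟩]
      rw [h3] at h2
      unfold bP at h2
      linarith
    linarith
  · refine le_ciInf fun P => ?_
    unfold bTerm
    split_ifs with hP
    · obtain ⟨n, hn⟩ := h.exists_le P hP.1
      have h1 : (⨅ k, pE (Pn k) (cond y) e) ≤ pE (Pn n) (cond y) e := ciInf_le hbdd n
      have h2 := pE_mono hn (cond_pos y) hP.2
      unfold bP
      linarith
    · have h1 : (⨅ k, pE (Pn k) (cond y) e) ≤ pE (Pn 0) (cond y) e := ciInf_le hbdd 0
      have h2 := pE_le_one (Pn 0) (cond_pos y) e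
      linarith

/-- Far-field continuity for the drifts. -/
theorem bP_tendsto_bG {S : Set (Sym2 V)} {Pn : ℕ → Piece V} (h : IsExh S Pn)
    (yn : ℕ → Sym2 V → ℝ) (y : Sym2 V → ℝ) (C : ℝ)
    (hlim : ∀ f, Tendsto (fun n => yn n f) atTop (𝓝 (y f))) (hbd : ∀ n f, |yn n f - y f| ≤ C)
    (e : Sym2 V) : Tendsto (fun n => bP (Pn n) (yn n) e) atTop (𝓝 (bG S y e)) := by
  by_cases heS : e ∈ S
  · obtain ⟨n0, hn0⟩ := h.cover_edges e heS
    have hQ := h.shift n0
    have he0 : e ∈ (Pn (0 + n0)).edges := by rwa [zero_add]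
    rw [← tendsto_add_atTop_iff_nat n0]
    rw [bG_eq_iInf hQ he0 y]
    unfold bP
    refine ((tendsto_const_nhds (x := (2 : ℝ))).mul ?_).sub_const 1
    refine pE_far_tendsto hQ.mono he0 (cond_pos y) (fun n f => cond_pos _ f) (fun f => ?_)
      (K := Real.exp (2 * C)) (fun n f => ?_)
    · unfold cond
      exact (Real.continuous_exp.tendsto _).comp (((hlim f).comp (tendsto_add_atTop_nat n0)).const_mul 2)
    · unfold cond
      rw [← Real.exp_add]
      apply Real.exp_le_exp.2
      have := (abs_le.1 (hbd (n + n0) f)).2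
      linarith
  · have h1 : ∀ n, bP (Pn n) (yn n) e = -1 := by
      intro n
      unfold bP
      rw [pE_eq_zero _ _ (fun hmem => heS (h.sub n hmem))]
      ring
    have h2 : bG S y e = -1 := by
      unfold bG
      rw [if_neg heS]
    simp_rw [h1, h2]
    exact tendsto_const_nhds

/-! ### Joint measurability in the graph -/

/-- Pieces form a countable family. -/
lemma countable_piece [Countable V] : Countable (Piece V) := by
  let j : Piece V → Finset V × Finset (Sym2 V) := fun P => (P.verts, P.edges)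
  have hj : Function.Injective j := by
    rintro ⟨a, b, _, _, _, _⟩ ⟨a', b', _, _, _, _⟩ h
    simp only [j, Prod.mk.injEq] at h
    obtain ⟨rfl, rfl⟩ := h
    rfl
  exact hj.countable

lemma measurable_bP_apply (P : Piece V) (e : Sym2 V) : Measurable fun y => bP P y e :=
  (isDrift_bP P).meas e

/-- Joint measurability of `bG`. -/
theorem measurable_bG [Countable V] (e : Sym2 V) :
    Measurable fun q : Set (Sym2 V) × (Sym2 V → ℝ) => bG q.1 q.2 e := by
  have := countable_piece (V := V)
  have hmem : ∀ f : Sym2 V, MeasurableSet {q : Set (Sym2 V) × (Sym2 V → ℝ) | f ∈ q.1} := by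
    intro f
    exact measurableSet_setOfPred.2 ((measurable_set_mem f).comp measurable_fst)
  unfold bG
  refine Measurable.ite (hmem e) ?_ measurable_const
  refine Measurable.iInf fun P => ?_
  by_cases hP : e ∈ P.edges
  · refine Measurable.ite ?_ ((measurable_bP_apply P e).comp measurable_snd) measurable_const
    have : {q : Set (Sym2 V) × (Sym2 V → ℝ) | (P.edges : Set (Sym2 V)) ⊆ q.1 ∧ e ∈ P.edges}
        = ⋂ f ∈ P.edges, {q | f ∈ q.1} := by
      ext q
      simp only [Set.mem_ofPred_eq, Set.mem_iInter, hP, and_true]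
      exact Iff.rfl
    rw [this]
    exact Finset.measurableSet_biInter _ fun f _ => hmem f
  · simp only [hP, and_false, if_false]
    exact measurable_const

/-! ### Equivariance -/

/-- The action of a bijection of the vertices on unordered pairs. -/
def symE (π : V ≃ V) : Sym2 V ≃ Sym2 V where
  toFun := Sym2.map π
  invFun := Sym2.map π.symm
  left_inv e := by
    rw [Sym2.map_map]
    simp
  right_inv e := by
    rw [Sym2.map_map]
    simp

lemma isSpanTree_iso {V₁ F₁ V₂ F₂ : Type*} [Fintype V₁] [Fintype V₂] {u₁ v₁ : F₁ → V₁}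
    {u₂ v₂ : F₂ → V₂} (i : V₁ ≃ V₂) (j : F₁ ≃ F₂)
    (h : ∀ f, (u₂ (j f) = i (u₁ f) ∧ v₂ (j f) = i (v₁ f)) ∨ (u₂ (j f) = i (v₁ f) ∧ v₂ (j f) = i (u₁ f)))
    (T : Finset F₁) : IsSpanTree u₂ v₂ (T.map j.toEmbedding) ↔ IsSpanTree u₁ v₁ T := by
  unfold IsSpanTree
  rw [Finset.card_map, Fintype.card_congr i]
  refine and_congr_right fun _ => ⟨fun H x y => ?_, fun H x y => ?_⟩
  · have h1 := H (i x) (i y)
    have h2 := Relation.ReflTransGen.lift
      (p := fun a b => ∃ f ∈ T, (u₁ f = a ∧ v₁ f = b) ∨ (u₁ f = b ∧ v₁ f = a)) i.symm ?_ _ _ h1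
    · simpa [Function.onFun] using h2
    · rintro a b ⟨f₂, hf₂, hab⟩
      obtain ⟨f, hf, rfl⟩ := Finset.mem_map.1 hf₂
      refine ⟨f, hf, ?_⟩
      simp only [Equiv.coe_toEmbedding] at hab
      rcases h f with ⟨h1, h2⟩ | ⟨h1, h2⟩ <;> rcases hab with ⟨h3, h4⟩ | ⟨h3, h4⟩
      · left; rw [← h3, ← h4, h1, h2]; simp
      · right; rw [← h3, ← h4, h1, h2]; simp
      · right; rw [← h3, ← h4, h1, h2]; simp
      · left; rw [← h3, ← h4, h1, h2]; simp
  · have h1 := H (i.symm x) (i.symm y)
    have h2 := Relation.ReflTransGen.lift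
      (p := fun a b => ∃ f ∈ T.map j.toEmbedding, (u₂ f = a ∧ v₂ f = b) ∨ (u₂ f = b ∧ v₂ f = a)) i ?_ _ _ h1
    · simpa [Function.onFun] using h2
    · rintro a b ⟨f, hf, hab⟩
      refine ⟨j f, Finset.mem_map_of_mem _ hf, ?_⟩
      rcases h f with ⟨h1, h2⟩ | ⟨h1, h2⟩ <;> rcases hab with ⟨rfl, rfl⟩ | ⟨rfl, rfl⟩
      · left; exact ⟨h1, h2⟩
      · right; exact ⟨h1, h2⟩
      · right; exact ⟨h1, h2⟩
      · left; exact ⟨h1, h2⟩

lemma treeSum_iso {V₁ F₁ V₂ F₂ : Type*} [Fintype V₁] [Fintype V₂] [Fintype F₁] [Fintype F₂]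
    {u₁ v₁ : F₁ → V₁} {u₂ v₂ : F₂ → V₂} (i : V₁ ≃ V₂) (j : F₁ ≃ F₂)
    (h : ∀ f, (u₂ (j f) = i (u₁ f) ∧ v₂ (j f) = i (v₁ f)) ∨ (u₂ (j f) = i (v₁ f) ∧ v₂ (j f) = i (u₁ f)))
    {c₁ : F₁ → ℝ} {c₂ : F₂ → ℝ} (hc : ∀ f, c₂ (j f) = c₁ f) {A₁ : Finset F₁ → Prop}
    {A₂ : Finset F₂ → Prop} (hA : ∀ T, A₂ (T.map j.toEmbedding) ↔ A₁ T) :
    treeSum u₂ v₂ c₂ A₂ = treeSum u₁ v₁ c₁ A₁ := by
  unfold treeSum
  symm
  refine Finset.sum_equiv (Equiv.finsetCongr j) (fun T => ?_) (fun T _ => ?_)
  · simp only [Finset.mem_filter, Finset.mem_univ, true_and, Equiv.finsetCongr_apply]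
    rw [isSpanTree_iso i j h, hA]
  · simp only [Equiv.finsetCongr_apply, Finset.prod_map, Equiv.coe_toEmbedding, hc]

/-- The image of a piece under a bijection of the vertices. -/
def Piece.map (π : V ≃ V) (P : Piece V) : Piece V where
  verts := P.verts.map π.toEmbedding
  edges := P.edges.map (symE π).toEmbedding
  ne := P.ne.map
  mem := by
    intro e he x hx
    obtain ⟨f, hf, rfl⟩ := Finset.mem_map.1 he
    simp only [Equiv.coe_toEmbedding, symE, Equiv.coe_fn_mk, Sym2.mem_map] at hx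
    obtain ⟨a, ha, rfl⟩ := hx
    exact Finset.mem_map_of_mem _ (P.mem f hf a ha)
  nondiag := by
    intro e he
    obtain ⟨f, hf, rfl⟩ := Finset.mem_map.1 he
    simp only [Equiv.coe_toEmbedding, symE, Equiv.coe_fn_mk]
    rw [Sym2.isDiag_map π.injective]
    exact P.nondiag f hf
  conn := by
    intro x hx y hy
    obtain ⟨a, ha, rfl⟩ := Finset.mem_map.1 hx
    obtain ⟨b, hb, rfl⟩ := Finset.mem_map.1 hy
    refine Relation.ReflTransGen.lift π ?_ _ _ (P.conn a ha b hb)
    intro c d hcd
    refine Finset.mem_map.2 ⟨_, hcd, ?_⟩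
    simp [symE]

lemma Piece.map_edges_mem (π : V ≃ V) (P : Piece V) (f : Sym2 V) :
    symE π f ∈ (P.map π).edges ↔ f ∈ P.edges := by
  simp only [Piece.map, Finset.mem_map_equiv, Equiv.symm_apply_apply]

/-- Invariance of the marginals under a bijection of the vertices. -/
theorem pE_map (π : V ≃ V) (P : Piece V) (c : Sym2 V → ℝ) (e : Sym2 V) :
    pE (P.map π) c (symE π e) = pE P (c ∘ symE π) e := by
  let i : P.verts ≃ (P.map π).verts := Equiv.subtypeEquiv π (fun x => by
    simp [Piece.map])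
  let j : P.edges ≃ (P.map π).edges := Equiv.subtypeEquiv (symE π) (fun f =>
    (Piece.map_edges_mem π P f).symm)
  have hij : ∀ f, ((P.map π).u (j f) = i (P.u f) ∧ (P.map π).v (j f) = i (P.v f)) ∨
      ((P.map π).u (j f) = i (P.v f) ∧ (P.map π).v (j f) = i (P.u f)) := by
    intro f
    have h1 : s(((j f).1).out.1, ((j f).1).out.2) = s(π f.1.out.1, π f.1.out.2) := by
      rw [Piece.mk_out]
      show symE π f.1 = _
      conv_lhs => rw [← Piece.mk_out f.1]
      rfl
    rcases Sym2.eq_iff.1 h1 with ⟨h2, h3⟩ | ⟨h2, h3⟩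
    · exact Or.inl ⟨Subtype.ext h2, Subtype.ext h3⟩
    · exact Or.inr ⟨Subtype.ext h2, Subtype.ext h3⟩
  have hc : ∀ f : P.edges, c (j f).1 = (c ∘ symE π) f.1 := fun f => rfl
  unfold pE
  rw [treeSum_iso i j hij (c₁ := fun f => (c ∘ symE π) f.1) (c₂ := fun f => c f.1) hc
      (A₁ := fun T => ∃ f ∈ T, f.1 = e) (A₂ := fun T => ∃ f ∈ T, f.1 = symE π e) ?_,
    treeSum_iso i j hij (c₁ := fun f => (c ∘ symE π) f.1) (c₂ := fun f => c f.1) hc
      (A₁ := fun _ => True) (A₂ := fun _ => True) (fun _ => Iff.rfl)]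
  intro T
  constructor
  · rintro ⟨f₂, hf₂, hf₂e⟩
    obtain ⟨f, hf, rfl⟩ := Finset.mem_map.1 hf₂
    refine ⟨f, hf, (symE π).injective hf₂e⟩
  · rintro ⟨f, hf, rfl⟩
    exact ⟨j f, Finset.mem_map_of_mem _ hf, rfl⟩

lemma cond_comp (y : Sym2 V → ℝ) (τ : Sym2 V ≃ Sym2 V) : cond y ∘ τ = cond (y ∘ τ) := rfl

/-- Invariance of the drift of a piece. -/
theorem bP_map (π : V ≃ V) (P : Piece V) (y : Sym2 V → ℝ) (e : Sym2 V) :
    bP (P.map π) y (symE π e) = bP P (y ∘ symE π) e := by
  unfold bP
  rw [pE_map, cond_comp]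

lemma Piece.ext' {P Q : Piece V} (h1 : P.verts = Q.verts) (h2 : P.edges = Q.edges) : P = Q := by
  cases P
  cases Q
  simp_all

lemma Piece.map_symm_map (π : V ≃ V) (P : Piece V) : (P.map π.symm).map π = P := by
  refine Piece.ext' ?_ ?_
  · ext x
    simp [Piece.map]
  · ext f
    simp only [Piece.map, Finset.mem_map_equiv]
    have : (symE π.symm).symm ((symE π).symm f) = f := by
      show Sym2.map π.symm.symm (Sym2.map π.symm f) = f
      rw [Sym2.map_map]
      simp
    rw [this]

/-- Invariance of the drift of a graph. -/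
theorem bG_map (π : V ≃ V) (S : Set (Sym2 V)) (y : Sym2 V → ℝ) (e : Sym2 V) :
    bG (symE π '' S) y (symE π e) = bG S (y ∘ symE π) e := by
  unfold bG
  have hiff : symE π e ∈ symE π '' S ↔ e ∈ S := (symE π).injective.mem_set_image
  by_cases he : e ∈ S
  · rw [if_pos (hiff.2 he), if_pos he]
    let τ : Piece V ≃ Piece V :=
      { toFun := Piece.map π
        invFun := Piece.map π.symm
        left_inv := fun P => by
          have := Piece.map_symm_map π.symm P
          simpa using this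
        right_inv := fun P => Piece.map_symm_map π P }
    refine (τ.iInf_congr fun P => ?_).symm
    show (if (((P.map π).edges : Set (Sym2 V)) ⊆ symE π '' S ∧ symE π e ∈ (P.map π).edges) then
      bP (P.map π) y (symE π e) else 1) = _
    have hc1 : (((P.map π).edges : Set (Sym2 V)) ⊆ symE π '' S) ↔ ((P.edges : Set (Sym2 V)) ⊆ S) := by
      constructor
      · intro h f hf
        have h2 := h ((Piece.map_edges_mem π P f).2 hf)
        exact (symE π).injective.mem_set_image.1 h2
      · intro h f hf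
        obtain ⟨g, hg, rfl⟩ := Finset.mem_map.1 hf
        exact ⟨g, h hg, rfl⟩
    simp only [hc1, Piece.map_edges_mem, bP_map]
  · rw [if_neg (fun h => he (hiff.1 h)), if_neg he]

end

end Vale.Agent.Lib.P143B
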