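import Vale.Agent.Lib.P143B.Piece

/-!
Track B of P143: monotonicity of edge marginals under inclusion of pieces, the multiplicative bound
for comparable conductances, and far-field continuity along an exhaustion.
-/

set_option linter.unusedVariables false
set_option linter.unusedSectionVars false

open Finset Filter Topology
open Vale.Agent.Lib.P143

namespace Vale.Agent.Lib.P143B

noncomputable section

open Classical

variable {V : Type*}

/-- Inclusion of pieces. -/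
def Piece.Le (P Q : Piece V) : Prop := P.verts ⊆ Q.verts ∧ P.edges ⊆ Q.edges

lemma Piece.Le.refl (P : Piece V) : P.Le P := ⟨Finset.Subset.refl _, Finset.Subset.refl _⟩

lemma Piece.Le.trans {P Q R : Piece V} (h : P.Le Q) (h' : Q.Le R) : P.Le R :=
  ⟨h.1.trans h'.1, h.2.trans h'.2⟩

/-- Extension by zero of a unit flow to a larger piece. -/
lemma isFlow_ext {P Q : Piece V} (hPQ : P.Le Q) {a b : V} (ha : a ∈ P.verts) (hb : b ∈ P.verts)
    {ψ : Sym2 V → ℝ} (h0 : ∀ f, f ∉ P.edges → ψ f = 0) (hψ : IsFlow P.edges a b ψ) :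
    IsFlow Q.edges a b ψ := by
  intro x
  have h1 : Dv Q.edges ψ x = Dv P.edges ψ x := by
    unfold Dv
    symm
    refine Finset.sum_subset hPQ.2 fun f _ hf => ?_
    rw [h0 f hf]; ring
  rw [h1, hψ x]

/-- The flow along a single edge. -/
lemma isFlow_edge {E : Finset (Sym2 V)} {e : Sym2 V} (he : e ∈ E) :
    IsFlow E e.out.1 e.out.2 (fun f => if f = e then 1 else 0) := by
  intro x
  unfold Dv
  rw [Finset.sum_eq_single e]
  · simp only [if_true, one_mul]
    rw [ind_congr (eq_comm (a := e.out.1)), ind_congr (eq_comm (a := e.out.2))]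
  · intro f _ hf
    simp [hf]
  · exact fun h => absurd he h

/-- Cauchy-Schwarz for the energy pairing on a finite set. -/
lemma cs_sum {ι : Type*} (A : Finset ι) {c : ι → ℝ} (hc : ∀ f, 0 < c f) (a b : ι → ℝ) :
    (∑ f ∈ A, a f * b f / c f) ^ 2 ≤ (∑ f ∈ A, a f * a f / c f) * (∑ f ∈ A, b f * b f / c f) := by
  have := Finset.sum_mul_sq_le_sq_mul_sq A (fun f => a f / Real.sqrt (c f))
    (fun f => b f / Real.sqrt (c f))
  have hs : ∀ f, Real.sqrt (c f) ^ 2 = c f := fun f => Real.sq_sqrt (hc f).le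
  have e1 : ∀ (a b : ι → ℝ) f, a f / Real.sqrt (c f) * (b f / Real.sqrt (c f)) = a f * b f / c f := by
    intro a b f
    rw [div_mul_div_comm, ← sq, hs]
  have e2 : ∀ (a : ι → ℝ) f, (a f / Real.sqrt (c f)) ^ 2 = a f * a f / c f := by
    intro a f
    rw [div_pow, hs, sq]
  simp_rw [e1, e2] at this
  exact this

lemma self_energy_nonneg {ι : Type*} (A : Finset ι) {c : ι → ℝ} (hc : ∀ f, 0 < c f) (a : ι → ℝ) :
    0 ≤ ∑ f ∈ A, a f * a f / c f :=
  Finset.sum_nonneg fun f _ => div_nonneg (mul_self_nonneg _) (hc f).le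

/-- Monotonicity of edge marginals under inclusion of pieces. -/
theorem pE_mono {P Q : Piece V} (hPQ : P.Le Q) {c : Sym2 V → ℝ} (hc : ∀ f, 0 < c f) {e : Sym2 V}
    (he : e ∈ P.edges) : pE Q c e ≤ pE P c e := by
  obtain ⟨φ, R, h0, hfl, hpair, hp⟩ := exists_current P hc he
  obtain ⟨φ', R', h0', hfl', hpair', hp'⟩ := exists_current Q hc (hPQ.2 he)
  have ha : e.out.1 ∈ P.verts := P.mem e he _ (Sym2.out_fst_mem _)
  have hb : e.out.2 ∈ P.verts := P.mem e he _ (Sym2.out_snd_mem _)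
  have hfl2 := isFlow_ext hPQ ha hb h0 hfl
  have h1 : ∑ f ∈ Q.edges, φ f * φ' f / c f = R' := hpair' φ hfl2
  have h2 : ∑ f ∈ Q.edges, φ' f * φ' f / c f = R' := hpair' φ' hfl'
  have h3 : ∑ f ∈ Q.edges, φ f * φ f / c f = R := by
    rw [← hpair φ hfl]
    symm
    refine Finset.sum_subset hPQ.2 fun f _ hf => ?_
    rw [h0 f hf]; ring
  have hcs := cs_sum Q.edges hc φ φ'
  rw [h1, h2, h3] at hcs
  have hR' : 0 ≤ R' := h2 ▸ self_energy_nonneg _ hc _
  have hR : 0 ≤ R := h3 ▸ self_energy_nonneg _ hc _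
  have hle : R' ≤ R := by
    by_contra h
    push Not at h
    have : 0 < R' := lt_of_le_of_lt hR h
    nlinarith
  rw [hp, hp']
  exact mul_le_mul_of_nonneg_left hle (hc e).le

/-- The multiplicative bound for comparable conductances. -/
theorem pE_mul_le (P : Piece V) {c c' : Sym2 V → ℝ} (hc : ∀ f, 0 < c f) (hc' : ∀ f, 0 < c' f) {κ : ℝ}
    (h1 : ∀ f, c' f ≤ κ * c f) (h2 : ∀ f, c f ≤ κ * c' f) (e : Sym2 V) :
    pE P c' e ≤ κ ^ 2 * pE P c e := by
  by_cases he : e ∈ P.edges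
  · obtain ⟨φ, R, h0, hfl, hpair, hp⟩ := exists_current P hc he
    obtain ⟨φ', R', h0', hfl', hpair', hp'⟩ := exists_current P hc' he
    have hκ : 0 < κ := by
      by_contra h
      push Not at h
      have := h2 e
      have h3 : κ * c' e ≤ 0 := mul_nonpos_of_nonpos_of_nonneg h (hc' e).le
      linarith [hc e]
    have e1 : ∑ f ∈ P.edges, φ f * φ' f / c' f = R' := hpair' φ hfl
    have e2 : ∑ f ∈ P.edges, φ' f * φ' f / c' f = R' := hpair' φ' hfl'
    have e3 : ∑ f ∈ P.edges, φ f * φ f / c f = R := hpair φ hfl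
    have hcs := cs_sum P.edges hc' φ φ'
    rw [e1, e2] at hcs
    have hR' : 0 ≤ R' := e2 ▸ self_energy_nonneg _ hc' _
    have hR : 0 ≤ R := e3 ▸ self_energy_nonneg _ hc _
    have hE : ∑ f ∈ P.edges, φ f * φ f / c' f ≤ κ * R := by
      rw [← e3, Finset.mul_sum]
      refine Finset.sum_le_sum fun f _ => ?_
      rw [div_le_iff₀ (hc' f)]
      have h5 : φ f * φ f / c f * c f = φ f * φ f := div_mul_cancel₀ _ (hc f).ne'
      have h4 : φ f * φ f / c f * c f ≤ φ f * φ f / c f * (κ * c' f) :=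
        mul_le_mul_of_nonneg_left (h2 f) (div_nonneg (mul_self_nonneg _) (hc f).le)
      rw [h5] at h4
      calc φ f * φ f ≤ φ f * φ f / c f * (κ * c' f) := h4
        _ = κ * (φ f * φ f / c f) * c' f := by ring
    have hle : R' ≤ κ * R := by
      by_contra h
      push Not at h
      have h6 : 0 < R' := lt_of_le_of_lt (mul_nonneg hκ.le hR) h
      nlinarith
    rw [hp, hp']
    calc c' e * R' ≤ (κ * c e) * (κ * R) := mul_le_mul (h1 e) hle hR' (mul_pos hκ (hc e)).le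
      _ = κ ^ 2 * (c e * R) := by ring
  · -- `e` is not an edge of the piece: the probability vanishes
    have hz : ∀ c : Sym2 V → ℝ, pE P c e = 0 := by
      intro c
      have h0 : treeSum P.u P.v (fun f => c f.1) (fun T => ∃ f ∈ T, f.1 = e) = 0 := by
        unfold treeSum
        refine Finset.sum_eq_zero fun T hT => ?_
        simp only [Finset.mem_filter, Finset.mem_univ, true_and] at hT
        obtain ⟨_, f, _, rfl⟩ := hT
        exact absurd f.2 he
      unfold pE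
      rw [h0, zero_div]
    rw [hz, hz]
    simp

/-! ### Continuity in finitely many coordinates -/

lemma treeSum_tendsto (P : Piece V) {cn : ℕ → Sym2 V → ℝ} {c : Sym2 V → ℝ}
    (h : ∀ f, Tendsto (fun n => cn n f) atTop (𝓝 (c f))) (A : Finset P.edges → Prop) :
    Tendsto (fun n => treeSum P.u P.v (fun f => cn n f.1) A) atTop
      (𝓝 (treeSum P.u P.v (fun f => c f.1) A)) := by
  unfold treeSum
  exact tendsto_finsetSum _ fun T _ => tendsto_finsetProd _ fun f _ => h f.1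

lemma pE_tendsto (P : Piece V) {cn : ℕ → Sym2 V → ℝ} {c : Sym2 V → ℝ} (hc : ∀ f, 0 < c f)
    (h : ∀ f, Tendsto (fun n => cn n f) atTop (𝓝 (c f))) (e : Sym2 V) :
    Tendsto (fun n => pE P (cn n) e) atTop (𝓝 (pE P c e)) := by
  unfold pE
  exact (treeSum_tendsto P h _).div (treeSum_tendsto P h _) (treeSum_total_pos P hc).ne'

/-! ### Far-field continuity -/

/-- The basic inequality behind far-field continuity. -/
lemma f6_ineq {ι : Type*} {S Q : Finset ι} (hSQ : S ⊆ Q) {c c' : ι → ℝ} (hc : ∀ f, 0 < c f)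
    (hc' : ∀ f, 0 < c' f) {θ φ φk : ι → ℝ} {R Rk X κ K : ℝ} (hκ : 0 ≤ κ) (hK : 0 ≤ K)
    (h0 : ∀ f ∈ Q, f ∉ S → φk f = 0)
    (h1 : ∑ f ∈ Q, φk f * φ f / c f = R) (h2 : ∑ f ∈ Q, φ f * φ f / c f = R)
    (h3 : ∑ f ∈ Q, θ f * φ f / c f = R) (h4 : ∑ f ∈ Q, φk f * φk f / c f = Rk)
    (h5 : ∑ f ∈ Q, θ f * θ f / c' f = X)
    (hκS : ∀ f ∈ S, c' f ≤ κ * c f) (hKQ : ∀ f ∈ Q, c' f ≤ K * c f) :
    ∃ A B, R = A + B ∧ A ^ 2 ≤ κ * X * R ∧ B ^ 2 ≤ K * X * (Rk - R) := by
  classical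
  set F := Q \ S with hF
  have hsplit : ∀ g : ι → ℝ, ∑ f ∈ F, g f + ∑ f ∈ S, g f = ∑ f ∈ Q, g f :=
    fun g => Finset.sum_sdiff hSQ
  have hnn : ∀ (A : Finset ι) (a : ι → ℝ), 0 ≤ ∑ f ∈ A, a f * a f / c f :=
    fun A a => self_energy_nonneg A hc a
  have hnn' : ∀ (A : Finset ι) (a : ι → ℝ), 0 ≤ ∑ f ∈ A, a f * a f / c' f :=
    fun A a => self_energy_nonneg A hc' a
  -- the far part of `φ`
  have hD : ∑ f ∈ F, φ f * φ f / c f ≤ Rk - R := by
    have e1 : ∑ f ∈ Q, (φ f - φk f) * (φ f - φk f) / c f = Rk - R := by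
      have : ∀ f, (φ f - φk f) * (φ f - φk f) / c f
          = φ f * φ f / c f - 2 * (φk f * φ f / c f) + φk f * φk f / c f := fun f => by ring
      simp_rw [this]
      rw [Finset.sum_add_distrib, Finset.sum_sub_distrib, ← Finset.mul_sum, h1, h2, h4]
      ring
    have e2 : ∑ f ∈ F, φ f * φ f / c f = ∑ f ∈ F, (φ f - φk f) * (φ f - φk f) / c f := by
      refine Finset.sum_congr rfl fun f hf => ?_
      have hf' := Finset.mem_sdiff.1 hf
      rw [h0 f hf'.1 hf'.2, sub_zero]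
    rw [e2, ← e1, ← hsplit (fun f => (φ f - φk f) * (φ f - φk f) / c f)]
    have := hnn S (fun f => φ f - φk f)
    linarith
  have hNear : ∑ f ∈ S, φ f * φ f / c f ≤ R := by
    rw [← h2, ← hsplit (fun f => φ f * φ f / c f)]
    have := hnn F φ
    linarith
  -- the energy of `θ`, near and far
  have hXn : 0 ≤ X := h5 ▸ hnn' Q θ
  have hθS : ∑ f ∈ S, θ f * θ f / c f ≤ κ * X := by
    have e1 : ∑ f ∈ S, θ f * θ f / c f ≤ ∑ f ∈ S, κ * (θ f * θ f / c' f) := by
      refine Finset.sum_le_sum fun f hf => ?_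
      rw [div_le_iff₀ (hc f)]
      have h6 : θ f * θ f / c' f * c' f = θ f * θ f := div_mul_cancel₀ _ (hc' f).ne'
      have h7 : θ f * θ f / c' f * c' f ≤ θ f * θ f / c' f * (κ * c f) :=
        mul_le_mul_of_nonneg_left (hκS f hf) (div_nonneg (mul_self_nonneg _) (hc' f).le)
      rw [h6] at h7
      calc θ f * θ f ≤ θ f * θ f / c' f * (κ * c f) := h7
        _ = κ * (θ f * θ f / c' f) * c f := by ring
    have e2 : ∑ f ∈ S, θ f * θ f / c' f ≤ X := by
      rw [← h5, ← hsplit (fun f => θ f * θ f / c' f)]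
      have := hnn' F θ
      linarith
    rw [← Finset.mul_sum] at e1
    exact e1.trans (mul_le_mul_of_nonneg_left e2 hκ)
  have hθF : ∑ f ∈ F, θ f * θ f / c f ≤ K * X := by
    have e1 : ∑ f ∈ F, θ f * θ f / c f ≤ ∑ f ∈ F, K * (θ f * θ f / c' f) := by
      refine Finset.sum_le_sum fun f hf => ?_
      have hfQ := (Finset.mem_sdiff.1 hf).1
      rw [div_le_iff₀ (hc f)]
      have h6 : θ f * θ f / c' f * c' f = θ f * θ f := div_mul_cancel₀ _ (hc' f).ne'
      have h7 : θ f * θ f / c' f * c' f ≤ θ f * θ f / c' f * (K * c f) :=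
        mul_le_mul_of_nonneg_left (hKQ f hfQ) (div_nonneg (mul_self_nonneg _) (hc' f).le)
      rw [h6] at h7
      calc θ f * θ f ≤ θ f * θ f / c' f * (K * c f) := h7
        _ = K * (θ f * θ f / c' f) * c f := by ring
    have e2 : ∑ f ∈ F, θ f * θ f / c' f ≤ X := by
      rw [← h5, ← hsplit (fun f => θ f * θ f / c' f)]
      have := hnn' S θ
      linarith
    rw [← Finset.mul_sum] at e1
    exact e1.trans (mul_le_mul_of_nonneg_left e2 hK)
  refine ⟨∑ f ∈ S, θ f * φ f / c f, ∑ f ∈ F, θ f * φ f / c f, ?_, ?_, ?_⟩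
  · rw [← h3, ← hsplit (fun f => θ f * φ f / c f)]; ring
  · calc (∑ f ∈ S, θ f * φ f / c f) ^ 2
        ≤ (∑ f ∈ S, θ f * θ f / c f) * (∑ f ∈ S, φ f * φ f / c f) := cs_sum S hc θ φ
      _ ≤ (κ * X) * R := mul_le_mul hθS hNear (hnn S φ) (mul_nonneg hκ hXn)
  · calc (∑ f ∈ F, θ f * φ f / c f) ^ 2
        ≤ (∑ f ∈ F, θ f * θ f / c f) * (∑ f ∈ F, φ f * φ f / c f) := cs_sum F hc θ φ
      _ ≤ (K * X) * (Rk - R) := mul_le_mul hθF hD (hnn F φ) (mul_nonneg hK hXn)

/-- The inequality of `f6_ineq` for currents of pieces. -/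
lemma f6_step {P Q : Piece V} (hPQ : P.Le Q) {e : Sym2 V} (he : e ∈ P.edges) {c c' : Sym2 V → ℝ}
    (hc : ∀ f, 0 < c f) (hc' : ∀ f, 0 < c' f) {κ K : ℝ} (hκ : 0 ≤ κ) (hK : 0 ≤ K)
    (hκS : ∀ f ∈ P.edges, c' f ≤ κ * c f) (hKQ : ∀ f, c' f ≤ K * c f) :
    ∃ A B, pE Q c e / c e = A + B ∧
      A ^ 2 ≤ κ * (pE Q c' e / c' e) * (pE Q c e / c e) ∧
      B ^ 2 ≤ K * (pE Q c' e / c' e) * (pE P c e / c e - pE Q c e / c e) := by
  obtain ⟨φk, Rk, h0k, hflk, hpk, hppk⟩ := exists_current P hc he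
  obtain ⟨φ, R, h0, hfl, hp, hpp'⟩ := exists_current Q hc (hPQ.2 he)
  obtain ⟨θ, X, h0θ, hflθ, hpθ, hppθ⟩ := exists_current Q hc' (hPQ.2 he)
  have ha1 : e.out.1 ∈ P.verts := P.mem e he _ (Sym2.out_fst_mem _)
  have hb1 : e.out.2 ∈ P.verts := P.mem e he _ (Sym2.out_snd_mem _)
  have hflk2 := isFlow_ext hPQ ha1 hb1 h0k hflk
  have h1 : ∑ f ∈ Q.edges, φk f * φ f / c f = R := hp φk hflk2
  have h2 : ∑ f ∈ Q.edges, φ f * φ f / c f = R := hp φ hfl
  have h3 : ∑ f ∈ Q.edges, θ f * φ f / c f = R := hp θ hflθ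
  have h4 : ∑ f ∈ Q.edges, φk f * φk f / c f = Rk := by
    rw [← hpk φk hflk]
    symm
    refine Finset.sum_subset hPQ.2 fun f _ hf => ?_
    rw [h0k f hf]; ring
  have h5 : ∑ f ∈ Q.edges, θ f * θ f / c' f = X := hpθ θ hflθ
  have e1 : pE Q c e / c e = R := by rw [hpp']; field_simp [(hc e).ne']
  have e2 : pE P c e / c e = Rk := by rw [hppk]; field_simp [(hc e).ne']
  have e3 : pE Q c' e / c' e = X := by rw [hppθ]; field_simp [(hc' e).ne']
  rw [e1, e2, e3]
  exact f6_ineq hPQ.2 hc hc' hκ hK (fun f _ hf => h0k f hf) h1 h2 h3 h4 h5 hκS (fun f _ => hKQ f)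

/-- The arithmetic of the lower bound. -/
lemma f6_arith {A B R Rk X Rinf η δ K : ℝ} (hAB : R = A + B) (hA : A ^ 2 ≤ (1 + η / 2) * X * R)
    (hB : B ^ 2 ≤ K * X * (Rk - R)) (hRge : Rinf ≤ R) (hRle : R ≤ Rk) (hRk : Rk < Rinf + δ)
    (hδ : δ = (η / 4) ^ 2 * Rinf / (2 * K)) (hRinf0 : 0 < Rinf) (hη0 : 0 < η) (hη1 : η ≤ 1 / 4)
    (hK0 : 0 < K) (hX0 : 0 ≤ X) : (1 - η) * Rinf ≤ X := by
  by_contra hcon
  push Not at hcon
  have hR0 : 0 < R := lt_of_lt_of_le hRinf0 hRge
  have hXlt : X < (1 - η) * R := lt_of_lt_of_le hcon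
    (mul_le_mul_of_nonneg_left hRge (by linarith))
  have hA2 : A ^ 2 ≤ ((1 - η / 4) * R) ^ 2 := by
    have h6 : (1 + η / 2) * X * R ≤ (1 + η / 2) * ((1 - η) * R) * R := by
      have : (1 + η / 2) * X ≤ (1 + η / 2) * ((1 - η) * R) :=
        mul_le_mul_of_nonneg_left hXlt.le (by linarith)
      exact mul_le_mul_of_nonneg_right this hR0.le
    have h7 : (1 + η / 2) * ((1 - η) * R) * R ≤ ((1 - η / 4) * R) ^ 2 := by
      have h8 : (1 + η / 2) * (1 - η) ≤ (1 - η / 4) ^ 2 := by nlinarith [sq_nonneg η]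
      have hRs : 0 ≤ R * R := mul_self_nonneg R
      calc (1 + η / 2) * ((1 - η) * R) * R = ((1 + η / 2) * (1 - η)) * (R * R) := by ring
        _ ≤ (1 - η / 4) ^ 2 * (R * R) := mul_le_mul_of_nonneg_right h8 hRs
        _ = ((1 - η / 4) * R) ^ 2 := by ring
    linarith
  have hA3 : A ≤ (1 - η / 4) * R := by
    have h8 : 0 ≤ (1 - η / 4) * R := mul_nonneg (by linarith) hR0.le
    exact (abs_le_of_sq_le_sq' hA2 h8).2
  have hB1 : (η / 4) * Rinf ≤ B := by
    have h9 : (η / 4) * Rinf ≤ (η / 4) * R :=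
      mul_le_mul_of_nonneg_left hRge (by positivity)
    have h10 : B = R - A := by linarith
    have h11 : (1 - η / 4) * R = R - (η / 4) * R := by ring
    linarith
  have hB2 : ((η / 4) * Rinf) ^ 2 ≤ B ^ 2 :=
    pow_le_pow_left₀ (by positivity) hB1 2
  have hB3 : K * X * (Rk - R) < K * Rinf * δ := by
    have hXR : X ≤ Rinf := by
      have h12 : (1 - η) * Rinf ≤ Rinf := by
        have := mul_pos hη0 hRinf0
        linarith
      linarith
    have hd : Rk - R < δ := by linarith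
    have hd0 : 0 ≤ Rk - R := by linarith
    calc K * X * (Rk - R) ≤ K * Rinf * (Rk - R) :=
          mul_le_mul_of_nonneg_right (mul_le_mul_of_nonneg_left hXR hK0.le) hd0
      _ < K * Rinf * δ := mul_lt_mul_of_pos_left hd (mul_pos hK0 hRinf0)
  have hB4 : K * Rinf * δ = ((η / 4) ^ 2 * Rinf ^ 2) / 2 := by
    rw [hδ]; field_simp
  have hlast : ((η / 4) * Rinf) ^ 2 = (η / 4) ^ 2 * Rinf ^ 2 := by ring
  have hpos : 0 < (η / 4) ^ 2 * Rinf ^ 2 := by positivity
  rw [hlast] at hB2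
  rw [hB4] at hB3
  linarith

/-- Far-field continuity along an increasing sequence of pieces: if conductances converge edgewise
and stay uniformly comparable, the edge marginals converge to the infimum of the marginals of the
limiting conductances. -/
theorem pE_far_tendsto {Pn : ℕ → Piece V} (hmono : ∀ n, (Pn n).Le (Pn (n + 1))) {e : Sym2 V}
    (he : e ∈ (Pn 0).edges) {cn : ℕ → Sym2 V → ℝ} {c : Sym2 V → ℝ} (hc : ∀ f, 0 < c f)
    (hcn : ∀ n f, 0 < cn n f) (hlim : ∀ f, Tendsto (fun n => cn n f) atTop (𝓝 (c f)))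
    {K : ℝ} (hK : ∀ n f, cn n f ≤ K * c f) :
    Tendsto (fun n => pE (Pn n) (cn n) e) atTop (𝓝 (⨅ k, pE (Pn k) c e)) := by
  have hle : ∀ {k n : ℕ}, k ≤ n → (Pn k).Le (Pn n) := by
    intro k n hkn
    induction hkn with
    | refl => exact Piece.Le.refl _
    | step _ ih => exact ih.trans (hmono _)
  have hemem : ∀ k, e ∈ (Pn k).edges := fun k => (hle (Nat.zero_le k)).2 he
  have hbdd : BddBelow (Set.range fun k => pE (Pn k) c e) :=
    ⟨0, by rintro _ ⟨k, rfl⟩; exact pE_nonneg _ hc e⟩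
  have hanti : ∀ {k n : ℕ}, k ≤ n → pE (Pn n) c e ≤ pE (Pn k) c e :=
    fun hkn => pE_mono (hle hkn) hc (hemem _)
  have hK0 : 0 < K := by
    have h1 := hK 0 e
    by_contra h
    push Not at h
    have h3 : K * c e ≤ 0 := mul_nonpos_of_nonpos_of_nonneg h (hc e).le
    linarith [hcn 0 e]
  refine tendsto_order.2 ⟨fun a ha => ?_, fun a ha => ?_⟩
  · -- lower bound
    by_cases ha0 : a < 0
    · exact Eventually.of_forall fun n => lt_of_lt_of_le ha0 (pE_nonneg _ (hcn n) e)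
    push Not at ha0
    have hinf_le : ∀ k, (⨅ k, pE (Pn k) c e) ≤ pE (Pn k) c e := fun k => ciInf_le hbdd k
    obtain ⟨pinf, hpinf⟩ : ∃ pinf, pinf = ⨅ k, pE (Pn k) c e := ⟨_, rfl⟩
    rw [← hpinf] at ha hinf_le
    have hpp : 0 < pinf := lt_of_le_of_lt ha0 ha
    have hce0 : 0 < c e := hc e
    obtain ⟨Rinf, hRinf⟩ : ∃ Rinf, Rinf = pinf / c e := ⟨_, rfl⟩
    have hRinf0 : 0 < Rinf := by rw [hRinf]; exact div_pos hpp hce0
    obtain ⟨η, hη⟩ : ∃ η, η = (pinf - a) / (4 * pinf) := ⟨_, rfl⟩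
    have hη0 : 0 < η := by rw [hη]; exact div_pos (by linarith) (by linarith)
    have hη1 : η ≤ 1 / 4 := by
      rw [hη, div_le_iff₀ (by linarith)]
      linarith
    obtain ⟨δ, hδ⟩ : ∃ δ, δ = (η / 4) ^ 2 * Rinf / (2 * K) := ⟨_, rfl⟩
    have hδ0 : 0 < δ := by rw [hδ]; positivity
    -- a good level `k`
    have hkex : ∃ k, pE (Pn k) c e < pinf + δ * c e := by
      have hlt : (⨅ k, pE (Pn k) c e) < pinf + δ * c e := by
        have : 0 < δ * c e := mul_pos hδ0 hce0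
        rw [← hpinf]; linarith
      exact exists_lt_of_ciInf_lt hlt
    obtain ⟨k, hk⟩ := hkex
    -- eventually the conductances are close on the edges of level `k`
    have hclose : ∀ᶠ n in atTop, ∀ f ∈ (Pn k).edges, cn n f ≤ (1 + η / 2) * c f := by
      rw [Filter.eventually_all_finset]
      intro f _
      have h1 : c f < (1 + η / 2) * c f := by
        have := hc f
        nlinarith
      exact (hlim f).eventually (gt_mem_nhds h1) |>.mono fun n hn => hn.le
    have hce' : ∀ᶠ n in atTop, (1 - η) * c e ≤ cn n e := by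
      have h1 : (1 - η) * c e < c e := by nlinarith
      exact (hlim e).eventually (lt_mem_nhds h1) |>.mono fun n hn => hn.le
    filter_upwards [hclose, hce', eventually_ge_atTop k] with n hn hn' hkn
    obtain ⟨A, B, hAB, hA, hB⟩ := f6_step (hle hkn) (hemem k) hc (hcn n) (κ := 1 + η / 2) (K := K)
      (by linarith) hK0.le hn (hK n)
    have hRge : Rinf ≤ pE (Pn n) c e / c e := by
      rw [hRinf]
      exact div_le_div_of_nonneg_right (hinf_le n) hce0.le
    have hRkle : pE (Pn k) c e / c e < Rinf + δ := by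
      rw [hRinf, div_lt_iff₀ hce0, add_mul, div_mul_cancel₀ _ hce0.ne']
      exact hk
    have hRle : pE (Pn n) c e / c e ≤ pE (Pn k) c e / c e :=
      div_le_div_of_nonneg_right (hanti hkn) hce0.le
    have hX0 : 0 ≤ pE (Pn n) (cn n) e / cn n e :=
      div_nonneg (pE_nonneg _ (hcn n) e) (hcn n e).le
    have hXge := f6_arith hAB hA hB hRge hRle hRkle hδ hRinf0 hη0 hη1 hK0 hX0
    -- conclusion
    have hX' : pE (Pn n) (cn n) e = cn n e * (pE (Pn n) (cn n) e / cn n e) := by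
      field_simp [(hcn n e).ne']
    rw [hX']
    have hpinf_eq : pinf = c e * Rinf := by
      rw [hRinf]; field_simp
    have hη2 : a < (1 - η) * ((1 - η) * pinf) := by
      have h11 : η * pinf = (pinf - a) / 4 := by
        rw [hη]; field_simp
      nlinarith [sq_nonneg η, mul_pos hη0 hpp]
    calc a < (1 - η) * ((1 - η) * pinf) := hη2
      _ = ((1 - η) * c e) * ((1 - η) * Rinf) := by rw [hpinf_eq]; ring
      _ ≤ cn n e * (pE (Pn n) (cn n) e / cn n e) :=
          mul_le_mul hn' hXge (mul_nonneg (by linarith) hRinf0.le) (hcn n e).le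
  · -- upper bound
    obtain ⟨k, hk⟩ := exists_lt_of_ciInf_lt ha
    have h1 := pE_tendsto (Pn k) hc hlim e
    filter_upwards [h1.eventually (gt_mem_nhds hk), eventually_ge_atTop k] with n hn hkn
    exact lt_of_le_of_lt (pE_mono (hle hkn) (hcn n) (hemem k)) hn

end

end Vale.Agent.Lib.P143B
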