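import Vale.Agent.Lib.P143B.GraphLimit
import Vale.Agent.Lib.P143.Law
import Vale.Agent.Lib.P143.FusfDefs

/-!
Track B of P143: joint measurability and equivariance of the factor map, the bridge from subgraphs to
pieces, and the main theorem for all connected locally finite graphs.
-/

set_option linter.unusedVariables false
set_option linter.unusedSectionVars false

open Finset Filter Topology MeasureTheory ProbabilityTheory
open Vale.Agent.Lib.P143
open scoped ENNReal

namespace Vale.Agent.Lib.P143B

noncomputable section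

open Classical

variable {V : Type*} {lab : unitInterval → ℝ} {γ : ℕ → ℕ → ℕ → unitInterval → ℝ}

/-! ### Joint measurability -/

section Meas

variable [Countable V]

lemma measurable_YO_joint (hl : LabelProps V lab γ) (t : ℝ) (e : Sym2 V) :
    Measurable fun q : Set (Sym2 V) × (V → unitInterval) => YO lab γ (bG q.1) q.1 q.2 t e := by
  have hsol := sol_measurable (L := 16) (β := Set (Sym2 V) × (V → unitInterval))
    (b := fun q => bG q.1) (W := fun q => WE lab γ q.1 q.2) (fun q => isDrift_bG q.1)
    (fun f => by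
      have h1 : Measurable fun q' : (Set (Sym2 V) × (V → unitInterval)) × (Sym2 V → ℝ) =>
          ((q'.1.1, q'.2) : Set (Sym2 V) × (Sym2 V → ℝ)) :=
        Measurable.prodMk (measurable_fst.comp measurable_fst) measurable_snd
      have h2 := (measurable_bG f).comp h1
      exact h2)
    (fun f => measurable_WE hl f) e
  have h3 : Measurable fun q : Set (Sym2 V) × (V → unitInterval) =>
      ((q, t) : (Set (Sym2 V) × (V → unitInterval)) × ℝ) :=
    Measurable.prodMk measurable_id measurable_const
  have h4 := hsol.comp h3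
  have h5 := (measurable_WE hl e).comp h3
  exact Measurable.add h4 h5

lemma measurable_rnd_joint (hl : LabelProps V lab γ) (i : ℕ) (e : Sym2 V) :
    Measurable fun q : Set (Sym2 V) × (V → unitInterval) => rnd lab γ q.1 q.2 i e :=
  measurable_clip.comp (measurable_YO_joint hl _ e)

/-- Joint measurability of the factor map. -/
theorem measurable_PhiS (hl : LabelProps V lab γ) :
    Measurable fun q : Set (Sym2 V) × (V → unitInterval) => PhiS lab γ q.1 q.2 := by
  refine measurable_pi_lambda _ fun e => measurable_to_bool ?_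
  have : (fun q : Set (Sym2 V) × (V → unitInterval) => PhiS lab γ q.1 q.2 e) ⁻¹' {true}
      = {q | e ∈ q.1} ∩ {q | 0 < limsup (fun i => rnd lab γ q.1 q.2 i e) atTop} := by
    ext q
    simp [PhiS]
  rw [this]
  refine MeasurableSet.inter ?_ ?_
  · exact measurableSet_setOfPred.2 ((measurable_set_mem e).comp measurable_fst)
  · exact measurableSet_lt measurable_const
      (Measurable.limsup fun i => measurable_rnd_joint hl i e)

end Meas

/-! ### Equivariance -/

lemma WE_map (π : V ≃ V) (S : Set (Sym2 V)) (ω : V → unitInterval) (s : ℝ) (e : Sym2 V) :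
    WE lab γ (symE π '' S) (ω ∘ π.symm) s (symE π e) = WE lab γ S ω s e := by
  unfold WE contW dyW
  congr 1
  funext j
  congr 1
  refine Finset.sum_congr rfl fun l _ => ?_
  exact edgeG_map lab γ π S j l ω e

lemma YO_map (π : V ≃ V) (S : Set (Sym2 V)) (ω : V → unitInterval) (t : ℝ) (e : Sym2 V) :
    YO lab γ (bG (symE π '' S)) (symE π '' S) (ω ∘ π.symm) t (symE π e)
      = YO lab γ (bG S) S ω t e := by
  unfold YO
  rw [WE_map]
  congr 1
  exact sol_equivariant (symE π) (fun y f => bG_map π S y f) (fun s f => WE_map π S ω s f) t e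

lemma rnd_map (π : V ≃ V) (S : Set (Sym2 V)) (ω : V → unitInterval) (i : ℕ) (e : Sym2 V) :
    rnd lab γ (symE π '' S) (ω ∘ π.symm) i (symE π e) = rnd lab γ S ω i e := by
  unfold rnd
  rw [YO_map]

/-- Equivariance of the factor map. -/
theorem PhiS_map (π : V ≃ V) (S : Set (Sym2 V)) (ω : V → unitInterval) (e : Sym2 V) :
    PhiS lab γ (symE π '' S) (ω ∘ π.symm) (symE π e) = PhiS lab γ S ω e := by
  unfold PhiS
  simp only [rnd_map, (symE π).injective.mem_set_image]

lemma PhiS_of_notMem {S : Set (Sym2 V)} (ω : V → unitInterval) {e : Sym2 V} (he : e ∉ S) :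
    PhiS lab γ S ω e = false := by
  unfold PhiS
  simp [he]

/-! ### From subgraphs to pieces -/

section Bridge

variable {G : SimpleGraph V}

/-- The piece of a finite connected subgraph. -/
def pieceOf (S : FS G) : Piece V where
  verts := S.fin.toFinset
  edges := (finite_edgeSet S.H S.fin).toFinset
  ne := by
    obtain ⟨x, hx⟩ := S.conn.nonempty
    exact ⟨x, S.fin.mem_toFinset.2 hx⟩
  mem := by
    intro e he x hx
    rw [Set.Finite.mem_toFinset] at he ⊢
    exact S.H.mem_verts_of_mem_edge he hx
  nondiag := by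
    intro e he
    rw [Set.Finite.mem_toFinset] at he
    exact G.not_isDiag_of_mem_edgeSet (SimpleGraph.Subgraph.edgeSet_subset _ he)
  conn := by
    intro x hx y hy
    rw [Set.Finite.mem_toFinset] at hx hy
    have h1 := S.conn.preconnected ⟨x, hx⟩ ⟨y, hy⟩
    rw [SimpleGraph.reachable_iff_reflTransGen] at h1
    refine Relation.ReflTransGen.lift Subtype.val ?_ _ _ h1
    intro a b hab
    show s(a.1, b.1) ∈ (finite_edgeSet S.H S.fin).toFinset
    rw [Set.Finite.mem_toFinset]
    exact hab

lemma mem_pieceOf_edges (S : FS G) {e : Sym2 V} : e ∈ (pieceOf S).edges ↔ e ∈ S.H.edgeSet :=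
  Set.Finite.mem_toFinset _

lemma mem_pieceOf_verts (S : FS G) {x : V} : x ∈ (pieceOf S).verts ↔ x ∈ S.H.verts :=
  Set.Finite.mem_toFinset _

/-- The exhaustion by pieces. -/
lemma isExh_of_isExhaustion {H : ℕ → G.Subgraph} (hH : IsExhaustion G H) :
    IsExh G.edgeSet (fun n => pieceOf (hH.fs n)) where
  mono := fun n => by
    have h : H n ≤ H (n + 1) := hH.mono (Nat.le_succ n)
    refine ⟨fun x hx => ?_, fun e he => ?_⟩
    · rw [mem_pieceOf_verts] at hx ⊢
      exact h.1 hx
    · rw [mem_pieceOf_edges] at he ⊢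
      exact SimpleGraph.Subgraph.edgeSet_mono h he
  sub := fun n e he => by
    rw [Finset.mem_coe, mem_pieceOf_edges] at he
    exact SimpleGraph.Subgraph.edgeSet_subset _ he
  cover_edges := fun f hf => by
    obtain ⟨n, hn⟩ := hH.edge_eventually hf
    exact ⟨n, (mem_pieceOf_edges _).2 (hn n le_rfl)⟩
  cover_verts := fun x => by
    obtain ⟨n, hn⟩ := hH.verts x
    exact ⟨n, (mem_pieceOf_verts _).2 hn⟩

/-- The bijection of edges between a subgraph and its piece. -/
def edgeEquiv (S : FS G) : S.H.edgeSet ≃ (pieceOf S).edges :=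
  Equiv.subtypeEquivRight fun e => (mem_pieceOf_edges S).symm

/-- The bijection of vertices between a subgraph and its piece. -/
def vertEquiv (S : FS G) : S.H.verts ≃ (pieceOf S).verts :=
  Equiv.subtypeEquivRight fun x => (mem_pieceOf_verts S).symm

/-- Spanning trees of a subgraph and of its piece. -/
lemma isSpanTree_pieceOf (S : FS G) (T' : Finset S.H.edgeSet) :
    IsSpanTree (pieceOf S).u (pieceOf S).v (T'.map (edgeEquiv S).toEmbedding)
      ↔ IsSpanTree (uH S.H) (vH S.H) T' :=
  isSpanTree_iso (vertEquiv S) (edgeEquiv S) (fun f => Or.inl ⟨rfl, rfl⟩) T'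

/-- The uniform spanning tree probability of a cylinder is the sum over the trees of the piece. -/
theorem ustProb_eq_piece (S : FS G) (F A : Finset (Sym2 V)) (hA : A ⊆ F) :
    ustProb S.H F A = ∑ σ, unifP (pieceOf S) σ * cylInd (pieceOf S) F A σ := by
  rw [S.ustProb_eq]
  -- the map on trees
  have hmapmem : ∀ T' ∈ S.trees, IsSpanTree (pieceOf S).u (pieceOf S).v (T'.map (edgeEquiv S).toEmbedding) :=
    fun T' hT' => (isSpanTree_pieceOf S T').2 (S.mem_trees.1 hT')
  have hspin : ∀ (T' : Finset S.H.edgeSet) (h : IsSpanTree (pieceOf S).u (pieceOf S).v (T'.map (edgeEquiv S).toEmbedding))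
      (e : Sym2 V), spinP (pieceOf S) ⟨_, h⟩ e = 1 ↔ e ∈ S.amb T' := by
    intro T' h e
    unfold spinP
    have : (∃ f ∈ T'.map (edgeEquiv S).toEmbedding, f.1 = e) ↔ e ∈ S.amb T' := by
      rw [S.mem_amb]
      constructor
      · rintro ⟨f, hf, rfl⟩
        obtain ⟨g, hg, rfl⟩ := Finset.mem_map.1 hf
        exact ⟨g.2, hg⟩
      · rintro ⟨h1, h2⟩
        exact ⟨edgeEquiv S ⟨e, h1⟩, Finset.mem_map_of_mem _ h2, rfl⟩
    simp only [this]
    split_ifs with h3
    · simp [h3]
    · simp [h3]; norm_num
  have hcond : ∀ T' : Finset S.H.edgeSet, (S.amb T' ∩ F = A) ↔ ∀ e ∈ F, (e ∈ S.amb T' ↔ e ∈ A) := by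
    intro T'
    constructor
    · intro h e he
      rw [← h]
      simp [he]
    · intro h
      ext e
      simp only [Finset.mem_inter]
      constructor
      · rintro ⟨h1, h2⟩
        exact (h e h2).1 h1
      · intro he
        exact ⟨(h e (hA he)).2 he, hA he⟩
  have hcard1 : S.trees.card = Fintype.card (Sg (pieceOf S)) := by
    rw [← Finset.card_univ]
    refine Finset.card_bij (fun T' hT' => ⟨T'.map (edgeEquiv S).toEmbedding, hmapmem T' hT'⟩)
      (fun _ _ => Finset.mem_univ _) ?_ ?_
    · intro a _ b _ h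
      exact Finset.map_injective _ (congrArg Subtype.val h)
    · rintro ⟨T, hT⟩ _
      refine ⟨T.map (edgeEquiv S).symm.toEmbedding, ?_, ?_⟩
      · rw [S.mem_trees, ← isSpanTree_pieceOf]
        convert hT using 1
        ext f
        simp
      · apply Subtype.ext
        ext f
        simp
  have hcard2 : (S.trees.filter (fun T' => S.amb T' ∩ F = A)).card
      = (Finset.univ.filter fun σ : Sg (pieceOf S) =>
          ∀ e ∈ F, (spinP (pieceOf S) σ e = 1 ↔ e ∈ A)).card := by
    refine Finset.card_bij (fun T' hT' => ⟨T'.map (edgeEquiv S).toEmbedding,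
      hmapmem T' (Finset.mem_filter.1 hT').1⟩) ?_ ?_ ?_
    · intro T' hT'
      obtain ⟨h1, h2⟩ := Finset.mem_filter.1 hT'
      refine Finset.mem_filter.2 ⟨Finset.mem_univ _, fun e he => ?_⟩
      rw [hspin]
      exact (hcond T').1 h2 e he
    · intro a _ b _ h
      exact Finset.map_injective _ (congrArg Subtype.val h)
    · rintro ⟨T, hT⟩ hσ
      have hσ' := (Finset.mem_filter.1 hσ).2
      have hback : (T.map (edgeEquiv S).symm.toEmbedding).map (edgeEquiv S).toEmbedding = T := by
        ext f
        simp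
      have hmem : T.map (edgeEquiv S).symm.toEmbedding ∈ S.trees := by
        rw [S.mem_trees, ← isSpanTree_pieceOf, hback]
        exact hT
      refine ⟨T.map (edgeEquiv S).symm.toEmbedding, Finset.mem_filter.2 ⟨hmem, ?_⟩, ?_⟩
      · rw [hcond]
        intro e he
        have h3 := hspin (T.map (edgeEquiv S).symm.toEmbedding) (by rw [hback]; exact hT) e
        rw [← h3]
        have h4 := hσ' e he
        have h5 : (⟨(T.map (edgeEquiv S).symm.toEmbedding).map (edgeEquiv S).toEmbedding,
            by rw [hback]; exact hT⟩ : Sg (pieceOf S)) = ⟨T, hT⟩ := Subtype.ext hback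
        rw [h5]
        exact h4
      · exact Subtype.ext hback
  rw [hcard1, hcard2]
  unfold unifP cylInd
  simp_rw [mul_ite, mul_one, mul_zero]
  rw [Finset.sum_ite, Finset.sum_const_zero, add_zero, Finset.sum_const, nsmul_eq_mul]
  ring

end Bridge

end

end Vale.Agent.Lib.P143B
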