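import Vale.Agent.Lib.P161.Exact
import Vale.Agent.Lib.P143B.ContNoise

/-!
Track B of P143, module L: at a fixed finite system, the solution of
`Y(t) = W(t) + ∫₀ᵗ pm(Y(s)) ds` has the two-time law of the exact observation process
`t σ + W(t)`, with `σ` from the prior `p`. Proof: `tv_bound` of P161 compares the Euler chain with the
exact chain; the Euler chain converges in mean to `Y` as the mesh tends to zero (finite dimension).
-/

set_option linter.unusedVariables false
set_option linter.unusedSectionVars false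

open MeasureTheory Filter Topology ProbabilityTheory
open Vale.Agent.Lib.P161

namespace Vale.Agent.Lib.P143B

noncomputable section

variable {Ω ι Sg : Type*} [MeasurableSpace Ω] [Fintype ι] [Fintype Sg]

/-! ### The deterministic comparison of the Euler chain with the solution -/

lemma intervalIntegrable_of_bdd {f : ℝ → ℝ} (hm : Measurable f) {C : ℝ} (hC : ∀ s, |f s| ≤ C)
    (u v : ℝ) : IntervalIntegrable f volume u v := by
  rw [intervalIntegrable_iff]
  refine Measure.integrableOn_of_bounded (M := C) (by simp) hm.aestronglyMeasurable ?_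
  exact Filter.Eventually.of_forall (fun s => by simpa [Real.norm_eq_abs] using hC s)

/-- The error density of the comparison. -/
def qq (L ε : ℝ) (W : ℝ → ι → ℝ) (k : ℕ) (s : ℝ) : ℝ :=
  min 2 (L * (ε + ∑ i, |W s i - W (k * ε) i|))

lemma qq_nonneg {L ε : ℝ} (hL : 0 ≤ L) (hε : 0 ≤ ε) (W : ℝ → ι → ℝ) (k : ℕ) (s : ℝ) :
    0 ≤ qq L ε W k s :=
  le_min (by norm_num) (mul_nonneg hL (add_nonneg hε (Finset.sum_nonneg fun _ _ => abs_nonneg _)))

lemma qq_le_two {L ε : ℝ} (W : ℝ → ι → ℝ) (k : ℕ) (s : ℝ) : qq L ε W k s ≤ 2 := min_le_left _ _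

lemma abs_qq_le {L ε : ℝ} (hL : 0 ≤ L) (hε : 0 ≤ ε) (W : ℝ → ι → ℝ) (k : ℕ) (s : ℝ) :
    |qq L ε W k s| ≤ 2 := by
  rw [abs_of_nonneg (qq_nonneg hL hε W k s)]; exact qq_le_two W k s

lemma measurable_qq {L ε : ℝ} {W : ℝ → ι → ℝ} (hW : ∀ i, Measurable fun s => W s i) (k : ℕ) :
    Measurable (qq L ε W k) := by
  unfold qq
  refine Measurable.min measurable_const (Measurable.const_mul ?_ _)
  refine measurable_const.add (Finset.measurable_sum _ fun i _ => ?_)
  exact ((hW i).sub_const _).abs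

/-- The defect at a time in the grid. -/
def DD (Y : ℝ → ι → ℝ) (x : ℕ → ι → ℝ) (ε : ℝ) (k : ℕ) : ℝ := ∑ i, |Y (k * ε) i - x k i|

section Det

variable {b : (ι → ℝ) → ι → ℝ} {L ε : ℝ} {Y W : ℝ → ι → ℝ} {x : ℕ → ι → ℝ}

theorem DD_step (hb1 : ∀ y i, |b y i| ≤ 1)
    (hbL : ∀ (y y' : ι → ℝ) (a : ℝ), (∀ i, |y i - y' i| ≤ a) → ∀ i, |b y i - b y' i| ≤ L * a)
    (hbm : Measurable b) (hL : 0 ≤ L) (hε : 0 < ε)
    (hYm : ∀ i, Measurable fun s => Y s i) (hWm : ∀ i, Measurable fun s => W s i)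
    (hY : ∀ t : ℝ, 0 ≤ t → ∀ i, Y t i = W t i + ∫ s in (0 : ℝ)..t, b (Y s) i)
    (hx : ∀ k i, x (k + 1) i = x k i + ε * b (x k) i
      + (W (((k + 1 : ℕ) : ℝ) * ε) i - W ((k : ℝ) * ε) i)) (k : ℕ) :
    DD Y x ε (k + 1) ≤ (1 + (Fintype.card ι : ℝ) * L * ε) * DD Y x ε k
      + (Fintype.card ι : ℝ) * ∫ s in ((k : ℝ) * ε)..(((k + 1 : ℕ) : ℝ) * ε), qq L ε W k s := by
  set a : ℝ := (k : ℝ) * ε with ha
  set a' : ℝ := ((k + 1 : ℕ) : ℝ) * ε with ha'
  have ha0 : 0 ≤ a := by positivity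
  have haa : a' = a + ε := by rw [ha, ha']; push_cast; ring
  have hle : a ≤ a' := by rw [haa]; linarith
  have hfm : ∀ i, Measurable fun s => b (Y s) i := fun i =>
    (measurable_pi_apply i).comp (hbm.comp (measurable_pi_lambda _ hYm))
  have hfb : ∀ i s, |b (Y s) i| ≤ 1 := fun i s => hb1 _ _
  have hfi : ∀ i u v, IntervalIntegrable (fun s => b (Y s) i) volume u v := fun i u v =>
    intervalIntegrable_of_bdd (hfm i) (hfb i) u v
  set Dk := DD Y x ε k with hDk
  have hDk0 : 0 ≤ Dk := Finset.sum_nonneg fun _ _ => abs_nonneg _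
  have hqm : Measurable (qq L ε W k) := measurable_qq hWm k
  have hqi : IntervalIntegrable (qq L ε W k) volume a a' :=
    intervalIntegrable_of_bdd hqm (abs_qq_le hL hε.le W k) a a'
  set I := ∫ s in a..a', qq L ε W k s with hI
  -- one coordinate
  have hone : ∀ i, |Y a' i - x (k + 1) i| ≤ |Y a i - x k i| + (ε * (L * Dk) + I) := by
    intro i
    have e1 : Y a' i - x (k + 1) i
        = (Y a i - x k i) + ∫ s in a..a', (b (Y s) i - b (x k) i) := by
      have hxk : x (k + 1) i = x k i + ε * b (x k) i + (W a' i - W a i) := hx k i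
      have h1 := hY a' (by linarith) i
      have h2 := hY a ha0 i
      have h3 := intervalIntegral.integral_add_adjacent_intervals (hfi i 0 a) (hfi i a a')
      have h4 : a' - a = ε := by linarith
      rw [intervalIntegral.integral_sub (hfi i a a') intervalIntegrable_const,
        intervalIntegral.integral_const, h4, h1, h2, hxk, ← h3]
      simp only [smul_eq_mul]
      ring
    have hbound : ∀ s ∈ Set.Ioc a a', ‖b (Y s) i - b (x k) i‖ ≤ L * Dk + qq L ε W k s := by
      intro s hs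
      have hsa : |s - a| ≤ ε := by
        rw [abs_of_pos (by linarith [hs.1])]
        linarith [hs.2]
      have hclose : ∀ i', |Y s i' - x k i'| ≤ Dk + (ε + ∑ i'', |W s i'' - W a i''|) := by
        intro i'
        have h1 : Y s i' - Y a i' = (W s i' - W a i') + ∫ u in a..s, b (Y u) i' := by
          have h3 := intervalIntegral.integral_add_adjacent_intervals (hfi i' 0 a) (hfi i' a s)
          rw [hY s (by linarith [hs.1]) i', hY a ha0 i', ← h3]
          ring
        have h2 : |∫ u in a..s, b (Y u) i'| ≤ ε := by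
          have := intervalIntegral.norm_integral_le_of_norm_le_const (a := a) (b := s)
            (f := fun u => b (Y u) i') (C := 1) (fun u _ => by simpa using hfb i' u)
          simp only [Real.norm_eq_abs, one_mul] at this
          exact this.trans hsa
        have h3 : |W s i' - W a i'| ≤ ∑ i'', |W s i'' - W a i''| :=
          Finset.single_le_sum (f := fun i'' => |W s i'' - W a i''|)
            (fun _ _ => abs_nonneg _) (Finset.mem_univ i')
        have h4 : |Y a i' - x k i'| ≤ Dk :=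
          Finset.single_le_sum (f := fun i'' => |Y ((k : ℝ) * ε) i'' - x k i''|)
            (fun _ _ => abs_nonneg _) (Finset.mem_univ i')
        have h5 : Y s i' - x k i' = (Y a i' - x k i') + (W s i' - W a i')
            + ∫ u in a..s, b (Y u) i' := by linarith [h1]
        rw [h5]
        calc _ ≤ |Y a i' - x k i'| + |W s i' - W a i'| + |∫ u in a..s, b (Y u) i'| :=
              abs_add_three _ _ _
          _ ≤ _ := by linarith
      have h6 := hbL (Y s) (x k) _ hclose i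
      have h7 : |b (Y s) i - b (x k) i| ≤ 2 := by
        calc _ ≤ |b (Y s) i| + |b (x k) i| := abs_sub _ _
          _ ≤ 2 := by linarith [hb1 (Y s) i, hb1 (x k) i]
      have hLD : 0 ≤ L * Dk := mul_nonneg hL hDk0
      rw [Real.norm_eq_abs]
      unfold qq
      rcases le_total 2 (L * (ε + ∑ i, |W s i - W ((k : ℝ) * ε) i|)) with hc | hc
      · rw [min_eq_left hc]; linarith
      · rw [min_eq_right hc]
        rw [mul_add] at h6
        linarith
    have hint : |∫ s in a..a', (b (Y s) i - b (x k) i)| ≤ ε * (L * Dk) + I := by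
      have h1 := intervalIntegral.norm_integral_le_of_norm_le (a := a) (b := a') (μ := volume)
        (f := fun s => b (Y s) i - b (x k) i) (g := fun s => L * Dk + qq L ε W k s) hle
        (Filter.Eventually.of_forall hbound) (intervalIntegrable_const.add hqi)
      rw [Real.norm_eq_abs] at h1
      refine h1.trans (le_of_eq ?_)
      rw [intervalIntegral.integral_add intervalIntegrable_const hqi,
        intervalIntegral.integral_const, show a' - a = ε by linarith]
      simp only [smul_eq_mul]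
      ring
    rw [e1]
    exact (abs_add_le _ _).trans (by linarith)
  unfold DD
  calc ∑ i, |Y a' i - x (k + 1) i|
      ≤ ∑ i, (|Y a i - x k i| + (ε * (L * Dk) + I)) := Finset.sum_le_sum fun i _ => hone i
    _ = Dk + (Fintype.card ι : ℝ) * (ε * (L * Dk) + I) := by
        have h0 : ∑ i, |Y a i - x k i| = Dk := rfl
        rw [Finset.sum_add_distrib, h0]
        simp [Finset.card_univ]
        ring
    _ = (1 + (Fintype.card ι : ℝ) * L * ε) * DD Y x ε k
      + (Fintype.card ι : ℝ) * ∫ s in ((k : ℝ) * ε)..(((k + 1 : ℕ) : ℝ) * ε), qq L ε W k s := by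
        rw [hDk, hI, ha, ha']
        ring

/-- Discrete Gronwall along the grid. -/
theorem DD_le (hb1 : ∀ y i, |b y i| ≤ 1)
    (hbL : ∀ (y y' : ι → ℝ) (a : ℝ), (∀ i, |y i - y' i| ≤ a) → ∀ i, |b y i - b y' i| ≤ L * a)
    (hbm : Measurable b) (hL : 0 ≤ L) (hε : 0 < ε)
    (hYm : ∀ i, Measurable fun s => Y s i) (hWm : ∀ i, Measurable fun s => W s i)
    (hY : ∀ t : ℝ, 0 ≤ t → ∀ i, Y t i = W t i + ∫ s in (0 : ℝ)..t, b (Y s) i)
    (hW0 : ∀ i, W 0 i = 0) (hx0 : ∀ i, x 0 i = 0)
    (hx : ∀ k i, x (k + 1) i = x k i + ε * b (x k) i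
      + (W (((k + 1 : ℕ) : ℝ) * ε) i - W ((k : ℝ) * ε) i)) (k : ℕ) :
    DD Y x ε k ≤ Real.exp ((Fintype.card ι : ℝ) * L * ε * k) * ((Fintype.card ι : ℝ) *
      ∑ l ∈ Finset.range k, ∫ s in ((l : ℝ) * ε)..(((l + 1 : ℕ) : ℝ) * ε), qq L ε W l s) := by
  have hN : (0 : ℝ) ≤ (Fintype.card ι : ℝ) := by positivity
  have hIpos : ∀ l : ℕ, 0 ≤ ∫ s in ((l : ℝ) * ε)..(((l + 1 : ℕ) : ℝ) * ε), qq L ε W l s := by
    intro l
    refine intervalIntegral.integral_nonneg ?_ (fun s _ => qq_nonneg hL hε.le W l s)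
    push_cast
    nlinarith [hε]
  induction k with
  | zero =>
    have : DD Y x ε 0 = 0 := by
      unfold DD
      refine Finset.sum_eq_zero fun i _ => ?_
      have := hY 0 le_rfl i
      simp only [Nat.cast_zero, zero_mul, intervalIntegral.integral_same, add_zero] at this ⊢
      rw [this, hW0, hx0]
      simp
    rw [this]
    simp
  | succ k ih =>
    have hstep := DD_step hb1 hbL hbm hL hε hYm hWm hY hx k
    set c := (Fintype.card ι : ℝ) * L * ε with hc
    have hc0 : 0 ≤ c := by positivity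
    set S := ∑ l ∈ Finset.range k, ∫ s in ((l : ℝ) * ε)..(((l + 1 : ℕ) : ℝ) * ε), qq L ε W l s
      with hS
    have hS0 : 0 ≤ S := Finset.sum_nonneg fun l _ => hIpos l
    have hsucc : ∑ l ∈ Finset.range (k + 1), ∫ s in ((l : ℝ) * ε)..(((l + 1 : ℕ) : ℝ) * ε),
        qq L ε W l s = S + ∫ s in ((k : ℝ) * ε)..(((k + 1 : ℕ) : ℝ) * ε), qq L ε W k s :=
      Finset.sum_range_succ _ _
    rw [hsucc]
    set Ik := ∫ s in ((k : ℝ) * ε)..(((k + 1 : ℕ) : ℝ) * ε), qq L ε W k s with hIk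
    have hIk0 : 0 ≤ Ik := hIpos k
    have h1c : 1 + c ≤ Real.exp c := by linarith [Real.add_one_le_exp c]
    have hexp : Real.exp (c * ((k + 1 : ℕ) : ℝ)) = Real.exp c * Real.exp (c * k) := by
      rw [← Real.exp_add]; congr 1; push_cast; ring
    rw [hexp]
    have hE1 : 1 ≤ Real.exp c * Real.exp (c * k) := by
      have h1 : 1 ≤ Real.exp c := Real.one_le_exp hc0
      have h2 : 1 ≤ Real.exp (c * k) := Real.one_le_exp (by positivity)
      nlinarith
    have hNI : 0 ≤ (Fintype.card ι : ℝ) * Ik := mul_nonneg hN hIk0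
    have hDD : 0 ≤ DD Y x ε k := Finset.sum_nonneg fun _ _ => abs_nonneg _
    calc DD Y x ε (k + 1) ≤ (1 + c) * DD Y x ε k + (Fintype.card ι : ℝ) * Ik := hstep
      _ ≤ Real.exp c * (Real.exp (c * k) * ((Fintype.card ι : ℝ) * S))
          + (Real.exp c * Real.exp (c * k)) * ((Fintype.card ι : ℝ) * Ik) := by
          refine add_le_add ?_ (le_mul_of_one_le_left hNI hE1)
          exact mul_le_mul h1c ih hDD (Real.exp_pos _).le
      _ = _ := by ring

end Det

/-! ### Expectations -/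

section Prob

variable {P : Measure Ω} [IsProbabilityMeasure P]

/-- The forcing as a function of time. -/
def WW (g : ℕ → ℕ → ι → Ω → ℝ) (ω : Ω) (s : ℝ) (i : ι) : ℝ := contW (fun j k => g j k i) s ω

variable {g : ℕ → ℕ → ι → Ω → ℝ}

lemma measurable_WW (hg : ∀ j, IsNoise P (g j)) (i : ι) :
    Measurable fun q : Ω × ℝ => WW g q.1 q.2 i :=
  contW_measurable (g := fun j k => g j k i) (fun j k => (hg j).meas k i)

lemma measurable_WW_time (hg : ∀ j, IsNoise P (g j)) (ω : Ω) (i : ι) :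
    Measurable fun s => WW g ω s i :=
  Measurable.comp (g := fun q : Ω × ℝ => WW g q.1 q.2 i) (f := fun s : ℝ => (ω, s))
    (measurable_WW hg i) (measurable_const.prodMk measurable_id)

lemma measurable_WW_omega (hg : ∀ j, IsNoise P (g j)) (s : ℝ) (i : ι) :
    Measurable fun ω => WW g ω s i :=
  Measurable.comp (g := fun q : Ω × ℝ => WW g q.1 q.2 i) (f := fun ω : Ω => (ω, s))
    (measurable_WW hg i) (measurable_id.prodMk measurable_const)

/-- The mean distance of the forcing from its value at the grid point. -/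
lemma integral_abs_WW_sub (hg : ∀ j, IsNoise P (g j))
    (hr : ∀ i, IsRefining (fun j k => g j k i)) (j k : ℕ) (i : ι) {s : ℝ}
    (hs1 : (k : ℝ) * (1 / 2 : ℝ) ^ j ≤ s) (hs2 : s < ((k + 1 : ℕ) : ℝ) * (1 / 2 : ℝ) ^ j) :
    Integrable (fun ω => |WW g ω s i - WW g ω ((k : ℝ) * (1 / 2 : ℝ) ^ j) i|) P ∧
    ∫ ω, |WW g ω s i - WW g ω ((k : ℝ) * (1 / 2 : ℝ) ^ j) i| ∂P
      ≤ 8 * Real.sqrt ((1 / 2 : ℝ) ^ j) := by
  have hpow : (0 : ℝ) < 2 ^ j := by positivity
  have hmul : (1 / 2 : ℝ) ^ j * 2 ^ j = 1 := by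
    rw [← mul_pow]; norm_num
  have hs0 : 0 ≤ s := le_trans (by positivity) hs1
  have hfl : ⌊s * 2 ^ j⌋₊ = k := by
    rw [Nat.floor_eq_iff (by positivity)]
    constructor
    · calc (k : ℝ) = (k : ℝ) * ((1 / 2 : ℝ) ^ j * 2 ^ j) := by rw [hmul, mul_one]
        _ = ((k : ℝ) * (1 / 2 : ℝ) ^ j) * 2 ^ j := by ring
        _ ≤ s * 2 ^ j := mul_le_mul_of_nonneg_right hs1 hpow.le
    · calc s * 2 ^ j < (((k + 1 : ℕ) : ℝ) * (1 / 2 : ℝ) ^ j) * 2 ^ j :=
            mul_lt_mul_of_pos_right hs2 hpow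
        _ = ((k + 1 : ℕ) : ℝ) * ((1 / 2 : ℝ) ^ j * 2 ^ j) := by ring
        _ = (k : ℝ) + 1 := by rw [hmul]; push_cast; ring
  have hle := contW_sub_le (g := fun j k => g j k i) P (hr i) (fun j k => (hg j).meas k i)
    (fun j k => (hg j).law k i) hs0 j
  rw [hfl] at hle
  have hdy : ∀ ω, dyW (fun j k => g j k i) j k ω = WW g ω ((k : ℝ) * (1 / 2 : ℝ) ^ j) i := by
    intro ω
    exact (contW_dyadic (g := fun j k => g j k i) (hr i) j k ω).symm
  simp_rw [hdy] at hle
  have hmeas : Measurable fun ω => WW g ω s i - WW g ω ((k : ℝ) * (1 / 2 : ℝ) ^ j) i :=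
    (measurable_WW_omega hg s i).sub (measurable_WW_omega hg _ i)
  have hint : Integrable (fun ω => WW g ω s i - WW g ω ((k : ℝ) * (1 / 2 : ℝ) ^ j) i) P := by
    refine ⟨hmeas.aestronglyMeasurable, ?_⟩
    unfold HasFiniteIntegral
    exact lt_of_le_of_lt hle ENNReal.ofReal_lt_top
  refine ⟨hint.abs, ?_⟩
  have h1 : ∫ ω, |WW g ω s i - WW g ω ((k : ℝ) * (1 / 2 : ℝ) ^ j) i| ∂P
      = (∫⁻ ω, ‖WW g ω s i - WW g ω ((k : ℝ) * (1 / 2 : ℝ) ^ j) i‖ₑ ∂P).toReal := by
    have := integral_norm_eq_lintegral_enorm (μ := P) hmeas.aestronglyMeasurable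
    simpa [Real.norm_eq_abs] using this
  rw [h1]
  refine ENNReal.toReal_le_of_le_ofReal (by positivity) ?_
  exact hle

/-- The mean of the error density. -/
lemma integral_qq_le (hg : ∀ j, IsNoise P (g j))
    (hr : ∀ i, IsRefining (fun j k => g j k i)) {L : ℝ} (hL : 0 ≤ L) (j k : ℕ) {s : ℝ}
    (hs1 : (k : ℝ) * (1 / 2 : ℝ) ^ j ≤ s) (hs2 : s < ((k + 1 : ℕ) : ℝ) * (1 / 2 : ℝ) ^ j) :
    ∫ ω, qq L ((1 / 2 : ℝ) ^ j) (WW g ω) k s ∂P
      ≤ L * ((1 / 2 : ℝ) ^ j + (Fintype.card ι : ℝ) * (8 * Real.sqrt ((1 / 2 : ℝ) ^ j))) := by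
  set ε : ℝ := (1 / 2 : ℝ) ^ j with hε
  have hε0 : 0 ≤ ε := by positivity
  have hI := fun i => integral_abs_WW_sub hg hr j k i hs1 hs2
  have hsumI : Integrable (fun ω => ∑ i, |WW g ω s i - WW g ω ((k : ℝ) * ε) i|) P :=
    integrable_finsetSum _ fun i _ => (hI i).1
  have hupper : Integrable (fun ω => L * (ε + ∑ i, |WW g ω s i - WW g ω ((k : ℝ) * ε) i|)) P :=
    ((integrable_const ε).add hsumI).const_mul L
  have hmono : ∫ ω, qq L ε (WW g ω) k s ∂P
      ≤ ∫ ω, L * (ε + ∑ i, |WW g ω s i - WW g ω ((k : ℝ) * ε) i|) ∂P := by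
    refine integral_mono_of_nonneg (Filter.Eventually.of_forall fun ω => qq_nonneg hL hε0 _ k s)
      hupper (Filter.Eventually.of_forall fun ω => ?_)
    exact min_le_right _ _
  refine hmono.trans ?_
  rw [integral_const_mul]
  refine mul_le_mul_of_nonneg_left ?_ hL
  rw [integral_add (integrable_const ε) hsumI, integral_const]
  simp only [probReal_univ, smul_eq_mul, one_mul]
  refine add_le_add le_rfl ?_
  rw [integral_finsetSum _ fun i _ => (hI i).1]
  calc ∑ i, ∫ ω, |WW g ω s i - WW g ω ((k : ℝ) * ε) i| ∂P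
      ≤ ∑ _i : ι, 8 * Real.sqrt ε := Finset.sum_le_sum fun i _ => (hI i).2
    _ = _ := by simp

/-- The mean of the integrated error density. -/
lemma integral_Iqq_le (hg : ∀ j, IsNoise P (g j))
    (hr : ∀ i, IsRefining (fun j k => g j k i)) {L : ℝ} (hL : 0 ≤ L) (j k : ℕ) :
    Integrable (fun ω => ∫ s in ((k : ℝ) * (1 / 2 : ℝ) ^ j)..(((k + 1 : ℕ) : ℝ) * (1 / 2 : ℝ) ^ j),
        qq L ((1 / 2 : ℝ) ^ j) (WW g ω) k s) P ∧
    ∫ ω, (∫ s in ((k : ℝ) * (1 / 2 : ℝ) ^ j)..(((k + 1 : ℕ) : ℝ) * (1 / 2 : ℝ) ^ j),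
        qq L ((1 / 2 : ℝ) ^ j) (WW g ω) k s) ∂P
      ≤ (1 / 2 : ℝ) ^ j * (L * ((1 / 2 : ℝ) ^ j
          + (Fintype.card ι : ℝ) * (8 * Real.sqrt ((1 / 2 : ℝ) ^ j)))) := by
  set ε : ℝ := (1 / 2 : ℝ) ^ j with hε
  have hε0 : 0 < ε := by positivity
  set a : ℝ := (k : ℝ) * ε with ha
  set a' : ℝ := ((k + 1 : ℕ) : ℝ) * ε with ha'
  have haa : a' - a = ε := by rw [ha, ha']; push_cast; ring
  have hle : a ≤ a' := by linarith
  set C := L * (ε + (Fintype.card ι : ℝ) * (8 * Real.sqrt ε)) with hC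
  -- joint measurability
  have hjm : Measurable (Function.uncurry fun (ω : Ω) (s : ℝ) => qq L ε (WW g ω) k s) := by
    unfold Function.uncurry qq
    refine Measurable.min measurable_const (Measurable.const_mul ?_ _)
    refine measurable_const.add (Finset.measurable_sum _ fun i _ => ?_)
    refine ((measurable_WW hg i).sub ?_).abs
    exact (measurable_WW_omega hg _ i).comp measurable_fst
  have hjint : Integrable (Function.uncurry fun (ω : Ω) (s : ℝ) => qq L ε (WW g ω) k s)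
      (P.prod (volume.restrict (Set.Ioc a a'))) := by
    refine Integrable.of_bound (C := 2) hjm.aestronglyMeasurable ?_
    refine Filter.Eventually.of_forall fun q => ?_
    simpa [Real.norm_eq_abs, Function.uncurry] using abs_qq_le hL hε0.le (WW g q.1) k q.2
  have hrew : ∀ ω, ∫ s in a..a', qq L ε (WW g ω) k s
      = ∫ s in Set.Ioc a a', qq L ε (WW g ω) k s := fun ω =>
    intervalIntegral.integral_of_le hle
  simp_rw [hrew]
  refine ⟨hjint.integral_prod_left, ?_⟩
  rw [integral_integral_swap (f := fun (ω : Ω) (s : ℝ) => qq L ε (WW g ω) k s) hjint]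
  rw [integral_Ioc_eq_integral_Ioo]
  have hbd : ∀ s ∈ Set.Ioo a a', ∫ ω, qq L ε (WW g ω) k s ∂P ≤ C := fun s hs =>
    integral_qq_le hg hr hL j k hs.1.le hs.2
  have hint2 : Integrable (fun s => ∫ ω, qq L ε (WW g ω) k s ∂P) (volume.restrict (Set.Ioo a a')) := by
    have h3 : Integrable (fun s => ∫ ω, qq L ε (WW g ω) k s ∂P)
        (volume.restrict (Set.Ioc a a')) := hjint.integral_prod_right
    exact h3.mono_measure (Measure.restrict_mono Set.Ioo_subset_Ioc_self le_rfl)
  calc ∫ s in Set.Ioo a a', ∫ ω, qq L ε (WW g ω) k s ∂P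
      ≤ ∫ _s in Set.Ioo a a', C :=
        setIntegral_mono_on hint2 (by simp [integrableOn_const_iff]) measurableSet_Ioo hbd
    _ = ε * C := by
        simp [Measure.real, Real.volume_Ioo, haa]
        exact Or.inl hε0.le

/-- Continuity from the Lipschitz bound. -/
lemma continuous_of_lip {F : (ι → ℝ) × (ι → ℝ) → ℝ} {Λ : ℝ}
    (hFL : ∀ a a' b b', |F (a, a') - F (b, b')|
      ≤ Λ * (∑ i, |a i - b i| + ∑ i, |a' i - b' i|)) : Continuous F := by
  rw [continuous_iff_continuousAt]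
  rintro ⟨b, b'⟩
  have h0 : Continuous (fun z : (ι → ℝ) × (ι → ℝ) =>
      Λ * (∑ i, |z.1 i - b i| + ∑ i, |z.2 i - b' i|)) := by
    fun_prop
  have h1 : Tendsto (fun z : (ι → ℝ) × (ι → ℝ) =>
      Λ * (∑ i, |z.1 i - b i| + ∑ i, |z.2 i - b' i|)) (𝓝 (b, b')) (𝓝 0) := by
    have := h0.tendsto (b, b')
    simpa using this
  unfold ContinuousAt
  rw [tendsto_iff_norm_sub_tendsto_zero]
  refine squeeze_zero (fun _ => norm_nonneg _) (fun z => ?_) h1
  obtain ⟨a, a'⟩ := z
  simpa [Real.norm_eq_abs] using hFL a a' b b'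

/-- The two-time law of the solution at integer times. -/
theorem finite_law (P : Measure Ω) [IsProbabilityMeasure P]
    (p : Sg → ℝ) (hp : ∀ σ, 0 ≤ p σ) (hp1 : ∑ σ, p σ = 1)
    (vec : Sg → ι → ℝ) (hv : ∀ σ i, vec σ i ^ 2 = 1)
    {L : ℝ} (hL : ∀ (x x' : ι → ℝ) (a : ℝ), (∀ i, |x i - x' i| ≤ a) →
      ∀ i, |pm p vec x i - pm p vec x' i| ≤ L * a)
    (g : ℕ → ℕ → ι → Ω → ℝ) (hg : ∀ j, IsNoise P (g j))
    (hr : ∀ i, IsRefining (fun j k => g j k i))
    (Y : ℝ → Ω → ι → ℝ) (hYm : ∀ i, Measurable fun q : Ω × ℝ => Y q.2 q.1 i)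
    (hY : ∀ (t : ℝ), 0 ≤ t → ∀ ω i, Y t ω i
      = contW (fun j k => g j k i) t ω + ∫ s in (0 : ℝ)..t, pm p vec (Y s ω) i)
    (T T' : ℕ) (F : (ι → ℝ) × (ι → ℝ) → ℝ) (hF1 : ∀ z, |F z| ≤ 1) {Λ : ℝ}
    (hFL : ∀ a a' b b', |F (a, a') - F (b, b')|
      ≤ Λ * (∑ i, |a i - b i| + ∑ i, |a' i - b' i|)) :
    ∫ ω, F (Y T ω, Y T' ω) ∂P
      = ∑ σ, p σ * ∫ ω, F (fun i => T * vec σ i + contW (fun j k => g j k i) T ω,
          fun i => T' * vec σ i + contW (fun j k => g j k i) T' ω) ∂P := by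
  classical
  set N : ℝ := (Fintype.card ι : ℝ) with hN
  have hN0 : 0 ≤ N := by positivity
  -- nonnegative constants
  set L' : ℝ := max L 0 with hL'
  have hL'0 : 0 ≤ L' := le_max_right _ _
  have hbL : ∀ (x x' : ι → ℝ) (a : ℝ), (∀ i, |x i - x' i| ≤ a) →
      ∀ i, |pm p vec x i - pm p vec x' i| ≤ L' * a := by
    intro x x' a ha i
    have ha0 : 0 ≤ a := le_trans (abs_nonneg _) (ha i)
    exact (hL x x' a ha i).trans (mul_le_mul_of_nonneg_right (le_max_left _ _) ha0)
  set Λ' : ℝ := max Λ 0 with hΛ'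
  have hΛ'0 : 0 ≤ Λ' := le_max_right _ _
  have hFL' : ∀ a a' b b', |F (a, a') - F (b, b')|
      ≤ Λ' * (∑ i, |a i - b i| + ∑ i, |a' i - b' i|) := by
    intro a a' b b'
    refine (hFL a a' b b').trans (mul_le_mul_of_nonneg_right (le_max_left _ _) ?_)
    exact add_nonneg (Finset.sum_nonneg fun _ _ => abs_nonneg _)
      (Finset.sum_nonneg fun _ _ => abs_nonneg _)
  have hFm : Measurable F := (continuous_of_lip hFL).measurable
  have hb1 : ∀ y i, |pm p vec y i| ≤ 1 := fun y i => abs_pm_le hp hp1 hv y i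
  have hbm : Measurable (pm p vec) := measurable_pm
  -- measurability of the solution
  have hYt : ∀ ω i, Measurable fun s => Y s ω i := fun ω i =>
    Measurable.comp (g := fun q : Ω × ℝ => Y q.2 q.1 i) (f := fun s : ℝ => (ω, s))
      (hYm i) (measurable_const.prodMk measurable_id)
  have hYω : ∀ t : ℝ, Measurable fun ω => Y t ω := fun t => measurable_pi_lambda _ fun i =>
    Measurable.comp (g := fun q : Ω × ℝ => Y q.2 q.1 i) (f := fun ω : Ω => (ω, t))
      (hYm i) (measurable_id.prodMk measurable_const)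
  set A : ℝ := ∫ ω, F (Y T ω, Y T' ω) ∂P with hA
  set B : ℝ := ∑ σ, p σ * ∫ ω, F (fun i => T * vec σ i + contW (fun j k => g j k i) T ω,
          fun i => T' * vec σ i + contW (fun j k => g j k i) T' ω) ∂P with hB
  -- the constants
  set c₁ : ℝ := 8 * N ^ 2 * Real.exp (4 * N) * (max T T' : ℕ) with hc₁
  set c₂ : ℝ := Λ' * (Real.exp (N * L' * T) * N * T + Real.exp (N * L' * T') * N * T') * L'
    with hc₂
  let U : ℝ → ℝ := fun e => c₂ * (e + N * (8 * Real.sqrt e)) + Real.sqrt (Real.exp (c₁ * e) - 1)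
  have hUc : Continuous U := by
    fun_prop
  have hU0 : U 0 = 0 := by simp [U]
  -- the bound at level j
  have key : ∀ j : ℕ, |A - B| ≤ U ((1 / 2 : ℝ) ^ j) := by
    intro j
    set ε : ℝ := (1 / 2 : ℝ) ^ j with hε
    have hε0 : 0 < ε := by positivity
    have hε1 : ε ≤ 1 := pow_le_one₀ (by norm_num) (by norm_num)
    have hmul : ε * 2 ^ j = 1 := by rw [hε, ← mul_pow]; norm_num
    set x : Ω → ℕ → ι → ℝ := fun ω => euler (pm p vec) ε (fun l i => g j l i ω) with hxdef
    have hKcast : ∀ R : ℕ, ((R * 2 ^ j : ℕ) : ℝ) * ε = R := by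
      intro R
      push_cast
      rw [mul_assoc, mul_comm ((2 : ℝ) ^ j), hmul, mul_one]
    -- the pathwise bound
    have hpath : ∀ (ω : Ω) (k : ℕ), DD (fun s => Y s ω) (x ω) ε k
        ≤ Real.exp (N * L' * ε * k) * (N * ∑ l ∈ Finset.range k,
          ∫ s in ((l : ℝ) * ε)..(((l + 1 : ℕ) : ℝ) * ε), qq L' ε (WW g ω) l s) := by
      intro ω k
      refine DD_le (b := pm p vec) (W := WW g ω) hb1 hbL hbm hL'0 hε0 (fun i => hYt ω i)
        (fun i => measurable_WW_time hg ω i) (fun t ht i => hY t ht ω i) ?_ ?_ ?_ k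
      · intro i
        have := contW_natCast (g := fun j k => g j k i) (hr i) 0 ω
        simpa [WW] using this
      · intro i
        simp [hxdef, euler]
      · intro k i
        have h1 := contW_dyadic (g := fun j k => g j k i) (hr i) j (k + 1) ω
        have h2 := contW_dyadic (g := fun j k => g j k i) (hr i) j k ω
        have h3 : WW g ω (((k + 1 : ℕ) : ℝ) * ε) i - WW g ω ((k : ℝ) * ε) i
            = Real.sqrt ε * g j k i ω := by
          unfold WW
          rw [h1, h2]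
          unfold dyW
          rw [Finset.sum_range_succ]
          ring
        rw [h3]
        simp [hxdef, euler]
    -- integrated bound
    have hI := fun l => integral_Iqq_le (P := P) hg hr hL'0 j l
    set Ival : ℕ → Ω → ℝ := fun l ω =>
      ∫ s in ((l : ℝ) * ε)..(((l + 1 : ℕ) : ℝ) * ε), qq L' ε (WW g ω) l s with hIval
    have hSint : ∀ K : ℕ, Integrable (fun ω => ∑ l ∈ Finset.range K, Ival l ω) P := fun K =>
      integrable_finsetSum _ fun l _ => (hI l).1
    have hSle : ∀ K : ℕ, ∫ ω, ∑ l ∈ Finset.range K, Ival l ω ∂P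
        ≤ K * (ε * (L' * (ε + N * (8 * Real.sqrt ε)))) := by
      intro K
      rw [integral_finsetSum _ fun l _ => (hI l).1]
      calc ∑ l ∈ Finset.range K, ∫ ω, Ival l ω ∂P
          ≤ ∑ _l ∈ Finset.range K, (ε * (L' * (ε + N * (8 * Real.sqrt ε)))) :=
            Finset.sum_le_sum fun l _ => (hI l).2
        _ = _ := by simp
    set K₁ : ℕ := T * 2 ^ j with hK₁
    set K₂ : ℕ := T' * 2 ^ j with hK₂
    have hK₁ε : (K₁ : ℝ) * ε = T := hKcast T
    have hK₂ε : (K₂ : ℝ) * ε = T' := hKcast T'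
    set G : Ω → ℝ := fun ω => Λ' * ((Real.exp (N * L' * T) * N) * ∑ l ∈ Finset.range K₁, Ival l ω
        + (Real.exp (N * L' * T') * N) * ∑ l ∈ Finset.range K₂, Ival l ω) with hG
    have hGint : Integrable G P :=
      (((hSint K₁).const_mul _).add ((hSint K₂).const_mul _)).const_mul _
    have hGle : ∫ ω, G ω ∂P ≤ c₂ * (ε + N * (8 * Real.sqrt ε)) := by
      have h1 : ∫ ω, G ω ∂P = Λ' * ((Real.exp (N * L' * T) * N) *
            (∫ ω, ∑ l ∈ Finset.range K₁, Ival l ω ∂P)
          + (Real.exp (N * L' * T') * N) * ∫ ω, ∑ l ∈ Finset.range K₂, Ival l ω ∂P) := by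
        simp only [hG]
        rw [integral_const_mul, integral_add ((hSint K₁).const_mul _) ((hSint K₂).const_mul _),
          integral_const_mul, integral_const_mul]
      rw [h1]
      have he1 : 0 ≤ Real.exp (N * L' * T) * N := by positivity
      have he2 : 0 ≤ Real.exp (N * L' * T') * N := by positivity
      have h2 := mul_le_mul_of_nonneg_left (hSle K₁) he1
      have h3 := mul_le_mul_of_nonneg_left (hSle K₂) he2
      have h4 : (K₁ : ℝ) * (ε * (L' * (ε + N * (8 * Real.sqrt ε))))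
          = T * (L' * (ε + N * (8 * Real.sqrt ε))) := by
        rw [← hK₁ε]; ring
      have h5 : (K₂ : ℝ) * (ε * (L' * (ε + N * (8 * Real.sqrt ε))))
          = T' * (L' * (ε + N * (8 * Real.sqrt ε))) := by
        rw [← hK₂ε]; ring
      rw [h4] at h2
      rw [h5] at h3
      calc _ ≤ Λ' * ((Real.exp (N * L' * T) * N) * (T * (L' * (ε + N * (8 * Real.sqrt ε))))
            + (Real.exp (N * L' * T') * N) * (T' * (L' * (ε + N * (8 * Real.sqrt ε))))) :=
            mul_le_mul_of_nonneg_left (add_le_add h2 h3) hΛ'0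
        _ = _ := by rw [hc₂]; ring
    -- first comparison
    have hxm : ∀ k, Measurable fun ω => x ω k := fun k => by
      have h1 : Measurable (fun a : ℕ → ι → ℝ => euler (pm p vec) ε a k) := measurable_euler hbm k
      exact h1.comp (measurable_gs (hg j))
    have hF1int : Integrable (fun ω => F (Y T ω, Y T' ω)) P := by
      refine Integrable.of_bound (C := 1)
        (hFm.comp ((hYω _).prodMk (hYω _))).aestronglyMeasurable ?_
      exact Filter.Eventually.of_forall fun ω => by simpa [Real.norm_eq_abs] using hF1 _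
    have hF2int : Integrable (fun ω => F (x ω K₁, x ω K₂)) P := by
      refine Integrable.of_bound (C := 1)
        (hFm.comp ((hxm _).prodMk (hxm _))).aestronglyMeasurable ?_
      exact Filter.Eventually.of_forall fun ω => by simpa [Real.norm_eq_abs] using hF1 _
    have hcomp1 : |A - ∫ ω, F (x ω K₁, x ω K₂) ∂P| ≤ c₂ * (ε + N * (8 * Real.sqrt ε)) := by
      rw [hA, ← integral_sub hF1int hF2int]
      refine le_trans (abs_integral_le_integral_abs) (le_trans ?_ hGle)
      refine integral_mono (hF1int.sub hF2int).abs hGint fun ω => ?_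
      have h1 := hFL' (Y T ω) (Y T' ω) (x ω K₁) (x ω K₂)
      refine h1.trans (mul_le_mul_of_nonneg_left ?_ hΛ'0)
      have h2 := hpath ω K₁
      have h3 := hpath ω K₂
      have e1 : DD (fun s => Y s ω) (x ω) ε K₁ = ∑ i, |Y T ω i - x ω K₁ i| := by
        unfold DD; rw [hK₁ε]
      have e2 : DD (fun s => Y s ω) (x ω) ε K₂ = ∑ i, |Y T' ω i - x ω K₂ i| := by
        unfold DD; rw [hK₂ε]
      rw [e1] at h2
      rw [e2] at h3
      have e3 : N * L' * ε * K₁ = N * L' * T := by rw [← hK₁ε]; ring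
      have e4 : N * L' * ε * K₂ = N * L' * T' := by rw [← hK₂ε]; ring
      rw [e3] at h2
      rw [e4] at h3
      have h4 := add_le_add h2 h3
      refine h4.trans (le_of_eq ?_)
      simp only [hIval]
      ring
    -- second comparison
    set K : ℕ := (max T T') * 2 ^ j with hK
    have hlt₁ : K₁ < K + 1 := by
      have : K₁ ≤ K := Nat.mul_le_mul_right _ (le_max_left _ _)
      omega
    have hlt₂ : K₂ < K + 1 := by
      have : K₂ ≤ K := Nat.mul_le_mul_right _ (le_max_right _ _)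
      omega
    let Ft : (Fin (K + 1) → ι → ℝ) → ℝ := fun q => F (q ⟨K₁, hlt₁⟩, q ⟨K₂, hlt₂⟩)
    have hFtm : Measurable Ft :=
      hFm.comp ((measurable_pi_apply _).prodMk (measurable_pi_apply _))
    have htv := tv_bound P p hp hp1 vec hv (g j) (hg j) hε0 hε1 K Ft hFtm (fun _ => hF1 _)
    have hex : ∀ (σ : Sg) (R : ℕ) (ω : Ω), exactPath (vec σ) ε (fun l i => g j l i ω) (R * 2 ^ j)
        = fun i => (R : ℝ) * vec σ i + contW (fun j k => g j k i) R ω := by
      intro σ R ω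
      funext i
      have h1 := contW_dyadic (g := fun j k => g j k i) (hr i) j (R * 2 ^ j) ω
      have h2 : ((R * 2 ^ j : ℕ) : ℝ) * (1 / 2 : ℝ) ^ j = R := hKcast R
      rw [h2] at h1
      rw [h1]
      unfold exactPath dyW
      rw [hKcast R]
    have hBeq : ∑ σ, p σ * ∫ ω, Ft (fun k => exactPath (vec σ) ε (fun l i => g j l i ω) k) ∂P = B := by
      refine Finset.sum_congr rfl fun σ _ => ?_
      congr 1
      refine integral_congr_ae (Filter.Eventually.of_forall fun ω => ?_)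
      show F (exactPath (vec σ) ε (fun l i => g j l i ω) (T * 2 ^ j),
        exactPath (vec σ) ε (fun l i => g j l i ω) (T' * 2 ^ j)) = _
      rw [hex σ T ω, hex σ T' ω]
    rw [hBeq] at htv
    have hKe : 8 * N ^ 2 * Real.exp (4 * N) * K * ε ^ 2 = c₁ * ε := by
      have : (K : ℝ) * ε = ((max T T' : ℕ) : ℝ) := hKcast _
      rw [hc₁, ← this]
      ring
    rw [hKe] at htv
    have hcomp2 : |(∫ ω, F (x ω K₁, x ω K₂) ∂P) - B| ≤ Real.sqrt (Real.exp (c₁ * ε) - 1) := htv
    calc |A - B| ≤ |A - ∫ ω, F (x ω K₁, x ω K₂) ∂P| + |(∫ ω, F (x ω K₁, x ω K₂) ∂P) - B| :=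
          abs_sub_le _ _ _
      _ ≤ U ε := add_le_add hcomp1 hcomp2
  -- the limit
  have hlim : Tendsto (fun j : ℕ => U ((1 / 2 : ℝ) ^ j)) atTop (𝓝 0) := by
    have h1 : Tendsto (fun j : ℕ => (1 / 2 : ℝ) ^ j) atTop (𝓝 0) :=
      tendsto_pow_atTop_nhds_zero_of_lt_one (by norm_num) (by norm_num)
    have h2 := hUc.tendsto 0
    rw [hU0] at h2
    exact h2.comp h1
  have hfin : |A - B| ≤ 0 := ge_of_tendsto' hlim key
  have := abs_nonpos_iff.1 hfin
  linarith

end Prob

end

end Vale.Agent.Lib.P143B
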