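import Vale.Agent.Lib.P143B.Rounding

/-!
Track B of P143: passage to the infinite graph. The observation processes of the pieces of an
exhaustion converge pointwise to the observation process of the graph, the rounded process
converges almost surely to spins, and the cylinder probabilities converge.
-/

set_option linter.unusedVariables false
set_option linter.unusedSectionVars false

open Finset Filter Topology MeasureTheory ProbabilityTheory
open Vale.Agent.Lib.P143 Vale.Agent.Lib.P161
open scoped ENNReal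

namespace Vale.Agent.Lib.P143B

noncomputable section

open Classical

variable {V : Type*} [Countable V] {lab : unitInterval → ℝ} {γ : ℕ → ℕ → ℕ → unitInterval → ℝ}
variable {S : Set (Sym2 V)} {Pn : ℕ → Piece V}

/-- Pointwise convergence of the observation processes. -/
theorem YO_tendsto (hl : LabelProps V lab γ) (hPn : IsExh S Pn) (ω : V → unitInterval) {t : ℝ}
    (ht : 0 ≤ t) (e : Sym2 V) :
    Tendsto (fun n => YO lab γ (bP (Pn n)) S ω t e) atTop (𝓝 (YO lab γ (bG S) S ω t e)) := by
  unfold YO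
  refine Tendsto.add_const _ ?_
  exact sol_tendsto (fun n => isDrift_bP (Pn n)) (isDrift_bG S)
    (fun f => measurable_WE_time hl S ω f)
    (fun yn y C hlim hbd f => bP_tendsto_bG hPn yn y C hlim hbd f) ht e

/-- Measurability of the observation process at a fixed time. -/
lemma measurable_YO_omega (hl : LabelProps V lab γ) {b : (Sym2 V → ℝ) → Sym2 V → ℝ} {L : ℝ}
    (hb : IsDrift L b) (S : Set (Sym2 V)) (t : ℝ) (e : Sym2 V) :
    Measurable fun ω : V → unitInterval => YO lab γ b S ω t e := by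
  have h1 : Measurable fun ω : V → unitInterval => ((ω, t) : (V → unitInterval) × ℝ) :=
    Measurable.prodMk measurable_id measurable_const
  have h2 := (measurable_YO_fix hl hb S e).comp h1
  exact h2

lemma eventually_mem_edges (hPn : IsExh S Pn) {e : Sym2 V} (he : e ∈ S) :
    ∀ᶠ n in atTop, e ∈ (Pn n).edges := by
  obtain ⟨m, hm⟩ := hPn.cover_edges e he
  exact (eventually_ge_atTop m).mono fun n hn => (hPn.le_of_le hn).2 hm

/-- Two times on the graph. -/
theorem two_time_graph (hl : LabelProps V lab γ) (hS : ∀ e ∈ S, ¬ e.IsDiag)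
    (hfin : ∀ x, {z | s(x, z) ∈ S}.Finite) (hPn : IsExh S Pn) {e : Sym2 V} (he : e ∈ S) {T T' : ℕ}
    (hT : 2 ≤ T) (hT' : 2 ≤ T') :
    ∫ ω, |clip (YO lab γ (bG S) S ω T e) - clip (YO lab γ (bG S) S ω T' e)| ∂(uniformField V)
      ≤ 8 / T + 8 / T' := by
  have hlim : Tendsto (fun n => ∫ ω, |clip (YO lab γ (bP (Pn n)) S ω T e)
      - clip (YO lab γ (bP (Pn n)) S ω T' e)| ∂(uniformField V)) atTop
      (𝓝 (∫ ω, |clip (YO lab γ (bG S) S ω T e) - clip (YO lab γ (bG S) S ω T' e)| ∂(uniformField V))) := by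
    refine tendsto_integral_of_dominated_convergence (fun _ => 2) (fun n => ?_)
      (integrable_const _) (fun n => Eventually.of_forall fun ω => ?_)
      (Eventually.of_forall fun ω => ?_)
    · exact (((measurable_clip.comp (measurable_YO_omega hl (isDrift_bP _) S T e)).sub
        (measurable_clip.comp (measurable_YO_omega hl (isDrift_bP _) S T' e))).abs).aestronglyMeasurable
    · rw [Real.norm_eq_abs, abs_abs]
      refine (abs_sub _ _).trans ?_
      have h1 := abs_clip_le (YO lab γ (bP (Pn n)) S ω T e)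
      have h2 := abs_clip_le (YO lab γ (bP (Pn n)) S ω T' e)
      linarith
    · have hc : Continuous clip := by
        unfold clip
        fun_prop
      have h1 := hc.tendsto _ |>.comp (YO_tendsto hl hPn ω (t := T) (by positivity) e)
      have h2 := hc.tendsto _ |>.comp (YO_tendsto hl hPn ω (t := T') (by positivity) e)
      exact (h1.sub h2).abs
  refine le_of_tendsto hlim ?_
  filter_upwards [eventually_mem_edges hPn he] with n hn
  exact two_time_piece hl hS hfin (hPn.sub n) hn hT hT'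

/-- One time on the graph. -/
theorem one_time_graph (hl : LabelProps V lab γ) (hS : ∀ e ∈ S, ¬ e.IsDiag)
    (hfin : ∀ x, {z | s(x, z) ∈ S}.Finite) (hPn : IsExh S Pn) {e : Sym2 V} (he : e ∈ S) {T : ℕ}
    (hT : 2 ≤ T) :
    ∫ ω, (1 - |clip (YO lab γ (bG S) S ω T e)|) ∂(uniformField V) ≤ 8 / T := by
  have hlim : Tendsto (fun n => ∫ ω, (1 - |clip (YO lab γ (bP (Pn n)) S ω T e)|) ∂(uniformField V)) atTop
      (𝓝 (∫ ω, (1 - |clip (YO lab γ (bG S) S ω T e)|) ∂(uniformField V))) := by
    refine tendsto_integral_of_dominated_convergence (fun _ => 1) (fun n => ?_)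
      (integrable_const _) (fun n => Eventually.of_forall fun ω => ?_)
      (Eventually.of_forall fun ω => ?_)
    · exact ((measurable_clip.comp (measurable_YO_omega hl (isDrift_bP _) S T e)).abs.const_sub 1).aestronglyMeasurable
    · rw [Real.norm_eq_abs]
      have h1 := abs_clip_le (YO lab γ (bP (Pn n)) S ω T e)
      have h2 := abs_nonneg (clip (YO lab γ (bP (Pn n)) S ω T e))
      rw [abs_le]
      constructor <;> linarith
    · have hc : Continuous clip := by
        unfold clip
        fun_prop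
      have h1 := hc.tendsto _ |>.comp (YO_tendsto hl hPn ω (t := T) (by positivity) e)
      exact (tendsto_const_nhds).sub h1.abs
  refine le_of_tendsto hlim ?_
  filter_upwards [eventually_mem_edges hPn he] with n hn
  exact one_time_piece hl hS hfin (hPn.sub n) hn hT

/-- Convergence of the cylinder test functions. -/
theorem cyl_graph_tendsto (hl : LabelProps V lab γ) (hPn : IsExh S Pn) (F A : Finset (Sym2 V)) (T : ℕ) :
    Tendsto (fun n => ∫ ω, cylT F A (YO lab γ (bP (Pn n)) S ω T) ∂(uniformField V)) atTop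
      (𝓝 (∫ ω, cylT F A (YO lab γ (bG S) S ω T) ∂(uniformField V))) := by
  have hc : Continuous clip := by
    unfold clip
    fun_prop
  have hr : ∀ e, Continuous (rho A e) := by
    intro e
    unfold rho
    split_ifs <;> fun_prop
  refine tendsto_integral_of_dominated_convergence (fun _ => 1) (fun n => ?_)
    (integrable_const _) (fun n => Eventually.of_forall fun ω => ?_)
    (Eventually.of_forall fun ω => ?_)
  · unfold cylT
    refine Measurable.aestronglyMeasurable (Finset.measurable_prod _ fun e _ => ?_)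
    exact (hr e).measurable.comp (measurable_clip.comp (measurable_YO_omega hl (isDrift_bP _) S T e))
  · rw [Real.norm_eq_abs]
    exact abs_cylT_le F A _
  · unfold cylT
    refine tendsto_finsetProd _ fun e _ => ?_
    exact ((hr e).comp hc).tendsto _ |>.comp (YO_tendsto hl hPn ω (t := T) (by positivity) e)

/-! ### Almost sure convergence -/

/-- Summability of expectations gives almost sure summability. -/
lemma ae_tsum_ne_top {Ω : Type*} [MeasurableSpace Ω] {μ : Measure Ω} {d : ℕ → Ω → ℝ≥0∞}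
    (hm : ∀ i, Measurable (d i)) {c : ℕ → ℝ} (hc : Summable c) (hc0 : ∀ i, 0 ≤ c i)
    (h : ∀ i, ∫⁻ ω, d i ω ∂μ ≤ ENNReal.ofReal (c i)) : ∀ᵐ ω ∂μ, ∑' i, d i ω ≠ ⊤ := by
  have h1 : ∫⁻ ω, ∑' i, d i ω ∂μ ≠ ⊤ := by
    rw [lintegral_tsum fun i => (hm i).aemeasurable]
    refine ne_top_of_le_ne_top ?_ (ENNReal.tsum_le_tsum h)
    rw [← ENNReal.ofReal_tsum_of_nonneg hc0 hc]
    exact ENNReal.ofReal_ne_top
  have h2 : AEMeasurable (fun ω => ∑' i, d i ω) μ :=
    (Measurable.ennreal_tsum hm).aemeasurable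
  exact (ae_lt_top' h2 h1).mono fun ω hω => hω.ne

/-- The rounded observation process at time `2 ^ (i + 1)`. -/
def rnd (lab : unitInterval → ℝ) (γ : ℕ → ℕ → ℕ → unitInterval → ℝ) (S : Set (Sym2 V))
    (ω : V → unitInterval) (i : ℕ) (e : Sym2 V) : ℝ :=
  clip (YO lab γ (bG S) S ω ((2 ^ (i + 1) : ℕ) : ℝ) e)

lemma measurable_rnd (hl : LabelProps V lab γ) (S : Set (Sym2 V)) (i : ℕ) (e : Sym2 V) :
    Measurable fun ω => rnd lab γ S ω i e :=
  measurable_clip.comp (measurable_YO_omega hl (isDrift_bG S) S _ e)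

lemma two_le_pow (i : ℕ) : 2 ≤ 2 ^ (i + 1) := by
  rw [pow_succ]
  have : 1 ≤ 2 ^ i := Nat.one_le_two_pow
  omega

/-- Almost surely, the rounded process converges to a spin. -/
theorem ae_rnd_tendsto (hl : LabelProps V lab γ) (hS : ∀ e ∈ S, ¬ e.IsDiag)
    (hfin : ∀ x, {z | s(x, z) ∈ S}.Finite) (hPn : IsExh S Pn) {e : Sym2 V} (he : e ∈ S) :
    ∀ᵐ ω ∂(uniformField V), ∃ s' : ℝ, (s' = 1 ∨ s' = -1) ∧
      Tendsto (fun i => rnd lab γ S ω i e) atTop (𝓝 s') := by
  have hgeo : Summable (fun i : ℕ => 12 * (1 / 2 : ℝ) ^ i) :=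
    (summable_geometric_of_lt_one (by norm_num) (by norm_num)).mul_left 12
  have hgeo0 : ∀ i : ℕ, 0 ≤ 12 * (1 / 2 : ℝ) ^ i := fun i => by positivity
  have hcast : ∀ i : ℕ, (8 : ℝ) / ((2 ^ (i + 1) : ℕ) : ℝ) = 4 * (1 / 2 : ℝ) ^ i := by
    intro i
    push_cast
    rw [pow_succ, one_div, inv_pow]
    field_simp
    ring
  -- increments
  have h1 : ∀ᵐ ω ∂(uniformField V), ∑' i, ENNReal.ofReal |rnd lab γ S ω (i + 1) e - rnd lab γ S ω i e| ≠ ⊤ := by
    refine ae_tsum_ne_top (fun i => ?_) hgeo hgeo0 (fun i => ?_)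
    · exact ENNReal.measurable_ofReal.comp
        ((measurable_rnd hl S (i + 1) e).sub (measurable_rnd hl S i e)).abs
    · have hm : Measurable fun ω => |rnd lab γ S ω (i + 1) e - rnd lab γ S ω i e| :=
        ((measurable_rnd hl S (i + 1) e).sub (measurable_rnd hl S i e)).abs
      have hI : Integrable (fun ω => |rnd lab γ S ω (i + 1) e - rnd lab γ S ω i e|) (uniformField V) := by
        refine integrable_of_abs_le_two (C := 2) hm fun ω => ?_
        rw [abs_abs]
        refine (abs_sub _ _).trans ?_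
        have h2 := abs_clip_le (YO lab γ (bG S) S ω ((2 ^ (i + 1 + 1) : ℕ) : ℝ) e)
        have h3 := abs_clip_le (YO lab γ (bG S) S ω ((2 ^ (i + 1) : ℕ) : ℝ) e)
        unfold rnd
        linarith
      rw [← ofReal_integral_eq_lintegral_ofReal hI (Eventually.of_forall fun ω => abs_nonneg _)]
      refine ENNReal.ofReal_le_ofReal ?_
      have h4 := two_time_graph hl hS hfin hPn he (two_le_pow (i + 1)) (two_le_pow i)
      rw [hcast, hcast] at h4
      unfold rnd
      refine h4.trans ?_
      rw [pow_succ]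
      have : (0 : ℝ) < (1 / 2 : ℝ) ^ i := by positivity
      linarith
  -- distance to the spins
  have h2 : ∀ᵐ ω ∂(uniformField V), ∑' i, ENNReal.ofReal (1 - |rnd lab γ S ω i e|) ≠ ⊤ := by
    refine ae_tsum_ne_top (fun i => ?_) hgeo hgeo0 (fun i => ?_)
    · exact ENNReal.measurable_ofReal.comp ((measurable_rnd hl S i e).abs.const_sub 1)
    · have hm : Measurable fun ω => 1 - |rnd lab γ S ω i e| := (measurable_rnd hl S i e).abs.const_sub 1
      have hnn : ∀ ω, 0 ≤ 1 - |rnd lab γ S ω i e| := fun ω => by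
        have := abs_clip_le (YO lab γ (bG S) S ω ((2 ^ (i + 1) : ℕ) : ℝ) e)
        unfold rnd
        linarith
      have hI : Integrable (fun ω => 1 - |rnd lab γ S ω i e|) (uniformField V) := by
        refine integrable_of_abs_le_two (C := 1) hm fun ω => ?_
        rw [abs_of_nonneg (hnn ω)]
        have := abs_nonneg (rnd lab γ S ω i e)
        linarith
      rw [← ofReal_integral_eq_lintegral_ofReal hI (Eventually.of_forall hnn)]
      refine ENNReal.ofReal_le_ofReal ?_
      have h4 := one_time_graph hl hS hfin hPn he (two_le_pow i)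
      rw [hcast] at h4
      unfold rnd
      refine h4.trans ?_
      have : (0 : ℝ) < (1 / 2 : ℝ) ^ i := by positivity
      linarith
  filter_upwards [h1, h2] with ω hω1 hω2
  have hc : CauchySeq (fun i => rnd lab γ S ω i e) := by
    refine cauchySeq_of_edist_le_of_tsum_ne_top
      (fun i => ENNReal.ofReal |rnd lab γ S ω (i + 1) e - rnd lab γ S ω i e|) (fun i => ?_) hω1
    rw [edist_comm, edist_dist, Real.dist_eq]
  obtain ⟨L, hL⟩ := cauchySeq_tendsto_of_complete hc
  have h3 : Tendsto (fun i => ENNReal.ofReal (1 - |rnd lab γ S ω i e|)) atTop (𝓝 0) :=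
    ENNReal.tendsto_atTop_zero_of_tsum_ne_top hω2
  have h4 : Tendsto (fun i => ENNReal.ofReal (1 - |rnd lab γ S ω i e|)) atTop
      (𝓝 (ENNReal.ofReal (1 - |L|))) :=
    ENNReal.continuous_ofReal.tendsto _ |>.comp ((tendsto_const_nhds).sub hL.abs)
  have h5 := tendsto_nhds_unique h4 h3
  have h6 : 1 - |L| ≤ 0 := ENNReal.ofReal_eq_zero.1 h5
  have h7 : |L| ≤ 1 := by
    refine le_of_tendsto hL.abs (Eventually.of_forall fun i => ?_)
    exact abs_clip_le _
  have h8 : |L| = 1 := by linarith
  refine ⟨L, ?_, hL⟩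
  rcases abs_eq (by norm_num : (0 : ℝ) ≤ 1) |>.1 h8 with h | h
  · exact Or.inl h
  · exact Or.inr h

/-! ### The factor map -/

/-- The factor map: the limiting spin of the rounded process, on the edges of the graph. -/
def PhiS (lab : unitInterval → ℝ) (γ : ℕ → ℕ → ℕ → unitInterval → ℝ) (S : Set (Sym2 V))
    (ω : V → unitInterval) (e : Sym2 V) : Bool :=
  decide (e ∈ S ∧ 0 < limsup (fun i => rnd lab γ S ω i e) atTop)

lemma PhiS_of_tendsto {ω : V → unitInterval} {e : Sym2 V} (he : e ∈ S) {s' : ℝ}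
    (hs : s' = 1 ∨ s' = -1) (hL : Tendsto (fun i => rnd lab γ S ω i e) atTop (𝓝 s')) :
    s' = if PhiS lab γ S ω e = true then 1 else -1 := by
  unfold PhiS
  have h1 := hL.limsup_eq
  simp only [decide_eq_true_eq, h1, he, true_and]
  rcases hs with rfl | rfl <;> norm_num

/-- The cylinder test functions converge to the probability of the cylinder. -/
theorem cyl_graph_limit (hl : LabelProps V lab γ) (hS : ∀ e ∈ S, ¬ e.IsDiag)
    (hfin : ∀ x, {z | s(x, z) ∈ S}.Finite) (hPn : IsExh S Pn) {F : Finset (Sym2 V)}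
    (hF : (F : Set (Sym2 V)) ⊆ S) (A : Finset (Sym2 V)) :
    Tendsto (fun i : ℕ => ∫ ω, cylT F A (YO lab γ (bG S) S ω ((2 ^ (i + 1) : ℕ) : ℝ)) ∂(uniformField V)) atTop
      (𝓝 (∫ ω, (if ∀ e ∈ F, (PhiS lab γ S ω e = true ↔ e ∈ A) then (1 : ℝ) else 0) ∂(uniformField V))) := by
  have hr : ∀ e, Continuous (rho A e) := by
    intro e
    unfold rho
    split_ifs <;> fun_prop
  have hmr : ∀ i : ℕ, Measurable fun ω =>
      cylT F A (YO lab γ (bG S) S ω ((2 ^ (i + 1) : ℕ) : ℝ)) := by
    intro i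
    unfold cylT
    refine Finset.measurable_prod _ fun e _ => ?_
    exact (hr e).measurable.comp (measurable_clip.comp (measurable_YO_omega hl (isDrift_bG S) S _ e))
  refine tendsto_integral_of_dominated_convergence (fun _ => 1) (fun i => (hmr i).aestronglyMeasurable)
    (integrable_const _) (fun i => Eventually.of_forall fun ω => ?_) ?_
  · rw [Real.norm_eq_abs]
    exact abs_cylT_le F A _
  · have hall : ∀ᵐ ω ∂(uniformField V), ∀ e ∈ F, ∃ s' : ℝ, (s' = 1 ∨ s' = -1) ∧
        Tendsto (fun i => rnd lab γ S ω i e) atTop (𝓝 s') := by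
      rw [Finset.eventually_all]
      intro e he
      exact ae_rnd_tendsto hl hS hfin hPn (hF he)
    filter_upwards [hall] with ω hω
    have hfac : ∀ e ∈ F, Tendsto (fun i => rho A e (rnd lab γ S ω i e)) atTop
        (𝓝 (if (PhiS lab γ S ω e = true ↔ e ∈ A) then 1 else 0)) := by
      intro e he
      obtain ⟨s', hs, hL⟩ := hω e he
      have h1 := (hr e).tendsto s' |>.comp hL
      have h2 := rho_spin A e hs
      have h3 := PhiS_of_tendsto (hF he) hs hL
      have h4 : (s' = 1 ↔ e ∈ A) ↔ (PhiS lab γ S ω e = true ↔ e ∈ A) := by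
        rw [h3]
        by_cases hp : PhiS lab γ S ω e = true <;> simp [hp] <;> norm_num
      rw [h2] at h1
      simp only [h4] at h1
      exact h1
    have hprod := tendsto_finsetProd F hfac
    have hval : ∏ e ∈ F, (if (PhiS lab γ S ω e = true ↔ e ∈ A) then (1 : ℝ) else 0)
        = if ∀ e ∈ F, (PhiS lab γ S ω e = true ↔ e ∈ A) then 1 else 0 := by
      split_ifs with h
      · exact Finset.prod_eq_one fun e he => if_pos (h e he)
      · push Not at h
        obtain ⟨e, he, hn⟩ := h
        refine Finset.prod_eq_zero he (if_neg ?_)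
        tauto
    rw [hval] at hprod
    exact hprod

/-- Convergence of the cylinder probabilities along an exhaustion: the limit is the law of the
factor map. -/
theorem piece_prob_tendsto (hl : LabelProps V lab γ) (hS : ∀ e ∈ S, ¬ e.IsDiag)
    (hfin : ∀ x, {z | s(x, z) ∈ S}.Finite) (hPn : IsExh S Pn) {F : Finset (Sym2 V)}
    (hF : (F : Set (Sym2 V)) ⊆ S) (A : Finset (Sym2 V)) :
    Tendsto (fun n => ∑ σ, unifP (Pn n) σ * cylInd (Pn n) F A σ) atTop
      (𝓝 (∫ ω, (if ∀ e ∈ F, (PhiS lab γ S ω e = true ↔ e ∈ A) then (1 : ℝ) else 0) ∂(uniformField V))) := by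
  set Q := ∫ ω, (if ∀ e ∈ F, (PhiS lab γ S ω e = true ↔ e ∈ A) then (1 : ℝ) else 0) ∂(uniformField V) with hQ
  have hlimQ := cyl_graph_limit hl hS hfin hPn hF A
  rw [← hQ] at hlimQ
  rw [Metric.tendsto_atTop]
  intro ε hε
  -- choose the time
  have herr : Tendsto (fun i : ℕ => (F.card : ℝ) * (8 / ((2 ^ (i + 1) : ℕ) : ℝ))) atTop (𝓝 0) := by
    have h1 : Tendsto (fun i : ℕ => ((2 ^ (i + 1) : ℕ) : ℝ)) atTop atTop := by
      refine tendsto_natCast_atTop_atTop.comp ?_
      exact tendsto_atTop_mono (fun i => (Nat.lt_two_pow_self (n := i + 1)).le)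
        (tendsto_add_atTop_nat 1)
    have h2 := (h1.const_div_atTop (8 : ℝ)).const_mul (F.card : ℝ)
    simpa using h2
  have hi1 := (Metric.tendsto_atTop.1 hlimQ) (ε / 3) (by positivity)
  have hi2 := (Metric.tendsto_atTop.1 herr) (ε / 3) (by positivity)
  obtain ⟨i1, hi1⟩ := hi1
  obtain ⟨i2, hi2⟩ := hi2
  set i := max i1 i2 with hi
  have h1 := hi1 i (le_max_left _ _)
  have h2 := hi2 i (le_max_right _ _)
  rw [Real.dist_eq] at h1 h2
  rw [sub_zero, abs_of_nonneg (by positivity)] at h2
  -- the limit in `n` at that time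
  have h3 := Metric.tendsto_atTop.1 (cyl_graph_tendsto hl hPn F A (2 ^ (i + 1))) (ε / 3) (by positivity)
  obtain ⟨n1, hn1⟩ := h3
  -- the edges of `F` are eventually in the pieces
  have h4 : ∀ᶠ n in atTop, F ⊆ (Pn n).edges := by
    have : ∀ᶠ n in atTop, ∀ e ∈ F, e ∈ (Pn n).edges := by
      rw [Filter.eventually_all_finset]
      intro e he
      exact eventually_mem_edges hPn (hF he)
    exact this
  obtain ⟨n2, hn2⟩ := eventually_atTop.1 h4
  refine ⟨max n1 n2, fun n hn => ?_⟩
  have h5 := hn1 n (le_of_max_le_left hn)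
  rw [Real.dist_eq] at h5
  have h6 := cyl_piece hl hS hfin (hPn.sub n) (hn2 n (le_of_max_le_right hn)) A (two_le_pow i)
  rw [Real.dist_eq]
  have h7 : ((∑ σ, unifP (Pn n) σ * cylInd (Pn n) F A σ) - Q)
      = -(∫ ω, cylT F A (YO lab γ (bP (Pn n)) S ω ((2 ^ (i + 1) : ℕ) : ℝ)) ∂(uniformField V)
          - ∑ σ, unifP (Pn n) σ * cylInd (Pn n) F A σ)
        + (∫ ω, cylT F A (YO lab γ (bP (Pn n)) S ω ((2 ^ (i + 1) : ℕ) : ℝ)) ∂(uniformField V)
          - ∫ ω, cylT F A (YO lab γ (bG S) S ω ((2 ^ (i + 1) : ℕ) : ℝ)) ∂(uniformField V))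
        + (∫ ω, cylT F A (YO lab γ (bG S) S ω ((2 ^ (i + 1) : ℕ) : ℝ)) ∂(uniformField V) - Q) := by ring
  rw [h7]
  refine (abs_add_three _ _ _).trans_lt ?_
  rw [abs_neg]
  linarith

end

end Vale.Agent.Lib.P143B
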