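import Vale.Agent.Lib.P143B.Final
import Vale.Agent.Lib.P143.Fusf
import Vale.Agent.Lib.P143.CayleyDefs
import Vale.Agent.Lib.P161.Tree

/-!
Track B of P143: the factor map gives the free uniform spanning forest of every connected locally
finite graph; the universal graph factor and the Cayley graph factor.
-/

set_option linter.unusedVariables false
set_option linter.unusedSectionVars false

open Finset Filter Topology MeasureTheory ProbabilityTheory
open Vale.Agent.Lib.P143
open scoped ENNReal

namespace Vale.Agent.Lib.P143B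

noncomputable section

open Classical

variable {V : Type*} {lab : unitInterval → ℝ} {γ : ℕ → ℕ → ℕ → unitInterval → ℝ}

section Law

variable [Countable V]

lemma measurable_PhiS_fix (hl : LabelProps V lab γ) (S : Set (Sym2 V)) :
    Measurable fun ω : V → unitInterval => PhiS lab γ S ω :=
  (measurable_PhiS hl).comp (Measurable.prodMk measurable_const measurable_id)

lemma countable_sym2 : Countable (Sym2 V) := by
  have h1 : Function.Surjective (fun p : V × V => s(p.1, p.2)) := fun e => by
    induction e using Sym2.ind with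
    | _ a b => exact ⟨(a, b), rfl⟩
  exact h1.countable

/-- The law of the factor map is the free uniform spanning forest. -/
theorem isFUSF_PhiS (hl : LabelProps V lab γ) {G : SimpleGraph V} (hc : G.Connected)
    (hlf : ∀ v, (G.neighborSet v).Finite) :
    IsFUSF G ((uniformField V).map (fun U (e : G.edgeSet) => PhiS lab γ G.edgeSet U e.1)) := by
  have hU : Measurable (fun U => PhiS lab γ G.edgeSet U) := measurable_PhiS_fix hl _
  have hm : Measurable (fun U (e : G.edgeSet) => PhiS lab γ G.edgeSet U e.1) :=
    measurable_pi_lambda _ fun e => (measurable_pi_apply e.1).comp hU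
  have : IsProbabilityMeasure (uniformField V) := by unfold uniformField; infer_instance
  refine ⟨Measure.isProbabilityMeasure_map hm.aemeasurable, ?_, fun H hH F P hF hP => ?_⟩
  · obtain ⟨o⟩ := hc.nonempty
    exact ⟨ballH G o, isExhaustion_ballH hlf hc o⟩
  · have hS : ∀ e ∈ G.edgeSet, ¬ e.IsDiag := fun e he => G.not_isDiag_of_mem_edgeSet he
    have hfin : ∀ x, {z | s(x, z) ∈ G.edgeSet}.Finite := fun x => hlf x
    have h := piece_prob_tendsto hl hS hfin (isExh_of_isExhaustion hH) hF P
    have h1 : (fun n => ustProb (H n) F P)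
        = fun n => ∑ σ, unifP (pieceOf (hH.fs n)) σ * cylInd (pieceOf (hH.fs n)) F P σ := by
      funext n
      exact ustProb_eq_piece (hH.fs n) F P hP
    rw [h1]
    -- the limit
    set A : Set (V → unitInterval) :=
      {ω | ∀ e ∈ F, (PhiS lab γ G.edgeSet ω e = true ↔ e ∈ P)} with hA
    have hAm : MeasurableSet A := by
      have : A = ⋂ e ∈ F, {ω | PhiS lab γ G.edgeSet ω e = true ↔ e ∈ P} := by
        ext ω
        simp [hA]
      rw [this]
      refine Finset.measurableSet_biInter F fun e _ => ?_
      have hme : Measurable fun ω : V → unitInterval => PhiS lab γ G.edgeSet ω e :=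
        (measurable_pi_apply e).comp hU
      exact hme (MeasurableSet.of_discrete (s := {b : Bool | b = true ↔ e ∈ P}))
    have hset : MeasurableSet {σ : G.edgeSet → Bool | ∀ e : G.edgeSet, e.1 ∈ F → (σ e = true ↔ e.1 ∈ P)} := by
      have : Countable (Sym2 V) := countable_sym2
      rw [Set.ofPred_forall]
      refine MeasurableSet.iInter fun e => ?_
      have hme : Measurable fun σ : G.edgeSet → Bool => σ e := measurable_pi_apply e
      exact hme (MeasurableSet.of_discrete (s := {b : Bool | e.1 ∈ F → (b = true ↔ e.1 ∈ P)}))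
    have hval : ((uniformField V).map (fun U (e : G.edgeSet) => PhiS lab γ G.edgeSet U e.1)
        {σ : G.edgeSet → Bool | ∀ e : G.edgeSet, e.1 ∈ F → (σ e = true ↔ e.1 ∈ P)}).toReal
        = ∫ ω, (if ∀ e ∈ F, (PhiS lab γ G.edgeSet ω e = true ↔ e ∈ P) then (1 : ℝ) else 0)
          ∂(uniformField V) := by
      rw [Measure.map_apply hm hset]
      have hpre : (fun U (e : G.edgeSet) => PhiS lab γ G.edgeSet U e.1) ⁻¹'
          {σ : G.edgeSet → Bool | ∀ e : G.edgeSet, e.1 ∈ F → (σ e = true ↔ e.1 ∈ P)} = A := by
        ext ω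
        simp only [Set.mem_preimage, Set.mem_ofPred_eq, hA]
        constructor
        · intro h2 e he
          exact h2 ⟨e, hF he⟩ he
        · intro h2 e he
          exact h2 e.1 he
      rw [hpre]
      have hind : (fun ω => if ∀ e ∈ F, (PhiS lab γ G.edgeSet ω e = true ↔ e ∈ P) then (1 : ℝ) else 0)
          = A.indicator 1 := by
        funext ω
        by_cases hω : ∀ e ∈ F, (PhiS lab γ G.edgeSet ω e = true ↔ e ∈ P)
        · rw [if_pos hω, Set.indicator_of_mem (show ω ∈ A from hω)]
          rfl
        · rw [if_neg hω, Set.indicator_of_notMem (show ω ∉ A from hω)]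
      rw [hind, integral_indicator_one hAm]
      rfl
    rw [hval]
    exact h

end Law

/-- The labels and Gaussian arrays. -/
lemma exists_labelProps (V : Type*) [Countable V] :
    ∃ (lab : unitInterval → ℝ) (γ : ℕ → ℕ → ℕ → unitInterval → ℝ), LabelProps V lab γ := by
  obtain ⟨lab, γ, h1, h2, h3, h4⟩ := exists_labels V
  exact ⟨lab, γ, ⟨h1, h2, h3, h4⟩⟩

/-- The universal graph factor. -/
theorem universal_factor :
    ∃ Φ : SimpleGraph ℕ → (ℕ → unitInterval) → Sym2 ℕ → Bool,
      Measurable (fun q : SimpleGraph ℕ × (ℕ → unitInterval) => Φ q.1 q.2) ∧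
      (∀ (G G' : SimpleGraph ℕ) (f : G ≃g G') (U U' : ℕ → unitInterval) (e : Sym2 ℕ),
        (∀ v, U' (f v) = U v) → Φ G' U' (Sym2.map f e) = Φ G U e) ∧
      (∀ (G : SimpleGraph ℕ) (U : ℕ → unitInterval) (e : Sym2 ℕ), e ∉ G.edgeSet → Φ G U e = false) ∧
      ∀ G : SimpleGraph ℕ, G.Connected → (∀ v, (G.neighborSet v).Finite) →
        IsFUSF G ((uniformField ℕ).map (fun U (e : G.edgeSet) => Φ G U e.1)) := by
  obtain ⟨lab, γ, hl⟩ := exists_labelProps ℕ
  refine ⟨fun G U e => PhiS lab γ G.edgeSet U e, ?_, ?_, ?_, ?_⟩
  · have h1 : Measurable fun q : SimpleGraph ℕ × (ℕ → unitInterval) => (q.1.edgeSet, q.2) :=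
      Measurable.prodMk (SimpleGraph.measurable_edgeSet.comp measurable_fst) measurable_snd
    exact (measurable_PhiS hl).comp h1
  · intro G G' f U U' e hU
    have h1 : symE f.toEquiv '' G.edgeSet = G'.edgeSet := by
      ext a
      constructor
      · rintro ⟨b, hb, rfl⟩
        induction b using Sym2.ind with
        | _ x y =>
          exact f.map_adj_iff.2 hb
      · intro ha
        induction a using Sym2.ind with
        | _ x y =>
          refine ⟨s(f.symm x, f.symm y), ?_, ?_⟩
          · exact f.symm.map_adj_iff.2 ha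
          · simp [symE]
    have h2 : U' = U ∘ f.toEquiv.symm := by
      funext v
      have := hU (f.symm v)
      rw [f.apply_symm_apply] at this
      exact this
    have h3 := PhiS_map (lab := lab) (γ := γ) f.toEquiv G.edgeSet U e
    rw [h1, ← h2] at h3
    exact h3
  · intro G U e he
    exact PhiS_of_notMem U he
  · intro G hc hlf
    exact isFUSF_PhiS hl hc hlf

section Cayley

variable {Γ : Type*} [Group Γ]

/-- A finite generating set makes the Cayley graph connected. -/
lemma cayley_connected (S : Finset Γ) (hS : Subgroup.closure (S : Set Γ) = ⊤) :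
    (cayleyGraph S).Connected := by
  rw [SimpleGraph.connected_iff_exists_forall_reachable]
  refine ⟨1, fun g => ?_⟩
  have hg : g ∈ Subgroup.closure (S : Set Γ) := by rw [hS]; exact Subgroup.mem_top g
  induction hg using Subgroup.closure_induction_right with
  | one => exact SimpleGraph.Reachable.refl _
  | mul_right x _ y hy ih =>
    by_cases h1 : y = 1
    · simpa [h1] using ih
    · refine ih.trans (SimpleGraph.Adj.reachable ?_)
      rw [cayleyGraph_adj]
      refine ⟨fun h => h1 (by simpa using h), Or.inl ?_⟩
      simpa using hy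
  | mul_inv_cancel x _ y hy ih =>
    by_cases h1 : y = 1
    · simpa [h1] using ih
    · refine ih.trans (SimpleGraph.Adj.reachable ?_)
      rw [cayleyGraph_adj]
      refine ⟨fun h => h1 (by simpa using h), Or.inr ?_⟩
      simpa using hy

lemma cayley_locallyFinite (S : Finset Γ) (v : Γ) : ((cayleyGraph S).neighborSet v).Finite := by
  have h : (cayleyGraph S).neighborSet v ⊆
      ((S : Set Γ).image (fun s => v * s)) ∪ ((S : Set Γ).image (fun s => v * s⁻¹)) := by
    intro w hw
    obtain ⟨_, h2⟩ := (cayleyGraph_adj).1 hw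
    rcases h2 with h2 | h2
    · exact Or.inl ⟨_, h2, by simp⟩
    · exact Or.inr ⟨_, h2, by simp⟩
  exact ((S.finite_toSet.image _).union (S.finite_toSet.image _)).subset h

/-- Left multiplication preserves the edges of the Cayley graph. -/
lemma symE_image_cayley (S : Finset Γ) (c : Γ) :
    symE (Equiv.mulLeft c) '' (cayleyGraph S).edgeSet = (cayleyGraph S).edgeSet := by
  ext a
  constructor
  · rintro ⟨b, hb, rfl⟩
    induction b using Sym2.ind with
    | _ x y => exact cayleyGraph_adj_mul S c hb
  · intro ha
    induction a using Sym2.ind with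
    | _ x y =>
      refine ⟨s(c⁻¹ * x, c⁻¹ * y), cayleyGraph_adj_mul S c⁻¹ ha, ?_⟩
      simp [symE]

/-- The Cayley factor: `Φ` commutes with left multiplication. -/
theorem cayley_factor (S : Finset Γ) (hS : Subgroup.closure (S : Set Γ) = ⊤) :
    ∃ Φ : (Γ → unitInterval) → ((cayleyGraph S).edgeSet → Bool), Measurable Φ ∧
      (∀ (c : Γ) (U : Γ → unitInterval) (e : (cayleyGraph S).edgeSet),
        Φ (fun g => U (c⁻¹ * g)) e = Φ U (cayleyShift S c⁻¹ e)) ∧
      IsFUSF (cayleyGraph S) ((uniformField Γ).map Φ) := by
  have hc := cayley_connected S hS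
  letI hlf : (cayleyGraph S).LocallyFinite := fun v => (cayley_locallyFinite S v).fintype
  have hΓ : Countable Γ := Vale.Agent.Lib.P161.countable_of_connected hc
  obtain ⟨lab, γ, hl⟩ := exists_labelProps Γ
  refine ⟨fun U e => PhiS lab γ (cayleyGraph S).edgeSet U e.1,
    measurable_pi_lambda _ fun e => (measurable_pi_apply e.1).comp (measurable_PhiS_fix hl _),
    ?_, isFUSF_PhiS hl hc (cayley_locallyFinite S)⟩
  intro c U e
  have h1 := PhiS_map (lab := lab) (γ := γ) (Equiv.mulLeft c) (cayleyGraph S).edgeSet U
    (Sym2.map (c⁻¹ * ·) e.1)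
  rw [symE_image_cayley] at h1
  have h2 : symE (Equiv.mulLeft c) (Sym2.map (c⁻¹ * ·) e.1) = e.1 := by
    obtain ⟨e, he⟩ := e
    induction e using Sym2.ind with
    | _ x y => simp [symE]
  rw [h2] at h1
  exact h1

end Cayley

end

end Vale.Agent.Lib.P143B
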