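import Vale.Agent.Lib.P143.Kirchhoff

/-!
Track B of P143: finite connected pieces of a graph on `V`, edge marginals of the weighted spanning
tree measure of a piece, and the current through an edge, as functions on all of `Sym2 V`.
-/

set_option linter.unusedVariables false
set_option linter.unusedSectionVars false

open Finset Filter Topology
open Vale.Agent.Lib.P143

namespace Vale.Agent.Lib.P143B

noncomputable section

open Classical

variable {V : Type*}

/-- A finite connected graph with vertices in `V`. -/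
structure Piece (V : Type*) where
  verts : Finset V
  edges : Finset (Sym2 V)
  ne : verts.Nonempty
  mem : ∀ e ∈ edges, ∀ x ∈ e, x ∈ verts
  nondiag : ∀ e ∈ edges, ¬ e.IsDiag
  conn : ∀ x ∈ verts, ∀ y ∈ verts, Relation.ReflTransGen (fun a b => s(a, b) ∈ edges) x y

namespace Piece

lemma mk_out (e : Sym2 V) : s(e.out.1, e.out.2) = e := e.out_eq

/-- First end of an edge of the piece. -/
def u (P : Piece V) (f : P.edges) : P.verts :=
  ⟨f.1.out.1, P.mem f.1 f.2 _ (Sym2.out_fst_mem _)⟩

/-- Second end of an edge of the piece. -/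
def v (P : Piece V) (f : P.edges) : P.verts :=
  ⟨f.1.out.2, P.mem f.1 f.2 _ (Sym2.out_snd_mem _)⟩

lemma u_ne_v (P : Piece V) (f : P.edges) : P.u f ≠ P.v f := by
  intro h
  have h1 : f.1.out.1 = f.1.out.2 := congrArg Subtype.val h
  apply P.nondiag f.1 f.2
  rw [← mk_out f.1]
  exact h1

/-- Every connected piece has a spanning tree. -/
lemma exists_tree (P : Piece V) : ∃ T, IsSpanTree P.u P.v T := by
  let G0 : SimpleGraph P.verts :=
    { Adj := fun x y => s(x.1, y.1) ∈ P.edges
      symm := ⟨by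
        intro x y h
        show s(y.1, x.1) ∈ P.edges
        rw [Sym2.eq_swap]; exact h⟩
      loopless := ⟨fun x h => P.nondiag _ h (by simp)⟩ }
  have hconn : G0.Connected := by
    have : Nonempty P.verts := ⟨⟨P.ne.choose, P.ne.choose_spec⟩⟩
    refine { preconnected := ?_, nonempty := inferInstance }
    intro x y
    have hxy := P.conn x.1 x.2 y.1 y.2
    have key : ∀ z : V, Relation.ReflTransGen (fun a b => s(a, b) ∈ P.edges) x.1 z →
        ∀ hz : z ∈ P.verts, G0.Reachable x ⟨z, hz⟩ := by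
      intro z hz
      induction hz with
      | refl => intro _; exact SimpleGraph.Reachable.refl _
      | @tail b c hb hs ih =>
        intro hc
        have hb' : b ∈ P.verts := P.mem _ hs b (by simp)
        refine (ih hb').trans (SimpleGraph.Adj.reachable ?_)
        exact hs
    exact key _ hxy y.2
  obtain ⟨T0, hle, hT0⟩ := hconn.exists_isTree_le
  let T : Finset P.edges := univ.filter (fun f => T0.Adj (P.u f) (P.v f))
  have hmk : ∀ f : P.edges, s((P.u f).1, (P.v f).1) = f.1 := fun f => mk_out f.1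
  refine ⟨T, ?_, ?_⟩
  · -- cardinality
    have hc := hT0.card_edgeFinset
    rw [← hc]
    congr 1
    refine Finset.card_bij (fun f _ => s(P.u f, P.v f)) ?_ ?_ ?_
    · intro f hf
      have := (Finset.mem_filter.1 hf).2
      simpa [SimpleGraph.mem_edgeFinset] using this
    · intro f _ g _ h
      have h1 := congrArg (Sym2.map Subtype.val) h
      simp only [Sym2.map_mk] at h1
      apply Subtype.ext
      rw [← hmk f, ← hmk g]
      simpa using h1
    · intro e0 he0
      have he0' : e0 ∈ T0.edgeSet := by simpa [SimpleGraph.mem_edgeFinset] using he0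
      induction e0 using Sym2.ind with
      | _ x y =>
        have hadj : T0.Adj x y := he0'
        have hG : G0.Adj x y := hle hadj
        let f : P.edges := ⟨s(x.1, y.1), hG⟩
        have hf : s((P.u f).1, (P.v f).1) = s(x.1, y.1) := hmk f
        have hcase := Sym2.eq_iff.1 hf
        have hus : s(P.u f, P.v f) = s(x, y) := by
          rcases hcase with ⟨h1, h2⟩ | ⟨h1, h2⟩
          · rw [Subtype.ext h1, Subtype.ext h2]
          · rw [Subtype.ext h1, Subtype.ext h2, Sym2.eq_swap]
        refine ⟨f, Finset.mem_filter.2 ⟨Finset.mem_univ _, ?_⟩, hus⟩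
        rw [← SimpleGraph.mem_edgeSet, hus]
        exact he0'
  · -- connectivity
    intro x y
    have hr : T0.Reachable x y := hT0.1.preconnected x y
    obtain ⟨w⟩ := hr
    induction w with
    | nil => exact Relation.ReflTransGen.refl
    | @cons a b c hadj _ ih =>
      refine Relation.ReflTransGen.head ?_ ih
      have hG : G0.Adj a b := hle hadj
      let f : P.edges := ⟨s(a.1, b.1), hG⟩
      have hf : s((P.u f).1, (P.v f).1) = s(a.1, b.1) := hmk f
      have hcase := Sym2.eq_iff.1 hf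
      have hsym : T0.Adj (P.u f) (P.v f) := by
        rcases hcase with ⟨h1, h2⟩ | ⟨h1, h2⟩
        · rw [Subtype.ext h1, Subtype.ext h2]; exact hadj
        · rw [Subtype.ext h1, Subtype.ext h2]; exact hadj.symm
      refine ⟨f, Finset.mem_filter.2 ⟨Finset.mem_univ _, hsym⟩, ?_⟩
      rcases hcase with ⟨h1, h2⟩ | ⟨h1, h2⟩
      · exact Or.inl ⟨Subtype.ext h1, Subtype.ext h2⟩
      · exact Or.inr ⟨Subtype.ext h1, Subtype.ext h2⟩

end Piece

/-- The probability that the weighted spanning tree of `P` contains `e`, for conductances `c`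
(zero if `e` is not an edge of `P`). -/
def pE (P : Piece V) (c : Sym2 V → ℝ) (e : Sym2 V) : ℝ :=
  treeSum P.u P.v (fun f => c f.1) (fun T => ∃ f ∈ T, f.1 = e)
    / treeSum P.u P.v (fun f => c f.1) (fun _ => True)

lemma treeSum_nonneg (P : Piece V) {c : Sym2 V → ℝ} (hc : ∀ f, 0 < c f) (A : Finset P.edges → Prop) :
    0 ≤ treeSum P.u P.v (fun f => c f.1) A :=
  Finset.sum_nonneg fun T _ => Finset.prod_nonneg fun f _ => (hc f.1).le

lemma treeSum_total_pos (P : Piece V) {c : Sym2 V → ℝ} (hc : ∀ f, 0 < c f) :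
    0 < treeSum P.u P.v (fun f => c f.1) (fun _ => True) := by
  obtain ⟨T, hT⟩ := P.exists_tree
  refine Finset.sum_pos (fun T _ => Finset.prod_pos fun f _ => hc f.1) ⟨T, ?_⟩
  simp [hT]

lemma treeSum_le_total (P : Piece V) {c : Sym2 V → ℝ} (hc : ∀ f, 0 < c f)
    (A : Finset P.edges → Prop) :
    treeSum P.u P.v (fun f => c f.1) A ≤ treeSum P.u P.v (fun f => c f.1) (fun _ => True) := by
  unfold treeSum
  refine Finset.sum_le_sum_of_subset_of_nonneg ?_ fun T _ _ =>
    Finset.prod_nonneg fun f _ => (hc f.1).le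
  intro T hT
  simp only [Finset.mem_filter, Finset.mem_univ, true_and] at hT ⊢
  exact ⟨hT.1, trivial⟩

lemma pE_nonneg (P : Piece V) {c : Sym2 V → ℝ} (hc : ∀ f, 0 < c f) (e : Sym2 V) : 0 ≤ pE P c e :=
  div_nonneg (treeSum_nonneg P hc _) (treeSum_total_pos P hc).le

lemma pE_le_one (P : Piece V) {c : Sym2 V → ℝ} (hc : ∀ f, 0 < c f) (e : Sym2 V) : pE P c e ≤ 1 :=
  div_le_one_of_le₀ (treeSum_le_total P hc _) (treeSum_total_pos P hc).le

/-! ### Flows on all of `Sym2 V` -/

/-- Divergence on the finite edge set `E`, with the orientation given by `Sym2.out`. -/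
def Dv (E : Finset (Sym2 V)) (ψ : Sym2 V → ℝ) (x : V) : ℝ :=
  ∑ f ∈ E, ψ f * (ind (f.out.1 = x) - ind (f.out.2 = x))

/-- Unit flow from `a` to `b` on `E`. -/
def IsFlow (E : Finset (Sym2 V)) (a b : V) (ψ : Sym2 V → ℝ) : Prop :=
  ∀ x, Dv E ψ x = ind (x = a) - ind (x = b)

lemma dvg_eq (P : Piece V) (ψ : Sym2 V → ℝ) (x : P.verts) :
    dvg P.u P.v (fun f => ψ f.1) x = Dv P.edges ψ x.1 := by
  unfold dvg Dv inc
  rw [← Finset.sum_coe_sort P.edges]
  refine Finset.sum_congr rfl fun f _ => ?_
  congr 1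
  have h1 : ind (P.u f = x) = ind (f.1.out.1 = x.1) := ind_congr Subtype.ext_iff
  have h2 : ind (P.v f = x) = ind (f.1.out.2 = x.1) := ind_congr Subtype.ext_iff
  rw [h1, h2]

/-- The current through `e` in the piece, with its resistance and the tree probability. -/
lemma exists_current (P : Piece V) {c : Sym2 V → ℝ} (hc : ∀ f, 0 < c f) {e : Sym2 V}
    (he : e ∈ P.edges) :
    ∃ (φ : Sym2 V → ℝ) (R : ℝ), (∀ f, f ∉ P.edges → φ f = 0) ∧
      IsFlow P.edges e.out.1 e.out.2 φ ∧
      (∀ ψ, IsFlow P.edges e.out.1 e.out.2 ψ → ∑ f ∈ P.edges, ψ f * φ f / c f = R) ∧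
      pE P c e = c e * R := by
  let f0 : P.edges := ⟨e, he⟩
  let a : P.verts := P.u f0
  let b : P.verts := P.v f0
  let c' : P.edges → ℝ := fun f => c f.1
  have hc' : ∀ f, 0 < c' f := fun f => hc f.1
  have hne := P.u_ne_v
  have hex := P.exists_tree
  let φ0 : P.edges → ℝ := curr P.u P.v c' a b
  let φ : Sym2 V → ℝ := fun f => if h : f ∈ P.edges then φ0 ⟨f, h⟩ else 0
  have hφ : ∀ f : P.edges, φ f.1 = φ0 f := by
    intro f
    simp only [φ, f.2, dif_pos]
  have hdv : ∀ x, x ∈ P.verts → ∀ ψ : Sym2 V → ℝ, IsFlow P.edges e.out.1 e.out.2 ψ →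
      ∀ y : P.verts, dvg P.u P.v (fun f => ψ f.1) y = ind (y = a) - ind (y = b) := by
    intro _ _ ψ hψ y
    rw [dvg_eq, hψ y.1]
    have h1 : ind (y = a) = ind (y.1 = e.out.1) := ind_congr Subtype.ext_iff
    have h2 : ind (y = b) = ind (y.1 = e.out.2) := ind_congr Subtype.ext_iff
    rw [h1, h2]
  refine ⟨φ, resist P.u P.v c' a b, ?_, ?_, ?_, ?_⟩
  · intro f hf
    simp only [φ, hf, dif_neg, not_false_iff]
  · -- `φ` is a flow
    intro x
    by_cases hx : x ∈ P.verts
    · have h1 := dvg_curr (c := c') hne hex hc' a b ⟨x, hx⟩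
      have h2 := dvg_eq P φ ⟨x, hx⟩
      have h3 : (fun f : P.edges => φ f.1) = φ0 := funext hφ
      rw [h3] at h2
      have h6 : Dv P.edges φ x = dvg P.u P.v φ0 ⟨x, hx⟩ := h2.symm
      have h4 : ind ((⟨x, hx⟩ : P.verts) = a) = ind (x = e.out.1) := ind_congr Subtype.ext_iff
      have h5 : ind ((⟨x, hx⟩ : P.verts) = b) = ind (x = e.out.2) := ind_congr Subtype.ext_iff
      rw [h6]
      show dvg P.u P.v (curr P.u P.v c' a b) ⟨x, hx⟩ = _
      rw [h1, h4, h5]
    · have h1 : Dv P.edges φ x = 0 := by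
        refine Finset.sum_eq_zero fun f hf => ?_
        have h2 : f.out.1 ≠ x := fun h => hx (h ▸ P.mem f hf _ (Sym2.out_fst_mem _))
        have h3 : f.out.2 ≠ x := fun h => hx (h ▸ P.mem f hf _ (Sym2.out_snd_mem _))
        rw [ind_false h2, ind_false h3]; ring
      have h4 : x ≠ e.out.1 := fun h => hx (h ▸ P.mem e he _ (Sym2.out_fst_mem _))
      have h5 : x ≠ e.out.2 := fun h => hx (h ▸ P.mem e he _ (Sym2.out_snd_mem _))
      rw [h1, ind_false h4, ind_false h5]; ring
  · -- pairing
    intro ψ hψ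
    have h1 := pair_curr (u := P.u) (v := P.v) (c := c') hex hc' (s := a) (t := b)
      (ψ := fun f => ψ f.1) (hdv e.out.1 (P.mem e he _ (Sym2.out_fst_mem _)) ψ hψ)
    rw [← h1, ← Finset.sum_coe_sort P.edges]
    refine Finset.sum_congr rfl fun f _ => ?_
    rw [hφ]
  · -- probability
    have h1 := prob_eq (c := c') hne hex hc' f0
    have h2 : treeSum P.u P.v (fun f => c f.1) (fun T => ∃ f ∈ T, f.1 = e)
        = treeSum P.u P.v c' (fun T => f0 ∈ T) := by
      unfold treeSum
      refine Finset.sum_congr ?_ fun _ _ => rfl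
      ext T
      simp only [Finset.mem_filter, Finset.mem_univ, true_and]
      refine and_congr_right fun _ => ⟨?_, fun h => ⟨f0, h, rfl⟩⟩
      rintro ⟨f, hf, rfl⟩
      exact hf
    unfold pE
    rw [h2, h1]

end

end Vale.Agent.Lib.P143B
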