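import Vale.Agent.Lib.P161.Noise

/-!
Track B of P143, module F: i.i.d. Gaussian noise on the edges of a locally finite graph, as an
equivariant function of i.i.d. vertex labels. Each uniform vertex variable `ω x` is split into a real
label `lab (ω x)` and independent arrays `γ r j k (ω x)` of Gaussians (slot `r`, level `j`, step `k`,
dyadically refining in `j`). A vertex `x` uses on the edge `{x, y}` the slot
given by the rank of `y` among the neighbours of `x`, ordered by labels.
The noise on the edge is the normalised sum of the two contributions of its ends.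
The graph is given by its edge set `S : Set (Sym2 V)`.
-/

set_option linter.unusedVariables false
set_option linter.unusedSectionVars false

open MeasureTheory Filter Topology ProbabilityTheory
open Vale.Agent.Lib.P161

namespace Vale.Agent.Lib.P143B

noncomputable section

variable {V : Type*}

/-- The rank of `y` among the neighbours of `x` in `S`, for the labels `a`. -/
def rk (S : Set (Sym2 V)) (a : V → ℝ) (x y : V) : ℕ :=
  {z | s(x, z) ∈ S ∧ a z < a y}.ncard

/-- The Gaussian step `k` at level `j` on an edge. -/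
def edgeG (lab : unitInterval → ℝ) (γ : ℕ → ℕ → ℕ → unitInterval → ℝ) (S : Set (Sym2 V))
    (j k : ℕ) (ω : V → unitInterval) : Sym2 V → ℝ :=
  Sym2.lift ⟨fun x y => (γ (rk S (fun z => lab (ω z)) x y) j k (ω x)
      + γ (rk S (fun z => lab (ω z)) y x) j k (ω y)) / Real.sqrt 2, by
    intro x y; exact congrArg (· / Real.sqrt 2) (add_comm _ _)⟩

/-! ### Ranks -/

lemma rk_injective {S : Set (Sym2 V)} {a : V → ℝ} (ha : Function.Injective a) {x y y' : V}
    (hfin : {z | s(x, z) ∈ S}.Finite) (hy : s(x, y) ∈ S) (hy' : s(x, y') ∈ S)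
    (h : rk S a x y = rk S a x y') : y = y' := by
  by_contra hne
  have key : ∀ u v : V, s(x, u) ∈ S → s(x, v) ∈ S → a u < a v → rk S a x u < rk S a x v := by
    intro u v hu hv huv
    unfold rk
    refine Set.ncard_lt_ncard ?_ (hfin.subset fun z hz => hz.1)
    refine ⟨fun z hz => ⟨hz.1, hz.2.trans huv⟩, fun hsub => ?_⟩
    have := (hsub ⟨hu, huv⟩).2
    exact lt_irrefl _ this
  rcases lt_trichotomy (a y) (a y') with hlt | heq | hlt
  · exact absurd h (key y y' hy hy' hlt).ne
  · exact hne (ha heq)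
  · exact absurd h.symm (key y' y hy' hy hlt).ne

/-- Equivariance of ranks. -/
lemma rk_map (π : V ≃ V) (S : Set (Sym2 V)) (a : V → ℝ) (x y : V) :
    rk (Sym2.map π '' S) (a ∘ π.symm) (π x) (π y) = rk S a x y := by
  unfold rk
  have : {z | s(π x, z) ∈ Sym2.map π '' S ∧ (a ∘ π.symm) z < (a ∘ π.symm) (π y)} =
      π '' {z | s(x, z) ∈ S ∧ a z < a y} := by
    ext z
    constructor
    · rintro ⟨h1, h2⟩
      refine ⟨π.symm z, ⟨?_, by simpa using h2⟩, by simp⟩
      obtain ⟨e, he, hee⟩ := h1
      have : e = s(x, π.symm z) := by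
        have h3 := congrArg (Sym2.map π.symm) hee
        simpa [Sym2.map_map, Function.comp_def] using h3
      rwa [← this]
    · rintro ⟨w, ⟨h1, h2⟩, rfl⟩
      refine ⟨⟨s(x, w), h1, by simp⟩, by simpa using h2⟩
  rw [this]
  exact Set.ncard_image_of_injective _ π.injective

/-- Equivariance under bijections of the vertex set. -/
theorem edgeG_map (lab : unitInterval → ℝ) (γ : ℕ → ℕ → ℕ → unitInterval → ℝ) (π : V ≃ V)
    (S : Set (Sym2 V)) (j k : ℕ) (ω : V → unitInterval) (e : Sym2 V) :
    edgeG lab γ (Sym2.map π '' S) j k (ω ∘ π.symm) (Sym2.map π e) = edgeG lab γ S j k ω e := by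
  induction e using Sym2.ind with
  | _ x y =>
    have hlab : (fun z => lab ((ω ∘ π.symm) z)) = (fun z => lab (ω z)) ∘ π.symm := rfl
    simp only [edgeG, Sym2.map_mk, Sym2.lift_mk]
    rw [hlab, rk_map, rk_map]
    simp [Function.comp]

/-! ### Measurability of ranks -/

lemma measurableSet_singleton_set [Countable V] (F : Set V) : MeasurableSet ({F} : Set (Set V)) := by
  have : ({F} : Set (Set V)) = ⋂ z : V, {A : Set V | z ∈ A ↔ z ∈ F} := by
    ext A
    simp only [Set.mem_singleton_iff, Set.mem_iInter, Set.mem_ofPred_eq]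
    exact ⟨fun h z => by rw [h], fun h => Set.ext h⟩
  rw [this]
  refine MeasurableSet.iInter fun z => ?_
  have h : MeasurableSet {A : Set V | z ∈ A} := measurableSet_setOfPred.2 (measurable_set_mem z)
  by_cases hz : z ∈ F
  · have e : {A : Set V | z ∈ A ↔ z ∈ F} = {A : Set V | z ∈ A} := by ext A; simp [hz]
    rw [e]; exact h
  · have e : {A : Set V | z ∈ A ↔ z ∈ F} = {A : Set V | z ∈ A}ᶜ := by ext A; simp [hz]
    rw [e]; exact h.compl

lemma measurable_ncard [Countable V] : Measurable (Set.ncard : Set V → ℕ) := by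
  have hE : {A : Set V | A.Finite}.Countable := by
    have := Set.countable_ofPred_finite_subset (Set.countable_univ (α := V))
    simpa using this
  have hsub : ∀ T : Set (Set V), T ⊆ {A : Set V | A.Finite} → MeasurableSet T := by
    intro T hT
    have hc : T.Countable := hE.mono hT
    rw [← Set.biUnion_of_singleton T]
    exact MeasurableSet.biUnion hc fun F _ => measurableSet_singleton_set F
  have hEm : MeasurableSet {A : Set V | A.Finite} := hsub _ le_rfl
  refine measurable_to_countable' fun n => ?_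
  have : Set.ncard ⁻¹' {n} = (Set.ncard ⁻¹' {n} ∩ {A : Set V | A.Finite}) ∪
      (Set.ncard ⁻¹' {n} ∩ {A : Set V | A.Finite}ᶜ) := by
    rw [Set.inter_union_compl]
  rw [this]
  refine (hsub _ Set.inter_subset_right).union ?_
  by_cases hn : n = 0
  · subst hn
    have : Set.ncard ⁻¹' {0} ∩ {A : Set V | A.Finite}ᶜ = {A : Set V | A.Finite}ᶜ := by
      ext A
      simp only [Set.mem_inter_iff, Set.mem_preimage, Set.mem_singleton_iff, Set.mem_compl_iff,
        Set.mem_ofPred_eq, and_iff_right_iff_imp]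
      exact fun h => Set.Infinite.ncard h
    rw [this]
    exact hEm.compl
  · have : Set.ncard ⁻¹' {n} ∩ {A : Set V | A.Finite}ᶜ = ∅ := by
      ext A
      simp only [Set.mem_inter_iff, Set.mem_preimage, Set.mem_singleton_iff, Set.mem_compl_iff,
        Set.mem_ofPred_eq, Set.mem_empty_iff_false, iff_false, not_and]
      intro h hinf
      exact hn (by rw [← h]; exact Set.Infinite.ncard hinf)
    rw [this]
    exact MeasurableSet.empty

lemma measurable_rk [Countable V] (x y : V) :
    Measurable fun q : Set (Sym2 V) × (V → ℝ) => rk q.1 q.2 x y := by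
  refine measurable_ncard.comp ?_
  refine measurable_set_iff.2 fun z => ?_
  have h1 : Measurable fun q : Set (Sym2 V) × (V → ℝ) => s(x, z) ∈ q.1 :=
    (measurable_set_mem _).comp measurable_fst
  have h2 : Measurable fun q : Set (Sym2 V) × (V → ℝ) => q.2 z < q.2 y := by
    refine measurableSet_setOfPred.1 (measurableSet_lt ?_ ?_)
    · exact (measurable_pi_apply z).comp measurable_snd
    · exact (measurable_pi_apply y).comp measurable_snd
  exact h1.and h2


/-- Joint measurability in the graph and in the field. -/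
theorem measurable_edgeG [Countable V] {lab : unitInterval → ℝ} {γ : ℕ → ℕ → ℕ → unitInterval → ℝ}
    (hlab : Measurable lab) (hγ : ∀ r j k, Measurable (γ r j k)) (j k : ℕ) (e : Sym2 V) :
    Measurable fun q : Set (Sym2 V) × (V → unitInterval) => edgeG lab γ q.1 j k q.2 e := by
  induction e using Sym2.ind with
  | _ x y =>
    simp only [edgeG, Sym2.lift_mk]
    have hL : Measurable fun q : Set (Sym2 V) × (V → unitInterval) =>
        (q.1, fun z => lab (q.2 z)) :=
      measurable_fst.prodMk
        (measurable_pi_lambda _ fun z => hlab.comp ((measurable_pi_apply z).comp measurable_snd))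
    have key : ∀ x y : V, Measurable fun q : Set (Sym2 V) × (V → unitInterval) =>
        γ (rk q.1 (fun z => lab (q.2 z)) x y) j k (q.2 x) := by
      intro x y
      have h1 : Measurable fun p : ℕ × unitInterval => γ p.1 j k p.2 :=
        measurable_from_prod_countable_right (fun r => hγ r j k)
      exact h1.comp (((measurable_rk x y).comp hL).prodMk
        ((measurable_pi_apply x).comp measurable_snd))
    exact ((key x y).add (key y x)).div_const _

/-! ### The noise for fixed labels -/

/-- The noise on an edge from a given array, for fixed labels. -/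
def psiE (S : Set (Sym2 V)) (a : V → ℝ) (w : V × ℕ × ℕ → ℝ) (k : ℕ) : Sym2 V → ℝ :=
  Sym2.lift ⟨fun x y => (w (x, rk S a x y, k) + w (y, rk S a y x, k)) / Real.sqrt 2, by
    intro x y; exact congrArg (· / Real.sqrt 2) (add_comm _ _)⟩

/-- The product Gaussian law on arrays. -/
def piG (V : Type*) : Measure (V × ℕ × ℕ → ℝ) :=
  Measure.infinitePi fun _ : V × ℕ × ℕ => gaussianReal 0 1

instance : IsProbabilityMeasure (piG V) := by unfold piG; infer_instance

/-- Coordinates of arrays. -/
def coord (p : V × ℕ × ℕ) : (V × ℕ × ℕ → ℝ) → ℝ := fun w => w p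

lemma coord_meas (p : V × ℕ × ℕ) : Measurable (coord p) := measurable_pi_apply p

lemma coord_indep : iIndepFun (coord (V := V)) (piG V) :=
  iIndepFun_infinitePi (P := fun _ : V × ℕ × ℕ => gaussianReal 0 1) (X := fun _ t => t)
    (fun _ => measurable_id)

lemma coord_law (p : V × ℕ × ℕ) : (piG V).map (coord p) = gaussianReal 0 1 :=
  Measure.infinitePi_map_eval _ p

lemma coord_memLp (p : V × ℕ × ℕ) : MemLp (coord p) 2 (piG V) :=
  memLp_of_mem_span coord_meas coord_indep coord_law (Submodule.subset_span ⟨p, rfl⟩)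

open Classical in
lemma cov_coord (p q : V × ℕ × ℕ) :
    cov[coord p, coord q; piG V] = if p = q then 1 else 0 := by
  split_ifs with h
  · subst h
    rw [covariance_self (coord_meas p).aemeasurable, ← variance_id_map (coord_meas p).aemeasurable,
      coord_law p]
    simp
  · exact (coord_indep.indepFun h).covariance_eq_zero (coord_memLp p) (coord_memLp q)

lemma psi_eq (S : Set (Sym2 V)) (a : V → ℝ) (k : ℕ) (x y : V) :
    (fun w => psiE S a w k s(x, y)) = fun w =>
      (coord (x, rk S a x y, k) w + 1 * coord (y, rk S a y x, k) w) / Real.sqrt 2 := by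
  funext w
  simp [psiE, coord]

lemma psi_mem_span (S : Set (Sym2 V)) (a : V → ℝ) (k : ℕ) (e : Sym2 V) :
    (fun w => psiE S a w k e) ∈ Submodule.span ℝ (Set.range (coord (V := V))) := by
  induction e using Sym2.ind with
  | _ x y =>
    have : (fun w => psiE S a w k s(x, y)) = (Real.sqrt 2)⁻¹ •
        (coord (x, rk S a x y, k) + coord (y, rk S a y x, k)) := by
      funext w
      simp [psiE, coord, div_eq_inv_mul]
    rw [this]
    exact Submodule.smul_mem _ _ (Submodule.add_mem _ (Submodule.subset_span ⟨_, rfl⟩)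
      (Submodule.subset_span ⟨_, rfl⟩))

lemma psi_cov_self {S : Set (Sym2 V)} (hdiag : ∀ e ∈ S, ¬ e.IsDiag) (a : V → ℝ) (k : ℕ)
    {e : Sym2 V} (he : e ∈ S) :
    cov[fun w => psiE S a w k e, fun w => psiE S a w k e; piG V] = 1 := by
  induction e using Sym2.ind with
  | _ x y =>
    have hxy : x ≠ y := fun h => hdiag _ he (by simpa using h)
    rw [psi_eq, cov_rot (coord_memLp _) (coord_memLp _) (coord_memLp _) (coord_memLp _)]
    simp only [cov_coord]
    have h1 : ((x, rk S a x y, k) : V × ℕ × ℕ) ≠ (y, rk S a y x, k) := fun h =>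
      hxy (congrArg Prod.fst h)
    simp [h1, h1.symm]

lemma psi_cov_ne {S : Set (Sym2 V)} (hfin : ∀ x, {z | s(x, z) ∈ S}.Finite) {a : V → ℝ}
    (ha : Function.Injective a) {k k' : ℕ} {e e' : Sym2 V} (he : e ∈ S) (he' : e' ∈ S)
    (hne : (k, e) ≠ (k', e')) :
    cov[fun w => psiE S a w k e, fun w => psiE S a w k' e'; piG V] = 0 := by
  induction e using Sym2.ind with
  | _ x y =>
  induction e' using Sym2.ind with
  | _ x' y' =>
    rw [psi_eq, psi_eq, cov_rot (coord_memLp _) (coord_memLp _) (coord_memLp _) (coord_memLp _)]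
    simp only [cov_coord]
    have hsw' : s(x', y') = s(y', x') := Sym2.eq_swap
    have hsw : s(x, y) = s(y, x) := Sym2.eq_swap
    have he2 : s(y, x) ∈ S := hsw ▸ he
    have he2' : s(y', x') ∈ S := hsw' ▸ he'
    -- a general fact: if the slots agree then the pairs agree
    have key : ∀ u v u' v' : V, s(u, v) ∈ S → s(u', v') ∈ S →
        ((u, rk S a u v, k) : V × ℕ × ℕ) = (u', rk S a u' v', k') →
        (k, s(u, v)) = (k', s(u', v')) := by
      intro u v u' v' h1 h2 h
      have hu : u = u' := congrArg Prod.fst h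
      have hr : rk S a u v = rk S a u' v' := congrArg (fun t : V × ℕ × ℕ => t.2.1) h
      have hk : k = k' := congrArg (fun t : V × ℕ × ℕ => t.2.2) h
      subst hu
      have hv := rk_injective ha (hfin u) h1 h2 hr
      subst hv
      rw [hk]
    have n1 : ((x, rk S a x y, k) : V × ℕ × ℕ) ≠ (x', rk S a x' y', k') := fun h =>
      hne (key _ _ _ _ he he' h)
    have n2 : ((x, rk S a x y, k) : V × ℕ × ℕ) ≠ (y', rk S a y' x', k') := fun h => by
      have := key _ _ _ _ he he2' h
      rw [← hsw'] at this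
      exact hne this
    have n3 : ((y, rk S a y x, k) : V × ℕ × ℕ) ≠ (x', rk S a x' y', k') := fun h => by
      have := key _ _ _ _ he2 he' h
      rw [← hsw] at this
      exact hne this
    have n4 : ((y, rk S a y x, k) : V × ℕ × ℕ) ≠ (y', rk S a y' x', k') := fun h => by
      have := key _ _ _ _ he2 he2' h
      rw [← hsw, ← hsw'] at this
      exact hne this
    simp [n1, n2, n3, n4]

/-- For fixed injective labels, the edge noise over a finite set of edges is standard. -/
lemma law_psi_fixed {S : Set (Sym2 V)} (hdiag : ∀ e ∈ S, ¬ e.IsDiag)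
    (hfin : ∀ x, {z | s(x, z) ∈ S}.Finite) (J : Finset (Sym2 V)) (hJ : (J : Set (Sym2 V)) ⊆ S)
    {a : V → ℝ} (ha : Function.Injective a) (hm : ∀ (q : ℕ × J), Measurable fun w => psiE S a w q.1 q.2) :
    (piG V).map (fun w (q : ℕ × J) => psiE S a w q.1 q.2) =
      Measure.infinitePi fun _ : ℕ × J => gaussianReal 0 1 := by
  have hspan : ∀ q : ℕ × J, (fun w => psiE S a w q.1 q.2) ∈
      Submodule.span ℝ (Set.range (coord (V := V))) := fun q => psi_mem_span S a q.1 q.2
  have hind : iIndepFun (fun (q : ℕ × J) w => psiE S a w q.1 q.2) (piG V) := by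
    refine iIndepFun_of_mem_span coord_meas coord_indep coord_law hspan fun q q' hne => ?_
    refine psi_cov_ne hfin ha (hJ q.2.2) (hJ q'.2.2) fun h => hne ?_
    have h1 : q.1 = q'.1 := (Prod.mk.inj h).1
    have h2 : (q.2 : Sym2 V) = q'.2 := (Prod.mk.inj h).2
    exact Prod.ext h1 (Subtype.ext h2)
  have hlaw : ∀ q : ℕ × J, (piG V).map (fun w => psiE S a w q.1 q.2) = gaussianReal 0 1 := by
    intro q
    refine map_eq_gaussianReal_of_mem_span coord_meas coord_indep coord_law (hspan q)
      (integral_eq_zero_of_mem_span coord_meas coord_indep coord_law (hspan q)) ?_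
    exact psi_cov_self hdiag a q.1 (hJ q.2.2)
  rw [(iIndepFun_iff_map_fun_eq_infinitePi_map hm).1 hind]
  simp_rw [hlaw]


/-! ### Averaging over the labels -/

lemma measurable_psiE [Countable V] (S : Set (Sym2 V)) (k : ℕ) (e : Sym2 V) :
    Measurable fun z : (V → ℝ) × (V × ℕ × ℕ → ℝ) => psiE S z.1 z.2 k e := by
  induction e using Sym2.ind with
  | _ x y =>
    simp only [psiE, Sym2.lift_mk]
    have key : ∀ x y : V, Measurable fun z : (V → ℝ) × (V × ℕ × ℕ → ℝ) =>
        z.2 (x, rk S z.1 x y, k) := by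
      intro x y
      have h1 : Measurable fun p : ℕ × (V × ℕ × ℕ → ℝ) => p.2 (x, p.1, k) :=
        measurable_from_prod_countable_right
          (fun r => (measurable_pi_apply (x, r, k) : Measurable fun f : V × ℕ × ℕ → ℝ => f (x, r, k)))
      have h2 : Measurable fun z : (V → ℝ) × (V × ℕ × ℕ → ℝ) => rk S z.1 x y :=
        (measurable_rk x y).comp (measurable_const.prodMk measurable_fst)
      exact h1.comp (h2.prodMk measurable_snd)
    exact ((key x y).add (key y x)).div_const _

lemma measurableSet_injective [Countable V] :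
    MeasurableSet {a : V → ℝ | Function.Injective a} := by
  have : {a : V → ℝ | Function.Injective a} =
      ⋂ z : V, ⋂ z' : V, {a : V → ℝ | a z = a z' → z = z'} := by
    ext a
    simp only [Set.mem_iInter, Function.Injective]
    rfl
  rw [this]
  refine MeasurableSet.iInter fun z => MeasurableSet.iInter fun z' => ?_
  by_cases h : z = z'
  · simp [h]
  · have e : {a : V → ℝ | a z = a z' → z = z'} = {a : V → ℝ | a z = a z'}ᶜ := by
      ext a; simp [h]
    rw [e]
    exact (measurableSet_eq_fun (measurable_pi_apply z) (measurable_pi_apply z')).compl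

/-- The law of the edge noise when the labels are a.s. injective, independent of the arrays. -/
theorem main_law [Countable V] {Ω : Type*} [MeasurableSpace Ω] {P : Measure Ω}
    [IsProbabilityMeasure P] {L : Ω → V → ℝ} {G : Ω → V × ℕ × ℕ → ℝ}
    (hL : Measurable L) (hG : Measurable G) (hind : IndepFun L G P) (hlaw : P.map G = piG V)
    (hinj : ∀ᵐ ω ∂P, Function.Injective (L ω)) {S : Set (Sym2 V)}
    (hdiag : ∀ e ∈ S, ¬ e.IsDiag) (hfin : ∀ x, {z | s(x, z) ∈ S}.Finite)
    (J : Finset (Sym2 V)) (hJ : (J : Set (Sym2 V)) ⊆ S) :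
    P.map (fun ω (q : ℕ × J) => psiE S (L ω) (G ω) q.1 q.2) =
      Measure.infinitePi fun _ : ℕ × J => gaussianReal 0 1 := by
  let Ψ : (V → ℝ) × (V × ℕ × ℕ → ℝ) → (ℕ × J → ℝ) := fun z q => psiE S z.1 z.2 q.1 q.2
  have hΨ : Measurable Ψ := measurable_pi_lambda _ fun q => measurable_psiE S q.1 q.2
  have e : (fun ω (q : ℕ × J) => psiE S (L ω) (G ω) q.1 q.2) = Ψ ∘ fun ω => (L ω, G ω) := rfl
  rw [e, ← Measure.map_map hΨ (hL.prodMk hG),
    hind.map_prod_eq_prod_map_map hL.aemeasurable hG.aemeasurable, hlaw]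
  have : IsProbabilityMeasure (P.map L) := Measure.isProbabilityMeasure_map hL.aemeasurable
  refine Measure.ext fun E hE => ?_
  rw [Measure.map_apply hΨ hE, Measure.prod_apply (hΨ hE)]
  have hinj' : ∀ᵐ a ∂(P.map L), Function.Injective a :=
    (ae_map_iff hL.aemeasurable measurableSet_injective).2 hinj
  have key : ∀ᵐ a ∂(P.map L), piG V (Prod.mk a ⁻¹' (Ψ ⁻¹' E)) =
      (Measure.infinitePi fun _ : ℕ × J => gaussianReal 0 1) E := by
    filter_upwards [hinj'] with a ha
    have hm : ∀ q : ℕ × J, Measurable fun w => psiE S a w q.1 q.2 := fun q =>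
      (measurable_psiE S q.1 q.2).comp (measurable_const.prodMk measurable_id)
    have hm' : Measurable fun (w : V × ℕ × ℕ → ℝ) (q : ℕ × J) => psiE S a w q.1 q.2 :=
      measurable_pi_lambda _ hm
    rw [← law_psi_fixed hdiag hfin J hJ ha hm, Measure.map_apply hm' hE]
    rfl
  rw [lintegral_congr_ae key]
  simp


/-! ### The construction -/

/-- The law of a Gaussian array of one slot. -/
def nuA : Measure (ℕ × ℕ → ℝ) := Measure.infinitePi fun _ : ℕ × ℕ => gaussianReal 0 1

instance : IsProbabilityMeasure nuA := by unfold nuA; infer_instance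

/-- The law of the arrays of all slots. -/
def muA : Measure (ℕ → ℕ × ℕ → ℝ) := Measure.infinitePi fun _ : ℕ => nuA

instance : IsProbabilityMeasure muA := by unfold muA; infer_instance

/-- The levels on an array. -/
def gT (j k : ℕ) (t : ℕ × ℕ → ℝ) : ℝ := gam (fun p t => t p) j k t

lemma gT_meas (j k : ℕ) : Measurable (gT j k) :=
  gam_measurable (fun p => measurable_pi_apply p) j k

lemma gT_refine (j k : ℕ) (t : ℕ × ℕ → ℝ) :
    gT j k t = (gT (j + 1) (2 * k) t + gT (j + 1) (2 * k + 1) t) / Real.sqrt 2 :=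
  gam_refine _ j k t

lemma arr_indep : iIndepFun (fun (p : ℕ × ℕ) (t : ℕ × ℕ → ℝ) => t p) nuA :=
  iIndepFun_infinitePi (P := fun _ : ℕ × ℕ => gaussianReal 0 1) (X := fun _ t => t)
    (fun _ => measurable_id)

lemma arr_law (p : ℕ × ℕ) : nuA.map (fun t : ℕ × ℕ → ℝ => t p) = gaussianReal 0 1 :=
  Measure.infinitePi_map_eval _ p

lemma gT_iIndep (j : ℕ) : iIndepFun (gT j) nuA :=
  gam_iIndep (fun p => measurable_pi_apply p) arr_indep arr_law j

lemma gT_law (j k : ℕ) : nuA.map (gT j k) = gaussianReal 0 1 :=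
  gam_law (fun p => measurable_pi_apply p) arr_indep arr_law j k

/-- The law of the arrays over all vertices. -/
def muF (V : Type*) : Measure (V → ℕ → ℕ × ℕ → ℝ) := Measure.infinitePi fun _ : V => muA

instance : IsProbabilityMeasure (muF V) := by unfold muF; infer_instance

/-- The array of a slot at a vertex. -/
def blk (p : V × ℕ) (ω : V → ℕ → ℕ × ℕ → ℝ) : ℕ × ℕ → ℝ := ω p.1 p.2

lemma blk_meas (p : V × ℕ) : Measurable (blk p) :=
  (measurable_pi_apply p.2).comp (measurable_pi_apply p.1)

lemma blk_indep : iIndepFun (blk (V := V)) (muF V) :=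
  iIndepFun_uncurry_infinitePi' (ι := V) (κ := ℕ) (Ω := fun _ _ => ℕ × ℕ → ℝ)
    (𝓧 := fun _ _ => ℕ × ℕ → ℝ) (X := fun _ _ t => t) (fun _ _ => nuA) (fun _ _ => measurable_id)

lemma blk_law (p : V × ℕ) : (muF V).map (blk p) = nuA := by
  have e : blk p = (fun f : ℕ → ℕ × ℕ → ℝ => f p.2) ∘ (fun ω : V → ℕ → ℕ × ℕ → ℝ => ω p.1) := rfl
  rw [e, ← Measure.map_map (measurable_pi_apply p.2) (measurable_pi_apply p.1)]
  have h1 : (muF V).map (fun ω : V → ℕ → ℕ × ℕ → ℝ => ω p.1) = muA :=
    Measure.infinitePi_map_eval _ p.1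
  rw [h1]
  exact Measure.infinitePi_map_eval _ p.2

/-- The labels. -/
def Lf (ω : V → ℕ → ℕ × ℕ → ℝ) (z : V) : ℝ := ω z 0 (0, 0)

/-- The arrays of a level, with slots shifted by one. -/
def Gf (j : ℕ) (ω : V → ℕ → ℕ × ℕ → ℝ) (i : V × ℕ × ℕ) : ℝ := gT j i.2.2 (blk (i.1, i.2.1 + 1) ω)

lemma Lf_meas : Measurable (Lf (V := V)) :=
  measurable_pi_lambda _ fun z =>
    (measurable_pi_apply (0, 0)).comp (blk_meas (z, 0))

lemma Gf_meas (j : ℕ) : Measurable (Gf (V := V) j) :=
  measurable_pi_lambda _ fun i => (gT_meas j i.2.2).comp (blk_meas _)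

lemma Gf_law (j : ℕ) : (muF V).map (Gf (V := V) j) = piG V := by
  let Xb : (V × ℕ) → ℕ → (V → ℕ → ℕ × ℕ → ℝ) → ℝ := fun p k ω => gT j k (blk p ω)
  have hXb : ∀ p k, Measurable (Xb p k) := fun p k => (gT_meas j k).comp (blk_meas p)
  have h1 : iIndepFun (fun p ω k => Xb p k ω) (muF V) :=
    blk_indep.comp (fun _ t k => gT j k t) (fun _ => measurable_pi_lambda _ fun k => gT_meas j k)
  have hlaw : ∀ p k, (muF V).map (Xb p k) = gaussianReal 0 1 := by
    intro p k
    have : Xb p k = gT j k ∘ blk p := rfl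
    rw [this, ← Measure.map_map (gT_meas j k) (blk_meas p), blk_law, gT_law]
  have h2 : ∀ p, iIndepFun (Xb p) (muF V) := by
    intro p
    rw [iIndepFun_iff_map_fun_eq_infinitePi_map (hXb p)]
    have e : (fun ω k => Xb p k ω) = (fun t k => gT j k t) ∘ blk p := rfl
    rw [e, ← Measure.map_map (measurable_pi_lambda _ fun k => gT_meas j k) (blk_meas p), blk_law,
      (gT_iIndep j).map_fun_eq_infinitePi_map (fun k => gT_meas j k)]
    simp_rw [hlaw, gT_law]
  have h3 := iIndepFun_uncurry' (X := Xb) hXb h1 h2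
  have h4 : iIndepFun (fun (i : V × ℕ × ℕ) ω => Gf j ω i) (muF V) :=
    h3.precomp (g := fun i : V × ℕ × ℕ => ((i.1, i.2.1 + 1), i.2.2)) (by
      rintro ⟨a, b, c⟩ ⟨a', b', c'⟩ h
      simp only [Prod.mk.injEq, add_left_inj] at h
      obtain ⟨⟨h1, h2⟩, h3⟩ := h
      subst h1 h2 h3
      rfl)
  have hm : ∀ i : V × ℕ × ℕ, Measurable fun ω => Gf j ω i := fun i => hXb _ _
  have e : Gf (V := V) j = fun ω i => Gf j ω i := rfl
  rw [e, (iIndepFun_iff_map_fun_eq_infinitePi_map hm).1 h4]
  unfold piG
  congr 1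
  funext i
  exact hlaw _ _

lemma Lf_Gf_indep (j : ℕ) : IndepFun (Lf (V := V)) (Gf (V := V) j) (muF V) := by
  have hb : iIndep (fun p : V × ℕ => MeasurableSpace.comap (blk p) inferInstance) (muF V) :=
    (iIndepFun_iff_iIndep _ _ _).1 blk_indep
  have hle : ∀ p : V × ℕ, MeasurableSpace.comap (blk p) inferInstance ≤
      (inferInstance : MeasurableSpace (V → ℕ → ℕ × ℕ → ℝ)) := fun p => (blk_meas p).comap_le
  have hdisj : Disjoint {p : V × ℕ | p.2 = 0} {p : V × ℕ | p.2 ≠ 0} := by
    rw [Set.disjoint_left]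
    intro p h1 h2
    exact h2 h1
  have hI := indep_iSup_of_disjoint hle hb hdisj
  rw [IndepFun_iff_Indep]
  refine indep_of_indep_of_le_left (indep_of_indep_of_le_right hI ?_) ?_
  · refine Measurable.comap_le ?_
    refine @measurable_pi_lambda _ _ _ (⨆ i ∈ {p : V × ℕ | p.2 ≠ 0},
      MeasurableSpace.comap (blk i) inferInstance) _ _ fun i => ?_
    have h0 : Measurable[MeasurableSpace.comap (blk (i.1, i.2.1 + 1)) inferInstance]
        (blk (V := V) (i.1, i.2.1 + 1)) := comap_measurable _
    have h1 := (gT_meas j i.2.2).comp h0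
    exact h1.mono (le_iSup₂_of_le (i.1, i.2.1 + 1) (by simp) le_rfl) le_rfl
  · refine Measurable.comap_le ?_
    refine @measurable_pi_lambda _ _ _ (⨆ i ∈ {p : V × ℕ | p.2 = 0},
      MeasurableSpace.comap (blk i) inferInstance) _ _ fun z => ?_
    have h0 : Measurable[MeasurableSpace.comap (blk (z, 0)) inferInstance]
        (blk (V := V) (z, 0)) := comap_measurable _
    have h1 := (measurable_pi_apply ((0, 0) : ℕ × ℕ)).comp h0
    exact h1.mono (le_iSup₂_of_le (z, 0) (by simp) le_rfl) le_rfl

lemma Lf_inj [Countable V] : ∀ᵐ ω ∂(muF V), Function.Injective (Lf (V := V) ω) := by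
  have hz : ∀ z z' : V, z ≠ z' → ∀ᵐ ω ∂(muF V), Lf ω z ≠ Lf ω z' := by
    intro z z' hne
    let c : (ℕ → ℕ × ℕ → ℝ) → ℝ := fun r => r 0 (0, 0)
    have hc : Measurable c := (measurable_pi_apply ((0, 0) : ℕ × ℕ)).comp (measurable_pi_apply 0)
    have hcl : muA.map c = gaussianReal 0 1 := by
      have e : c = (fun t : ℕ × ℕ → ℝ => t (0, 0)) ∘ (fun r : ℕ → ℕ × ℕ → ℝ => r 0) := rfl
      rw [e, ← Measure.map_map (measurable_pi_apply _) (measurable_pi_apply _)]
      have h1 : muA.map (fun r : ℕ → ℕ × ℕ → ℝ => r 0) = nuA := Measure.infinitePi_map_eval _ 0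
      rw [h1, arr_law]
    have hpt : ∀ y : ℝ, muA {r | c r = y} = 0 := by
      intro y
      have : muA {r | c r = y} = (muA.map c) {y} := by
        rw [Measure.map_apply hc (measurableSet_singleton y)]
        rfl
      rw [this, hcl]
      have := nullSingletonClass_gaussianReal (μ := 0) (v := 1) one_ne_zero
      exact measure_singleton y
    have hset : MeasurableSet {p : (ℕ → ℕ × ℕ → ℝ) × (ℕ → ℕ × ℕ → ℝ) | c p.1 = c p.2} :=
      measurableSet_eq_fun (hc.comp measurable_fst) (hc.comp measurable_snd)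
    have hprod : (muA.prod muA) {p : (ℕ → ℕ × ℕ → ℝ) × (ℕ → ℕ × ℕ → ℝ) | c p.1 = c p.2} = 0 := by
      rw [Measure.prod_apply hset]
      have hx : ∀ x, muA (Prod.mk x ⁻¹' {p : (ℕ → ℕ × ℕ → ℝ) × (ℕ → ℕ × ℕ → ℝ) | c p.1 = c p.2}) = 0 := by
        intro x
        have e : Prod.mk x ⁻¹' {p : (ℕ → ℕ × ℕ → ℝ) × (ℕ → ℕ × ℕ → ℝ) | c p.1 = c p.2} =
            {r | c r = c x} := by
          ext r; exact eq_comm
        rw [e]
        exact hpt _
      rw [lintegral_congr hx]
      simp
    have hmap : (muF V).map (fun ω : V → ℕ → ℕ × ℕ → ℝ => (ω z, ω z')) = muA.prod muA :=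
      Measure.infinitePi_map_eval_prod hne
    have hm : Measurable fun ω : V → ℕ → ℕ × ℕ → ℝ => (ω z, ω z') :=
      (measurable_pi_apply z).prodMk (measurable_pi_apply z')
    have : (muF V) {ω | Lf ω z = Lf ω z'} = 0 := by
      have e : {ω : V → ℕ → ℕ × ℕ → ℝ | Lf ω z = Lf ω z'} =
          (fun ω : V → ℕ → ℕ × ℕ → ℝ => (ω z, ω z')) ⁻¹'
            {p : (ℕ → ℕ × ℕ → ℝ) × (ℕ → ℕ × ℕ → ℝ) | c p.1 = c p.2} := rfl
      rw [e, ← Measure.map_apply hm hset, hmap, hprod]
    exact measure_eq_zero_iff_ae_notMem.1 this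
  have hall : ∀ᵐ ω ∂(muF V), ∀ z z' : V, z ≠ z' → Lf ω z ≠ Lf ω z' := by
    rw [ae_all_iff]; intro z
    rw [ae_all_iff]; intro z'
    by_cases h : z = z'
    · exact Eventually.of_forall fun _ h' => absurd h h'
    · filter_upwards [hz z z' h] with ω hω _ using hω
  filter_upwards [hall] with ω hω z z' h
  by_contra hne
  exact hω z z' hne h

/-- The labels and arrays exist. Under the uniform field, the edge steps over any finite set of
edges of a locally finite graph form an i.i.d. standard Gaussian array, at each level. -/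
theorem exists_labels (V : Type*) [Countable V] :
    ∃ (lab : unitInterval → ℝ) (γ : ℕ → ℕ → ℕ → unitInterval → ℝ),
      Measurable lab ∧ (∀ r j k, Measurable (γ r j k)) ∧
      (∀ r j k s, γ r j k s = (γ r (j + 1) (2 * k) s + γ r (j + 1) (2 * k + 1) s) / Real.sqrt 2) ∧
      ∀ (S : Set (Sym2 V)), (∀ e ∈ S, ¬ e.IsDiag) → (∀ x, {z | s(x, z) ∈ S}.Finite) →
        ∀ (J : Finset (Sym2 V)), (J : Set (Sym2 V)) ⊆ S → ∀ j,
          IsNoise (uniformField V) (fun (k : ℕ) (i : J) ω => edgeG lab γ S j k ω i) := by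
  classical
  obtain ⟨f, hf, hfμ⟩ := MeasureTheory.Measure.exists_measurable_map_eq muA
  let lab : unitInterval → ℝ := fun s => f s 0 (0, 0)
  let γ : ℕ → ℕ → ℕ → unitInterval → ℝ := fun r j k s => gT j k (f s (r + 1))
  have hlab : Measurable lab :=
    (measurable_pi_apply ((0, 0) : ℕ × ℕ)).comp ((measurable_pi_apply 0).comp hf)
  have hγ : ∀ r j k, Measurable (γ r j k) := fun r j k =>
    (gT_meas j k).comp ((measurable_pi_apply _).comp hf)
  refine ⟨lab, γ, hlab, hγ, fun r j k s => gT_refine j k _, ?_⟩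
  intro S hdiag hfin J hJ j
  have hP : IsProbabilityMeasure (uniformField V) := by
    unfold uniformField; infer_instance
  let T : (V → unitInterval) → (V → ℕ → ℕ × ℕ → ℝ) := fun ω z => f (ω z)
  have hT : Measurable T := measurable_pi_lambda _ fun z => hf.comp (measurable_pi_apply z)
  have hPT : (uniformField V).map T = muF V := by
    unfold uniformField muF
    rw [Measure.infinitePi_map_pi _ (fun _ => hf)]
    simp_rw [hfμ]
  have hjoint : (uniformField V).map (fun ω (q : ℕ × J) => edgeG lab γ S j q.1 ω q.2) =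
      Measure.infinitePi fun _ : ℕ × J => gaussianReal 0 1 := by
    have hΨ : Measurable fun (ω' : V → ℕ → ℕ × ℕ → ℝ) (q : ℕ × J) =>
        psiE S (Lf ω') (Gf j ω') q.1 q.2 :=
      measurable_pi_lambda _ fun q =>
        (measurable_psiE S q.1 q.2).comp (Lf_meas.prodMk (Gf_meas j))
    have e : (fun ω (q : ℕ × J) => edgeG lab γ S j q.1 ω q.2) =
        (fun (ω' : V → ℕ → ℕ × ℕ → ℝ) (q : ℕ × J) =>
          psiE S (Lf ω') (Gf j ω') q.1 q.2) ∘ T := by
      funext ω q
      obtain ⟨k, ⟨e, he⟩⟩ := q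
      induction e using Sym2.ind with
      | _ x y => rfl
    rw [e, ← Measure.map_map hΨ hT, hPT]
    exact main_law Lf_meas (Gf_meas j) (Lf_Gf_indep j) (Gf_law j) Lf_inj hdiag hfin J hJ
  have hmq : ∀ k (i : J), Measurable fun ω : V → unitInterval => edgeG lab γ S j k ω i := by
    intro k i
    exact (measurable_edgeG hlab hγ j k (i : Sym2 V)).comp (measurable_const.prodMk measurable_id)
  have hmj : Measurable fun ω (q : ℕ × J) => edgeG lab γ S j q.1 ω q.2 :=
    measurable_pi_lambda _ fun q => hmq q.1 q.2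
  have hlaw : ∀ k (i : J), (uniformField V).map (fun ω => edgeG lab γ S j k ω i) =
      gaussianReal 0 1 := by
    intro k i
    have e : (fun ω => edgeG lab γ S j k ω i) =
        (fun t : ℕ × J → ℝ => t (k, i)) ∘ (fun ω (q : ℕ × J) => edgeG lab γ S j q.1 ω q.2) := rfl
    rw [e, ← Measure.map_map (measurable_pi_apply _) hmj, hjoint]
    exact Measure.infinitePi_map_eval _ _
  refine ⟨hmq, ?_, hlaw⟩
  rw [iIndepFun_iff_map_fun_eq_infinitePi_map (fun q : ℕ × J => hmq q.1 q.2)]
  rw [hjoint]
  simp_rw [hlaw]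

end

end Vale.Agent.Lib.P143B
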