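import Vale.Agent.Lib.P143B.Drift
import Vale.Agent.Lib.P143B.FiniteLaw
import Vale.Agent.Lib.P143B.RankNoise

/-!
Track B of P143: the solution driven by the edge noise on a finite piece has the two-time law of the
exact observation process of the uniform spanning tree of the piece.
-/

set_option linter.unusedVariables false
set_option linter.unusedSectionVars false

open Finset Filter Topology MeasureTheory ProbabilityTheory
open Vale.Agent.Lib.P143 Vale.Agent.Lib.P161

namespace Vale.Agent.Lib.P143B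

noncomputable section

open Classical

variable {V : Type*}

/-! ### Spanning trees of a piece as spin vectors -/

/-- The spanning trees of a piece. -/
abbrev Sg (P : Piece V) := {T : Finset P.edges // IsSpanTree P.u P.v T}

/-- The spin vector of a tree, on the edges of the piece. -/
def vecP (P : Piece V) (σ : Sg P) (i : P.edges) : ℝ := if i ∈ σ.1 then 1 else -1

/-- The uniform law on the spanning trees of a piece. -/
def unifP (P : Piece V) (σ : Sg P) : ℝ := 1 / (Fintype.card (Sg P) : ℝ)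

lemma card_Sg_pos (P : Piece V) : 0 < Fintype.card (Sg P) := by
  obtain ⟨T, hT⟩ := P.exists_tree
  exact Fintype.card_pos_iff.2 ⟨⟨T, hT⟩⟩

lemma unifP_nonneg (P : Piece V) (σ : Sg P) : 0 ≤ unifP P σ := by
  unfold unifP; positivity

lemma sum_unifP (P : Piece V) : ∑ σ, unifP P σ = 1 := by
  unfold unifP
  rw [Finset.sum_const, Finset.card_univ, nsmul_eq_mul]
  have : (Fintype.card (Sg P) : ℝ) ≠ 0 := by exact_mod_cast (card_Sg_pos P).ne'
  field_simp

lemma vecP_sq (P : Piece V) (σ : Sg P) (i : P.edges) : vecP P σ i ^ 2 = 1 := by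
  unfold vecP; split_ifs <;> norm_num

/-- Weight of a tree for the conductances of a tilt. -/
def wtP (P : Piece V) (y : Sym2 V → ℝ) (T : Finset P.edges) : ℝ := ∏ f ∈ T, cond y f.1

lemma wtP_pos (P : Piece V) (y : Sym2 V → ℝ) (T : Finset P.edges) : 0 < wtP P y T :=
  Finset.prod_pos fun f _ => cond_pos y f.1

lemma exp_sum_vec (P : Piece V) (y : Sym2 V → ℝ) (σ : Sg P) :
    Real.exp (∑ j, vecP P σ j * y j.1) = Real.exp (-∑ j : P.edges, y j.1) * wtP P y σ.1 := by
  have h1 : ∑ j, vecP P σ j * y j.1 = -∑ j : P.edges, y j.1 + ∑ j ∈ σ.1, 2 * y j.1 := by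
    have h2 : ∀ j : P.edges, vecP P σ j * y j.1 = -y j.1 + if j ∈ σ.1 then 2 * y j.1 else 0 := by
      intro j
      unfold vecP
      split_ifs <;> ring
    simp_rw [h2]
    rw [Finset.sum_add_distrib, Finset.sum_neg_distrib, Finset.sum_ite_mem, Finset.univ_inter]
  rw [h1, Real.exp_add]
  congr 1
  unfold wtP cond
  rw [Real.exp_sum]

lemma sum_Sg_wt (P : Piece V) (y : Sym2 V → ℝ) :
    ∑ σ : Sg P, wtP P y σ.1 = treeSum P.u P.v (fun f => cond y f.1) (fun _ => True) := by
  unfold treeSum wtP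
  rw [← Finset.sum_subtype (Finset.univ.filter fun T : Finset P.edges =>
    IsSpanTree P.u P.v T ∧ True) (by simp) (fun T => ∏ f ∈ T, cond y f.1)]
  exact Finset.sum_congr (by ext T; simp) (fun _ _ => rfl)

lemma sum_Sg_wt_mem (P : Piece V) (y : Sym2 V → ℝ) (i : P.edges) :
    ∑ σ : Sg P, (if i ∈ σ.1 then wtP P y σ.1 else 0)
      = treeSum P.u P.v (fun f => cond y f.1) (fun T => ∃ f ∈ T, f.1 = i.1) := by
  unfold treeSum wtP
  rw [← Finset.sum_subtype (Finset.univ.filter fun T : Finset P.edges => IsSpanTree P.u P.v T)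
    (by simp) (fun T => if i ∈ T then ∏ f ∈ T, cond y f.1 else 0)]
  rw [← Finset.sum_filter, Finset.filter_filter]
  refine Finset.sum_congr ?_ fun _ _ => rfl
  ext T
  simp only [Finset.mem_filter, Finset.mem_univ, true_and]
  refine and_congr_right fun _ => ⟨fun h => ⟨i, h, rfl⟩, ?_⟩
  rintro ⟨f, hf, hfi⟩
  rwa [← Subtype.ext hfi]

/-- The posterior mean of the prior `unifP` is the drift `bP`. -/
theorem pm_eq (P : Piece V) (y : Sym2 V → ℝ) (i : P.edges) :
    pm (unifP P) (vecP P) (fun j => y j.1) i = bP P y i.1 := by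
  have hZ := treeSum_total_pos P (cond_pos y)
  set Z := treeSum P.u P.v (fun f => cond y f.1) (fun _ => True) with hZdef
  set Z1 := treeSum P.u P.v (fun f => cond y f.1) (fun T => ∃ f ∈ T, f.1 = i.1) with hZ1def
  set K := (1 / (Fintype.card (Sg P) : ℝ)) * Real.exp (-∑ j : P.edges, y j.1) with hK
  have hK0 : 0 < K := by
    have : (0 : ℝ) < Fintype.card (Sg P) := by exact_mod_cast card_Sg_pos P
    positivity
  have hterm : ∀ σ : Sg P, unifP P σ * Real.exp (∑ j, vecP P σ j * y j.1) = K * wtP P y σ.1 := by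
    intro σ
    rw [exp_sum_vec]
    unfold unifP
    rw [hK]
    ring
  have hden : tiltZ (unifP P) (vecP P) (fun j => y j.1) = K * Z := by
    unfold tiltZ
    simp_rw [hterm]
    rw [← Finset.mul_sum, sum_Sg_wt]
  have hnum : ∑ σ, unifP P σ * Real.exp (∑ j, vecP P σ j * y j.1) * vecP P σ i
      = K * (2 * Z1 - Z) := by
    simp_rw [hterm]
    have h1 : ∀ σ : Sg P, K * wtP P y σ.1 * vecP P σ i
        = K * (2 * (if i ∈ σ.1 then wtP P y σ.1 else 0) - wtP P y σ.1) := by
      intro σ
      unfold vecP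
      split_ifs <;> ring
    simp_rw [h1]
    rw [← Finset.mul_sum, Finset.sum_sub_distrib, ← Finset.mul_sum, sum_Sg_wt, sum_Sg_wt_mem]
  unfold pm
  rw [hnum, hden]
  unfold bP pE
  rw [← hZdef, ← hZ1def]
  field_simp

/-- Extension by zero of a function on the edges of a piece. -/
def exP (P : Piece V) (a : P.edges → ℝ) (e : Sym2 V) : ℝ := if h : e ∈ P.edges then a ⟨e, h⟩ else 0

lemma exP_val (P : Piece V) (a : P.edges → ℝ) (i : P.edges) : exP P a i.1 = a i := by
  unfold exP
  rw [dif_pos i.2]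

lemma pm_lip (P : Piece V) (x x' : P.edges → ℝ) (a : ℝ) (h : ∀ i, |x i - x' i| ≤ a) (i : P.edges) :
    |pm (unifP P) (vecP P) x i - pm (unifP P) (vecP P) x' i| ≤ 16 * a := by
  have ha0 : 0 ≤ a := (abs_nonneg _).trans (h i)
  have e1 : ∀ x : P.edges → ℝ, pm (unifP P) (vecP P) x i = bP P (exP P x) i.1 := by
    intro x
    rw [← pm_eq]
    congr 1
    funext j
    exact (exP_val P x j).symm
  rw [e1, e1]
  refine (isDrift_bP P).lip _ _ a (fun f => ?_) _
  unfold exP
  split_ifs with hf
  · exact h _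
  · simpa using ha0

/-- The spin of an edge in a spanning tree of a piece. -/
def spinP (P : Piece V) (σ : Sg P) (e : Sym2 V) : ℝ := if ∃ f ∈ σ.1, f.1 = e then 1 else -1

lemma spinP_val (P : Piece V) (σ : Sg P) (i : P.edges) : spinP P σ i.1 = vecP P σ i := by
  unfold spinP vecP
  have : (∃ f ∈ σ.1, f.1 = i.1) ↔ i ∈ σ.1 := by
    refine ⟨?_, fun h => ⟨i, h, rfl⟩⟩
    rintro ⟨f, hf, hfi⟩
    rwa [← Subtype.ext hfi]
  simp only [this]

lemma spinP_eq (P : Piece V) (σ : Sg P) (e : Sym2 V) : spinP P σ e = 1 ∨ spinP P σ e = -1 := by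
  unfold spinP
  split_ifs
  · exact Or.inl rfl
  · exact Or.inr rfl

/-! ### The noise -/

/-- The properties of the labels and of the Gaussian arrays. -/
structure LabelProps (V : Type*) (lab : unitInterval → ℝ) (γ : ℕ → ℕ → ℕ → unitInterval → ℝ) :
    Prop where
  mlab : Measurable lab
  mγ : ∀ r j k, Measurable (γ r j k)
  refine : ∀ r j k s, γ r j k s = (γ r (j + 1) (2 * k) s + γ r (j + 1) (2 * k + 1) s) / Real.sqrt 2
  noise : ∀ (S : Set (Sym2 V)), (∀ e ∈ S, ¬ e.IsDiag) → (∀ x, {z | s(x, z) ∈ S}.Finite) →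
    ∀ (J : Finset (Sym2 V)), (J : Set (Sym2 V)) ⊆ S → ∀ j,
      IsNoise (uniformField V) (fun (k : ℕ) (i : J) ω => edgeG lab γ S j k ω i)

variable {lab : unitInterval → ℝ} {γ : ℕ → ℕ → ℕ → unitInterval → ℝ}

/-- The edge noise at an arbitrary time. -/
def WE (lab : unitInterval → ℝ) (γ : ℕ → ℕ → ℕ → unitInterval → ℝ) (S : Set (Sym2 V))
    (ω : V → unitInterval) (s : ℝ) (e : Sym2 V) : ℝ :=
  contW (fun j k ω => edgeG lab γ S j k ω e) s ω

/-- The observation process of a drift `b`, driven by the edge noise. -/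
def YO (lab : unitInterval → ℝ) (γ : ℕ → ℕ → ℕ → unitInterval → ℝ) (b : (Sym2 V → ℝ) → Sym2 V → ℝ)
    (S : Set (Sym2 V)) (ω : V → unitInterval) (t : ℝ) (e : Sym2 V) : ℝ :=
  sol b (WE lab γ S ω) t e + WE lab γ S ω t e

lemma edgeG_refine (hl : LabelProps V lab γ) (S : Set (Sym2 V)) (e : Sym2 V) :
    IsRefining (fun j k ω => edgeG lab γ S j k ω e) := by
  intro j k ω
  induction e using Sym2.ind with
  | _ x y =>
    simp only [edgeG, Sym2.lift_mk]
    rw [hl.refine _ j k (ω x), hl.refine _ j k (ω y)]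
    field_simp
    ring

variable [Countable V]

instance : IsProbabilityMeasure (uniformField V) := by
  unfold uniformField; infer_instance

lemma measurable_WE (hl : LabelProps V lab γ) (e : Sym2 V) :
    Measurable fun q : (Set (Sym2 V) × (V → unitInterval)) × ℝ => WE lab γ q.1.1 q.1.2 q.2 e := by
  have h := contW_measurable
    (g := fun j k (q : Set (Sym2 V) × (V → unitInterval)) => edgeG lab γ q.1 j k q.2 e)
    (fun j k => measurable_edgeG hl.mlab hl.mγ j k e)
  exact h

lemma measurable_WE_fix (hl : LabelProps V lab γ) (S : Set (Sym2 V)) (e : Sym2 V) :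
    Measurable fun q : (V → unitInterval) × ℝ => WE lab γ S q.1 q.2 e := by
  have h1 : Measurable fun q : (V → unitInterval) × ℝ =>
      (((S, q.1), q.2) : (Set (Sym2 V) × (V → unitInterval)) × ℝ) :=
    Measurable.prodMk (Measurable.prodMk measurable_const measurable_fst) measurable_snd
  have h2 := (measurable_WE hl e).comp h1
  exact h2

lemma measurable_WE_time (hl : LabelProps V lab γ) (S : Set (Sym2 V)) (ω : V → unitInterval)
    (e : Sym2 V) : Measurable fun s => WE lab γ S ω s e := by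
  have h1 : Measurable fun s : ℝ => ((ω, s) : (V → unitInterval) × ℝ) :=
    Measurable.prodMk measurable_const measurable_id
  have h2 := (measurable_WE_fix hl S e).comp h1
  exact h2

/-- Joint measurability of the observation process in the field and in time, for a fixed drift. -/
lemma measurable_YO_fix (hl : LabelProps V lab γ) {b : (Sym2 V → ℝ) → Sym2 V → ℝ} {L : ℝ}
    (hb : IsDrift L b) (S : Set (Sym2 V)) (e : Sym2 V) :
    Measurable fun q : (V → unitInterval) × ℝ => YO lab γ b S q.1 q.2 e := by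
  unfold YO
  refine Measurable.add ?_ (measurable_WE_fix hl S e)
  refine sol_measurable (β := V → unitInterval) (b := fun _ => b) (W := fun ω => WE lab γ S ω)
    (fun _ => hb) (fun f => ?_) (fun f => measurable_WE_fix hl S f) e
  exact (hb.meas f).comp measurable_snd

/-- The law of the observation process of a piece. -/
theorem piece_law (hl : LabelProps V lab γ) {S : Set (Sym2 V)} (hS : ∀ e ∈ S, ¬ e.IsDiag)
    (hfin : ∀ x, {z | s(x, z) ∈ S}.Finite) {P : Piece V} (hP : (P.edges : Set (Sym2 V)) ⊆ S)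
    (T T' : ℕ) (H : (Sym2 V → ℝ) → (Sym2 V → ℝ) → ℝ) (hH1 : ∀ a a', |H a a'| ≤ 1) {Λ : ℝ}
    (hHL : ∀ a a' b b', |H a a' - H b b'|
      ≤ Λ * (∑ e ∈ P.edges, |a e - b e| + ∑ e ∈ P.edges, |a' e - b' e|)) :
    ∫ ω, H (YO lab γ (bP P) S ω T) (YO lab γ (bP P) S ω T') ∂(uniformField V)
      = ∑ σ, unifP P σ * ∫ ω, H (fun e => T * spinP P σ e + WE lab γ S ω T e)
          (fun e => T' * spinP P σ e + WE lab γ S ω T' e) ∂(uniformField V) := by
  -- `H` only sees the edges of the piece
  have hagree : ∀ a a' b b' : Sym2 V → ℝ, (∀ e ∈ P.edges, a e = b e) → (∀ e ∈ P.edges, a' e = b' e) →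
      H a a' = H b b' := by
    intro a a' b b' h1 h2
    have h3 := hHL a a' b b'
    have e1 : ∑ e ∈ P.edges, |a e - b e| = 0 :=
      Finset.sum_eq_zero fun e he => by rw [h1 e he, sub_self, abs_zero]
    have e2 : ∑ e ∈ P.edges, |a' e - b' e| = 0 :=
      Finset.sum_eq_zero fun e he => by rw [h2 e he, sub_self, abs_zero]
    rw [e1, e2, add_zero, mul_zero] at h3
    exact sub_eq_zero.1 (abs_nonpos_iff.1 h3)
  let F : (P.edges → ℝ) × (P.edges → ℝ) → ℝ := fun z => H (exP P z.1) (exP P z.2)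
  have hF1 : ∀ z, |F z| ≤ 1 := fun z => hH1 _ _
  have hsumex : ∀ a b : P.edges → ℝ, ∑ e ∈ P.edges, |exP P a e - exP P b e| = ∑ i, |a i - b i| := by
    intro a b
    rw [← Finset.sum_coe_sort P.edges]
    refine Finset.sum_congr rfl fun i _ => ?_
    rw [exP_val, exP_val]
  have hFL : ∀ a a' b b', |F (a, a') - F (b, b')| ≤ Λ * (∑ i, |a i - b i| + ∑ i, |a' i - b' i|) := by
    intro a a' b b'
    have := hHL (exP P a) (exP P a') (exP P b) (exP P b')
    rwa [hsumex, hsumex] at this
  let g : ℕ → ℕ → P.edges → (V → unitInterval) → ℝ := fun j k i ω => edgeG lab γ S j k ω i.1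
  have hg : ∀ j, IsNoise (uniformField V) (g j) := fun j => hl.noise S hS hfin P.edges hP j
  have hr : ∀ i : P.edges, IsRefining (fun j k => g j k i) := fun i => edgeG_refine hl S i.1
  let Y : ℝ → (V → unitInterval) → P.edges → ℝ := fun t ω i => YO lab γ (bP P) S ω t i.1
  have hYm : ∀ i, Measurable fun q : (V → unitInterval) × ℝ => Y q.2 q.1 i := fun i =>
    measurable_YO_fix hl (isDrift_bP P) S i.1
  have hY : ∀ t : ℝ, 0 ≤ t → ∀ ω i, Y t ω i
      = contW (fun j k => g j k i) t ω + ∫ s in (0 : ℝ)..t, pm (unifP P) (vecP P) (Y s ω) i := by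
    intro t ht ω i
    show sol (bP P) (WE lab γ S ω) t i.1 + WE lab γ S ω t i.1 = WE lab γ S ω t i.1 + _
    rw [add_comm]
    congr 1
    rw [sol_fixed (isDrift_bP P) (fun e => measurable_WE_time hl S ω e) ht i.1]
    refine intervalIntegral.integral_congr fun s _ => ?_
    show bP P _ i.1 = pm (unifP P) (vecP P) (fun j => YO lab γ (bP P) S ω s j.1) i
    rw [pm_eq]
    rfl
  have hlaw := finite_law (uniformField V) (unifP P) (unifP_nonneg P) (sum_unifP P) (vecP P)
    (vecP_sq P) (pm_lip P) g hg hr Y hYm hY T T' F hF1 hFL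
  have hleft : ∀ ω, H (YO lab γ (bP P) S ω T) (YO lab γ (bP P) S ω T') = F (Y T ω, Y T' ω) := by
    intro ω
    refine hagree _ _ _ _ (fun e he => ?_) (fun e he => ?_)
    · have := exP_val P (Y T ω) ⟨e, he⟩
      exact this.symm
    · have := exP_val P (Y T' ω) ⟨e, he⟩
      exact this.symm
  simp_rw [hleft]
  rw [hlaw]
  refine Finset.sum_congr rfl fun σ _ => ?_
  congr 1
  refine integral_congr_ae (Eventually.of_forall fun ω => ?_)
  refine hagree _ _ _ _ (fun e he => ?_) (fun e he => ?_)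
  · have := exP_val P (fun i : P.edges => (T : ℝ) * vecP P σ i + contW (fun j k => g j k i) T ω) ⟨e, he⟩
    simp only at this
    rw [this]
    have h2 := spinP_val P σ ⟨e, he⟩
    simp only at h2
    rw [h2]
    rfl
  · have := exP_val P (fun i : P.edges => (T' : ℝ) * vecP P σ i + contW (fun j k => g j k i) T' ω) ⟨e, he⟩
    simp only at this
    rw [this]
    have h2 := spinP_val P σ ⟨e, he⟩
    simp only at h2
    rw [h2]
    rfl

end

end Vale.Agent.Lib.P143B
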