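import Vale.Agent.Lib.P143B.PieceLaw

/-!
Track B of P143: rounding of the observation process to spins. Estimates at the level of a finite
piece, uniform in the piece.
-/

set_option linter.unusedVariables false
set_option linter.unusedSectionVars false

open Finset Filter Topology MeasureTheory ProbabilityTheory
open Vale.Agent.Lib.P143 Vale.Agent.Lib.P161

namespace Vale.Agent.Lib.P143B

noncomputable section

open Classical

/-! ### The clip function -/

lemma abs_clip_le (u : ℝ) : |clip u| ≤ 1 := by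
  unfold clip
  rw [abs_le]
  exact ⟨le_max_left _ _, max_le (by norm_num) (min_le_left _ _)⟩

lemma abs_clip_sub_le (u v : ℝ) : |clip u - clip v| ≤ |u - v| := by
  unfold clip
  have h1 := abs_max_sub_max_le_max (-1) (min 1 u) (-1) (min 1 v)
  have h2 := abs_min_sub_min_le_max 1 u 1 v
  simp only [sub_self, abs_zero] at h1 h2
  refine h1.trans (max_le (abs_nonneg _) (h2.trans (max_le (abs_nonneg _) le_rfl)))

lemma measurable_clip : Measurable clip := by
  unfold clip
  fun_prop

lemma clip_of_ge {u : ℝ} (h : 1 ≤ u) : clip u = 1 := by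
  unfold clip
  rw [min_eq_left h]
  norm_num

lemma clip_of_le {u : ℝ} (h : u ≤ -1) : clip u = -1 := by
  unfold clip
  rw [max_eq_left]
  exact (min_le_right _ _).trans h

/-- The rounding error, for a spin `σ`. -/
lemma clip_sub_le {σ T w : ℝ} (hσ : σ = 1 ∨ σ = -1) (hT : 2 ≤ T) :
    |clip (T * σ + w) - σ| ≤ 2 * w ^ 2 / (T - 1) ^ 2 := by
  have hT1 : 0 < T - 1 := by linarith
  have hpos : 0 < (T - 1) ^ 2 := by positivity
  by_cases hw : |w| ≤ T - 1
  · obtain ⟨h1, h2⟩ := abs_le.1 hw
    have h3 : clip (T * σ + w) = σ := by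
      rcases hσ with rfl | rfl
      · exact clip_of_ge (by linarith)
      · exact clip_of_le (by linarith)
    rw [h3, sub_self, abs_zero]
    positivity
  · push Not at hw
    have h4 : (T - 1) ^ 2 ≤ w ^ 2 := by
      rw [← sq_abs w]
      exact pow_le_pow_left₀ hT1.le hw.le 2
    have h5 : 2 ≤ 2 * w ^ 2 / (T - 1) ^ 2 := by
      rw [le_div_iff₀ hpos]; linarith
    have h6 : |clip (T * σ + w) - σ| ≤ 2 := by
      have h7 := abs_clip_le (T * σ + w)
      have h8 : |σ| = 1 := by rcases hσ with rfl | rfl <;> simp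
      calc |clip (T * σ + w) - σ| ≤ |clip (T * σ + w)| + |σ| := abs_sub _ _
        _ ≤ 2 := by linarith
    linarith

/-! ### Second moment of a sum of i.i.d. standard Gaussians -/

lemma sq_sum_gauss {Ω : Type*} [MeasurableSpace Ω] {P : Measure Ω} [IsProbabilityMeasure P]
    {X : ℕ → Ω → ℝ} (hm : ∀ l, Measurable (X l)) (hi : iIndepFun X P)
    (hl : ∀ l, P.map (X l) = gaussianReal 0 1) (k : ℕ) :
    Integrable (fun ω => (∑ l ∈ Finset.range k, X l ω) ^ 2) P ∧
      ∫ ω, (∑ l ∈ Finset.range k, X l ω) ^ 2 ∂P = k := by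
  have hMem : ∀ l, MemLp (X l) 2 P := by
    intro l
    have h := memLp_id_gaussianReal (μ := 0) (v := 1) 2
    rw [← hl l] at h
    exact (memLp_map_measure_iff (by simpa using h.1) (hm l).aemeasurable).1 h
  have hSum : MemLp (∑ l ∈ Finset.range k, X l) 2 P := by
    have e : (∑ l ∈ Finset.range k, X l) = fun a => ∑ l ∈ Finset.range k, X l a := by
      funext a
      rw [Finset.sum_apply]
    rw [e]
    exact memLp_finsetSum _ fun l _ => hMem l
  have hfun : (fun ω => (∑ l ∈ Finset.range k, X l ω) ^ 2) = fun ω => (∑ l ∈ Finset.range k, X l) ω ^ 2 := by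
    funext ω
    rw [Finset.sum_apply]
  rw [hfun]
  refine ⟨hSum.integrable_sq, ?_⟩
  have hE : ∀ l, ∫ ω, X l ω ∂P = 0 := by
    intro l
    have h1 : ∫ ω, X l ω ∂P = ∫ x, x ∂(P.map (X l)) :=
      (integral_map (hm l).aemeasurable aestronglyMeasurable_id).symm
    rw [h1, hl l, integral_id_gaussianReal]
  have hV : ∀ l, variance (X l) P = 1 := by
    intro l
    have h1 : variance (X l) P = variance id (P.map (X l)) :=
      (variance_map aemeasurable_id (hm l).aemeasurable).symm
    rw [h1, hl l, variance_id_gaussianReal]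
    rfl
  have hVar : variance (∑ l ∈ Finset.range k, X l) P = k := by
    rw [IndepFun.variance_sum (fun l _ => hMem l)
      (fun a _ b _ hab => hi.indepFun hab)]
    simp [hV]
  have hEs : ∫ ω, (∑ l ∈ Finset.range k, X l) ω ∂P = 0 := by
    have : (fun ω => (∑ l ∈ Finset.range k, X l) ω) = fun ω => ∑ l ∈ Finset.range k, X l ω := by
      funext ω
      rw [Finset.sum_apply]
    rw [this, integral_finsetSum _ (fun l _ => (hMem l).integrable (by norm_num))]
    simp [hE]
  rw [variance_eq_sub hSum] at hVar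
  rw [hEs] at hVar
  simp only [Pi.pow_apply] at hVar
  linarith

variable {V : Type*} {lab : unitInterval → ℝ} {γ : ℕ → ℕ → ℕ → unitInterval → ℝ}

/-! ### The noise at integer times -/

section Moment

variable [Countable V]

lemma WE_natCast (hl : LabelProps V lab γ) (S : Set (Sym2 V)) (ω : V → unitInterval) (T : ℕ)
    (e : Sym2 V) : WE lab γ S ω T e = ∑ l ∈ Finset.range T, edgeG lab γ S 0 l ω e :=
  contW_natCast (edgeG_refine hl S e) T ω

lemma measurable_WE_omega (hl : LabelProps V lab γ) (S : Set (Sym2 V)) (t : ℝ) (e : Sym2 V) :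
    Measurable fun ω : V → unitInterval => WE lab γ S ω t e := by
  have h1 : Measurable fun ω : V → unitInterval => ((ω, t) : (V → unitInterval) × ℝ) :=
    Measurable.prodMk measurable_id measurable_const
  have h2 := (measurable_WE_fix hl S e).comp h1
  exact h2

/-- The second moment of the noise at an integer time. -/
lemma sq_WE (hl : LabelProps V lab γ) {S : Set (Sym2 V)} (hS : ∀ e ∈ S, ¬ e.IsDiag)
    (hfin : ∀ x, {z | s(x, z) ∈ S}.Finite) {e : Sym2 V} (he : e ∈ S) (T : ℕ) :
    Integrable (fun ω => WE lab γ S ω T e ^ 2) (uniformField V) ∧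
      ∫ ω, WE lab γ S ω T e ^ 2 ∂(uniformField V) = T := by
  have hn := hl.noise S hS hfin {e} (by simpa using he) 0
  let i0 : (({e} : Finset (Sym2 V)) : Finset (Sym2 V)) := ⟨e, Finset.mem_singleton_self e⟩
  have hi : iIndepFun (fun (l : ℕ) ω => edgeG lab γ S 0 l ω e) (uniformField V) := by
    have h1 := hn.indep.precomp (g := fun l : ℕ => (l, i0)) (fun a b h => (Prod.ext_iff.1 h).1)
    exact h1
  have hm : ∀ l, Measurable fun ω => edgeG lab γ S 0 l ω e := fun l => hn.meas l i0
  have hlaw : ∀ l, (uniformField V).map (fun ω => edgeG lab γ S 0 l ω e) = gaussianReal 0 1 :=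
    fun l => hn.law l i0
  have h := sq_sum_gauss hm hi hlaw T
  simp_rw [WE_natCast hl S _ T e]
  exact h

/-- The rounding error of the exact observation process. -/
lemma exact_clip (hl : LabelProps V lab γ) {S : Set (Sym2 V)} (hS : ∀ e ∈ S, ¬ e.IsDiag)
    (hfin : ∀ x, {z | s(x, z) ∈ S}.Finite) {e : Sym2 V} (he : e ∈ S) {T : ℕ} (hT : 2 ≤ T) {σ : ℝ}
    (hσ : σ = 1 ∨ σ = -1) :
    ∫ ω, |clip (T * σ + WE lab γ S ω T e) - σ| ∂(uniformField V) ≤ 8 / T := by
  obtain ⟨hI, hE⟩ := sq_WE hl hS hfin he T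
  have hT' : (2 : ℝ) ≤ T := by exact_mod_cast hT
  have hT1 : 0 < (T : ℝ) - 1 := by linarith
  have hpt : ∀ ω, |clip (T * σ + WE lab γ S ω T e) - σ| ≤
      2 * WE lab γ S ω T e ^ 2 / ((T : ℝ) - 1) ^ 2 := fun ω => clip_sub_le hσ hT'
  have hmeas : Measurable fun ω => |clip (T * σ + WE lab γ S ω T e) - σ| :=
    ((measurable_clip.comp ((measurable_WE_omega hl S T e).const_add _)).sub_const σ).abs
  have hInt : Integrable (fun ω => |clip (T * σ + WE lab γ S ω T e) - σ|) (uniformField V) := by
    refine Integrable.of_bound (C := 2) hmeas.aestronglyMeasurable ?_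
    refine Eventually.of_forall fun ω => ?_
    rw [Real.norm_eq_abs, abs_abs]
    have h7 := abs_clip_le (T * σ + WE lab γ S ω T e)
    have h8 : |σ| = 1 := by rcases hσ with rfl | rfl <;> simp
    calc |clip (T * σ + WE lab γ S ω T e) - σ| ≤ |clip (T * σ + WE lab γ S ω T e)| + |σ| := abs_sub _ _
      _ ≤ 2 := by linarith
  have hI2 : Integrable (fun ω => 2 * WE lab γ S ω T e ^ 2 / ((T : ℝ) - 1) ^ 2) (uniformField V) :=
    (hI.const_mul 2).div_const _
  calc ∫ ω, |clip (T * σ + WE lab γ S ω T e) - σ| ∂(uniformField V)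
      ≤ ∫ ω, 2 * WE lab γ S ω T e ^ 2 / ((T : ℝ) - 1) ^ 2 ∂(uniformField V) :=
        integral_mono hInt hI2 hpt
    _ = 2 * T / ((T : ℝ) - 1) ^ 2 := by
        rw [integral_div, integral_const_mul, hE]
    _ ≤ 8 / T := by
        rw [div_le_div_iff₀ (by positivity) (by linarith)]
        nlinarith

/-! ### Estimates on a piece -/

variable {S : Set (Sym2 V)} {P : Piece V}

lemma abs_one_sub_abs_clip_le {σ x : ℝ} (hσ : σ = 1 ∨ σ = -1) : 1 - |x| ≤ |x - σ| := by
  have h8 : |σ| = 1 := by rcases hσ with rfl | rfl <;> simp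
  have := abs_sub_abs_le_abs_sub σ x
  rw [h8, abs_sub_comm] at this
  exact this

lemma measurable_clip_exact (hl : LabelProps V lab γ) (S : Set (Sym2 V)) (T : ℕ) (σ : ℝ)
    (e : Sym2 V) : Measurable fun ω : V → unitInterval => clip (T * σ + WE lab γ S ω T e) :=
  measurable_clip.comp ((measurable_WE_omega hl S T e).const_add _)

lemma integrable_of_abs_le_two {f : (V → unitInterval) → ℝ} (hf : Measurable f) {C : ℝ}
    (h : ∀ ω, |f ω| ≤ C) : Integrable f (uniformField V) :=
  Integrable.of_bound (C := C) hf.aestronglyMeasurable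
    (Eventually.of_forall fun ω => by rw [Real.norm_eq_abs]; exact h ω)

/-- Two times on a piece. -/
theorem two_time_piece (hl : LabelProps V lab γ) (hS : ∀ e ∈ S, ¬ e.IsDiag)
    (hfin : ∀ x, {z | s(x, z) ∈ S}.Finite) (hP : (P.edges : Set (Sym2 V)) ⊆ S) {e : Sym2 V}
    (he : e ∈ P.edges) {T T' : ℕ} (hT : 2 ≤ T) (hT' : 2 ≤ T') :
    ∫ ω, |clip (YO lab γ (bP P) S ω T e) - clip (YO lab γ (bP P) S ω T' e)| ∂(uniformField V)
      ≤ 8 / T + 8 / T' := by
  let H : (Sym2 V → ℝ) → (Sym2 V → ℝ) → ℝ := fun a a' => |clip (a e) - clip (a' e)| / 2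
  have hH1 : ∀ a a', |H a a'| ≤ 1 := by
    intro a a'
    simp only [H]
    rw [abs_div, abs_abs, abs_two, div_le_one (by norm_num)]
    have h1 := abs_clip_le (a e)
    have h2 := abs_clip_le (a' e)
    calc |clip (a e) - clip (a' e)| ≤ |clip (a e)| + |clip (a' e)| := abs_sub _ _
      _ ≤ 2 := by linarith
  have hHL : ∀ a a' b b', |H a a' - H b b'|
      ≤ 1 * (∑ e ∈ P.edges, |a e - b e| + ∑ e ∈ P.edges, |a' e - b' e|) := by
    intro a a' b b'
    have h1 : |a e - b e| ≤ ∑ e ∈ P.edges, |a e - b e| :=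
      Finset.single_le_sum (f := fun e => |a e - b e|) (fun _ _ => abs_nonneg _) he
    have h2 : |a' e - b' e| ≤ ∑ e ∈ P.edges, |a' e - b' e| :=
      Finset.single_le_sum (f := fun e => |a' e - b' e|) (fun _ _ => abs_nonneg _) he
    have h3 : |H a a' - H b b'| ≤ (|clip (a e) - clip (b e)| + |clip (a' e) - clip (b' e)|) / 2 := by
      simp only [H]
      rw [← sub_div, abs_div, abs_two]
      refine div_le_div_of_nonneg_right ?_ (by norm_num)
      refine (abs_abs_sub_abs_le _ _).trans ?_
      have : clip (a e) - clip (a' e) - (clip (b e) - clip (b' e))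
          = (clip (a e) - clip (b e)) - (clip (a' e) - clip (b' e)) := by ring
      rw [this]
      exact abs_sub _ _
    have h4 := abs_clip_sub_le (a e) (b e)
    have h5 := abs_clip_sub_le (a' e) (b' e)
    have h6 := abs_nonneg (a e - b e)
    have h7 := abs_nonneg (a' e - b' e)
    linarith
  have hlaw := piece_law hl hS hfin hP T T' H hH1 hHL
  have hE := hP (Finset.mem_coe.2 he)
  have hbound : ∀ σ : Sg P, ∫ ω, H (fun e => T * spinP P σ e + WE lab γ S ω T e)
      (fun e => T' * spinP P σ e + WE lab γ S ω T' e) ∂(uniformField V)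
      ≤ (8 / T + 8 / T') / 2 := by
    intro σ
    have hs := spinP_eq P σ e
    set s' := spinP P σ e with hs'
    have h1 := exact_clip hl hS hfin hE hT hs
    have h2 := exact_clip hl hS hfin hE hT' hs
    have hm1 := measurable_clip_exact hl S T s' e
    have hm2 := measurable_clip_exact hl S T' s' e
    have hI1 : Integrable (fun ω => |clip (T * s' + WE lab γ S ω T e) - s'|) (uniformField V) := by
      refine integrable_of_abs_le_two (C := 1 + |s'|) (hm1.sub_const s').abs fun ω => ?_
      rw [abs_abs]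
      exact (abs_sub _ _).trans (by linarith [abs_clip_le (T * s' + WE lab γ S ω T e)])
    have hI2 : Integrable (fun ω => |clip (T' * s' + WE lab γ S ω T' e) - s'|) (uniformField V) := by
      refine integrable_of_abs_le_two (C := 1 + |s'|) (hm2.sub_const s').abs fun ω => ?_
      rw [abs_abs]
      exact (abs_sub _ _).trans (by linarith [abs_clip_le (T' * s' + WE lab γ S ω T' e)])
    have hI3 : Integrable (fun ω => |clip (T * s' + WE lab γ S ω T e)
        - clip (T' * s' + WE lab γ S ω T' e)| / 2) (uniformField V) := by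
      refine integrable_of_abs_le_two (C := 1) ((hm1.sub hm2).abs.div_const 2) fun ω => ?_
      exact hH1 (fun e => T * s' + WE lab γ S ω T e) (fun e => T' * s' + WE lab γ S ω T' e)
    calc ∫ ω, |clip (T * s' + WE lab γ S ω T e) - clip (T' * s' + WE lab γ S ω T' e)| / 2 ∂(uniformField V)
        ≤ ∫ ω, (|clip (T * s' + WE lab γ S ω T e) - s'| + |clip (T' * s' + WE lab γ S ω T' e) - s'|) / 2
            ∂(uniformField V) := by
          refine integral_mono hI3 ((hI1.add hI2).div_const 2) fun ω => ?_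
          refine div_le_div_of_nonneg_right ?_ (by norm_num)
          exact abs_sub_le _ _ _ |>.trans (by rw [abs_sub_comm s'])
      _ = ((∫ ω, |clip (T * s' + WE lab γ S ω T e) - s'| ∂(uniformField V))
            + ∫ ω, |clip (T' * s' + WE lab γ S ω T' e) - s'| ∂(uniformField V)) / 2 := by
          rw [integral_div, integral_add hI1 hI2]
      _ ≤ (8 / T + 8 / T') / 2 := by linarith
  have hsum : ∑ σ, unifP P σ * ∫ ω, H (fun e => T * spinP P σ e + WE lab γ S ω T e)
      (fun e => T' * spinP P σ e + WE lab γ S ω T' e) ∂(uniformField V)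
      ≤ (8 / T + 8 / T') / 2 := by
    calc _ ≤ ∑ σ, unifP P σ * ((8 / T + 8 / T') / 2) :=
          Finset.sum_le_sum fun σ _ => mul_le_mul_of_nonneg_left (hbound σ) (unifP_nonneg P σ)
      _ = (8 / T + 8 / T') / 2 := by
          rw [← Finset.sum_mul, sum_unifP, one_mul]
  rw [← hlaw] at hsum
  have hh : ∀ ω, H (YO lab γ (bP P) S ω T) (YO lab γ (bP P) S ω T')
      = |clip (YO lab γ (bP P) S ω T e) - clip (YO lab γ (bP P) S ω T' e)| / 2 := fun ω => rfl
  simp_rw [hh] at hsum
  rw [integral_div] at hsum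
  linarith

/-- One time on a piece: the rounded process is close to a spin. -/
theorem one_time_piece (hl : LabelProps V lab γ) (hS : ∀ e ∈ S, ¬ e.IsDiag)
    (hfin : ∀ x, {z | s(x, z) ∈ S}.Finite) (hP : (P.edges : Set (Sym2 V)) ⊆ S) {e : Sym2 V}
    (he : e ∈ P.edges) {T : ℕ} (hT : 2 ≤ T) :
    ∫ ω, (1 - |clip (YO lab γ (bP P) S ω T e)|) ∂(uniformField V) ≤ 8 / T := by
  let H : (Sym2 V → ℝ) → (Sym2 V → ℝ) → ℝ := fun a a' => 1 - |clip (a e)|
  have hH1 : ∀ a a', |H a a'| ≤ 1 := by
    intro a a'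
    simp only [H]
    have h1 := abs_clip_le (a e)
    have h2 := abs_nonneg (clip (a e))
    rw [abs_le]
    constructor <;> linarith
  have hHL : ∀ a a' b b', |H a a' - H b b'|
      ≤ 1 * (∑ e ∈ P.edges, |a e - b e| + ∑ e ∈ P.edges, |a' e - b' e|) := by
    intro a a' b b'
    have h1 : |a e - b e| ≤ ∑ e ∈ P.edges, |a e - b e| :=
      Finset.single_le_sum (f := fun e => |a e - b e|) (fun _ _ => abs_nonneg _) he
    have h2 : 0 ≤ ∑ e ∈ P.edges, |a' e - b' e| := Finset.sum_nonneg fun _ _ => abs_nonneg _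
    have h3 : |H a a' - H b b'| ≤ |clip (a e) - clip (b e)| := by
      simp only [H]
      have : 1 - |clip (a e)| - (1 - |clip (b e)|) = |clip (b e)| - |clip (a e)| := by ring
      rw [this, abs_sub_comm (clip (a e))]
      exact abs_abs_sub_abs_le _ _
    have h4 := abs_clip_sub_le (a e) (b e)
    linarith
  have hlaw := piece_law hl hS hfin hP T T H hH1 hHL
  have hE := hP (Finset.mem_coe.2 he)
  have hbound : ∀ σ : Sg P, ∫ ω, H (fun e => T * spinP P σ e + WE lab γ S ω T e)
      (fun e => T * spinP P σ e + WE lab γ S ω T e) ∂(uniformField V) ≤ 8 / T := by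
    intro σ
    have hs := spinP_eq P σ e
    set s' := spinP P σ e with hs'
    have h1 := exact_clip hl hS hfin hE hT hs
    have hm1 := measurable_clip_exact hl S T s' e
    have hI1 : Integrable (fun ω => |clip (T * s' + WE lab γ S ω T e) - s'|) (uniformField V) := by
      refine integrable_of_abs_le_two (C := 1 + |s'|) (hm1.sub_const s').abs fun ω => ?_
      rw [abs_abs]
      exact (abs_sub _ _).trans (by linarith [abs_clip_le (T * s' + WE lab γ S ω T e)])
    have hI3 : Integrable (fun ω => 1 - |clip (T * s' + WE lab γ S ω T e)|) (uniformField V) := by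
      refine integrable_of_abs_le_two (C := 1) (hm1.abs.const_sub 1) fun ω => ?_
      exact hH1 (fun e => T * s' + WE lab γ S ω T e) (fun e => T * s' + WE lab γ S ω T e)
    refine le_trans ?_ h1
    exact integral_mono hI3 hI1 fun ω => abs_one_sub_abs_clip_le hs
  have hsum : ∑ σ, unifP P σ * ∫ ω, H (fun e => T * spinP P σ e + WE lab γ S ω T e)
      (fun e => T * spinP P σ e + WE lab γ S ω T e) ∂(uniformField V) ≤ 8 / T := by
    calc _ ≤ ∑ σ, unifP P σ * (8 / T) :=
          Finset.sum_le_sum fun σ _ => mul_le_mul_of_nonneg_left (hbound σ) (unifP_nonneg P σ)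
      _ = 8 / T := by rw [← Finset.sum_mul, sum_unifP, one_mul]
  rw [← hlaw] at hsum
  exact hsum

/-! ### Cylinder test functions -/

/-- The test function of the spin of `e`. -/
def rho (A : Finset (Sym2 V)) (e : Sym2 V) (r : ℝ) : ℝ := if e ∈ A then (1 + r) / 2 else (1 - r) / 2

lemma abs_rho_sub (A : Finset (Sym2 V)) (e : Sym2 V) (r r' : ℝ) :
    |rho A e r - rho A e r'| = |r - r'| / 2 := by
  unfold rho
  split_ifs
  · rw [← sub_div, abs_div, abs_two]
    congr 1
    rw [show 1 + r - (1 + r') = r - r' by ring]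
  · rw [← sub_div, abs_div, abs_two]
    congr 1
    rw [show 1 - r - (1 - r') = -(r - r') by ring, abs_neg]

lemma rho_mem_of_abs_le (A : Finset (Sym2 V)) (e : Sym2 V) {r : ℝ} (h : |r| ≤ 1) :
    0 ≤ rho A e r ∧ rho A e r ≤ 1 := by
  obtain ⟨h1, h2⟩ := abs_le.1 h
  unfold rho
  split_ifs <;> constructor <;> linarith

/-- The test function of a cylinder. -/
def cylT (F A : Finset (Sym2 V)) (a : Sym2 V → ℝ) : ℝ := ∏ e ∈ F, rho A e (clip (a e))

/-- The difference of two products of numbers in `[0,1]`. -/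
lemma abs_prod_sub_prod_le {ι : Type*} (F : Finset ι) {x y : ι → ℝ}
    (hx : ∀ i ∈ F, 0 ≤ x i ∧ x i ≤ 1) (hy : ∀ i ∈ F, 0 ≤ y i ∧ y i ≤ 1) :
    |∏ i ∈ F, x i - ∏ i ∈ F, y i| ≤ ∑ i ∈ F, |x i - y i| := by
  classical
  induction F using Finset.induction_on with
  | empty => simp
  | insert a F ha ih =>
    rw [Finset.prod_insert ha, Finset.prod_insert ha, Finset.sum_insert ha]
    have hx' : ∀ i ∈ F, 0 ≤ x i ∧ x i ≤ 1 := fun i hi => hx i (Finset.mem_insert_of_mem hi)
    have hy' : ∀ i ∈ F, 0 ≤ y i ∧ y i ≤ 1 := fun i hi => hy i (Finset.mem_insert_of_mem hi)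
    have h0 := ih hx' hy'
    have hxa := hx a (Finset.mem_insert_self a F)
    have hya := hy a (Finset.mem_insert_self a F)
    have hP1 : |∏ i ∈ F, x i| ≤ 1 := by
      rw [abs_of_nonneg (Finset.prod_nonneg fun i hi => (hx' i hi).1)]
      exact Finset.prod_le_one (fun i hi => (hx' i hi).1) (fun i hi => (hx' i hi).2)
    have e1 : x a * ∏ i ∈ F, x i - y a * ∏ i ∈ F, y i
        = (x a - y a) * ∏ i ∈ F, x i + y a * (∏ i ∈ F, x i - ∏ i ∈ F, y i) := by ring
    rw [e1]
    refine (abs_add_le _ _).trans ?_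
    rw [abs_mul, abs_mul]
    have hya' : |y a| ≤ 1 := by rw [abs_of_nonneg hya.1]; exact hya.2
    have h1 : |x a - y a| * |∏ i ∈ F, x i| ≤ |x a - y a| * 1 :=
      mul_le_mul_of_nonneg_left hP1 (abs_nonneg _)
    have h2 : |y a| * |∏ i ∈ F, x i - ∏ i ∈ F, y i| ≤ 1 * ∑ i ∈ F, |x i - y i| :=
      mul_le_mul hya' h0 (abs_nonneg _) (by norm_num)
    linarith

lemma cylT_mem (F A : Finset (Sym2 V)) (a : Sym2 V → ℝ) : 0 ≤ cylT F A a ∧ cylT F A a ≤ 1 := by
  have h : ∀ e ∈ F, 0 ≤ rho A e (clip (a e)) ∧ rho A e (clip (a e)) ≤ 1 :=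
    fun e _ => rho_mem_of_abs_le A e (abs_clip_le _)
  exact ⟨Finset.prod_nonneg fun e he => (h e he).1,
    Finset.prod_le_one (fun e he => (h e he).1) (fun e he => (h e he).2)⟩

lemma abs_cylT_le (F A : Finset (Sym2 V)) (a : Sym2 V → ℝ) : |cylT F A a| ≤ 1 := by
  obtain ⟨h1, h2⟩ := cylT_mem F A a
  rw [abs_of_nonneg h1]; exact h2

lemma abs_cylT_sub_le (F A : Finset (Sym2 V)) (a b : Sym2 V → ℝ) :
    |cylT F A a - cylT F A b| ≤ ∑ e ∈ F, |a e - b e| := by
  unfold cylT
  refine (abs_prod_sub_prod_le F (fun e _ => rho_mem_of_abs_le A e (abs_clip_le _))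
    (fun e _ => rho_mem_of_abs_le A e (abs_clip_le _))).trans ?_
  refine Finset.sum_le_sum fun e _ => ?_
  rw [abs_rho_sub]
  have := abs_clip_sub_le (a e) (b e)
  have h2 := abs_nonneg (clip (a e) - clip (b e))
  linarith

/-- The indicator of the cylinder, for a spanning tree of a piece. -/
def cylInd (P : Piece V) (F A : Finset (Sym2 V)) (σ : Sg P) : ℝ :=
  if ∀ e ∈ F, (spinP P σ e = 1 ↔ e ∈ A) then 1 else 0

lemma rho_spin (A : Finset (Sym2 V)) (e : Sym2 V) {s' : ℝ} (hs : s' = 1 ∨ s' = -1) :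
    rho A e s' = if (s' = 1 ↔ e ∈ A) then 1 else 0 := by
  unfold rho
  rcases hs with rfl | rfl
  · by_cases he : e ∈ A <;> simp [he]
  · by_cases he : e ∈ A <;> norm_num [he]

lemma cylInd_eq (F A : Finset (Sym2 V)) (σ : Sg P) :
    cylInd P F A σ = ∏ e ∈ F, rho A e (spinP P σ e) := by
  unfold cylInd
  split_ifs with h
  · symm
    refine Finset.prod_eq_one fun e he => ?_
    rw [rho_spin A e (spinP_eq P σ e), if_pos (h e he)]
  · push Not at h
    obtain ⟨e, he, hn⟩ := h
    symm
    refine Finset.prod_eq_zero he ?_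
    rw [rho_spin A e (spinP_eq P σ e), if_neg]
    tauto

/-- The cylinder test function on a piece, compared with the cylinder probability. -/
theorem cyl_piece (hl : LabelProps V lab γ) (hS : ∀ e ∈ S, ¬ e.IsDiag)
    (hfin : ∀ x, {z | s(x, z) ∈ S}.Finite) (hP : (P.edges : Set (Sym2 V)) ⊆ S)
    {F : Finset (Sym2 V)} (hF : F ⊆ P.edges) (A : Finset (Sym2 V)) {T : ℕ} (hT : 2 ≤ T) :
    |∫ ω, cylT F A (YO lab γ (bP P) S ω T) ∂(uniformField V) - ∑ σ, unifP P σ * cylInd P F A σ|
      ≤ F.card * (8 / T) := by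
  let H : (Sym2 V → ℝ) → (Sym2 V → ℝ) → ℝ := fun a a' => cylT F A a
  have hH1 : ∀ a a', |H a a'| ≤ 1 := fun a a' => abs_cylT_le F A a
  have hHL : ∀ a a' b b', |H a a' - H b b'|
      ≤ 1 * (∑ e ∈ P.edges, |a e - b e| + ∑ e ∈ P.edges, |a' e - b' e|) := by
    intro a a' b b'
    have h1 := abs_cylT_sub_le F A a b
    have h2 : ∑ e ∈ F, |a e - b e| ≤ ∑ e ∈ P.edges, |a e - b e| :=
      Finset.sum_le_sum_of_subset_of_nonneg hF fun _ _ _ => abs_nonneg _
    have h3 : 0 ≤ ∑ e ∈ P.edges, |a' e - b' e| := Finset.sum_nonneg fun _ _ => abs_nonneg _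
    show |cylT F A a - cylT F A b| ≤ _
    linarith
  have hlaw := piece_law hl hS hfin hP T T H hH1 hHL
  have hmcyl : ∀ σ : Sg P, Measurable fun ω : V → unitInterval =>
      cylT F A (fun e => T * spinP P σ e + WE lab γ S ω T e) := by
    intro σ
    unfold cylT
    refine Finset.measurable_prod _ fun e _ => ?_
    have h1 := measurable_clip_exact hl S T (spinP P σ e) e
    unfold rho
    split_ifs
    · exact (h1.const_add 1).div_const 2
    · exact (h1.const_sub 1).div_const 2
  have hbound : ∀ σ : Sg P, |∫ ω, cylT F A (fun e => T * spinP P σ e + WE lab γ S ω T e)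
      ∂(uniformField V) - cylInd P F A σ| ≤ F.card * (8 / T) := by
    intro σ
    have hI0 : Integrable (fun ω => cylT F A (fun e => T * spinP P σ e + WE lab γ S ω T e))
        (uniformField V) := integrable_of_abs_le_two (C := 1) (hmcyl σ) fun ω => abs_cylT_le F A _
    have e1 : ∫ ω, cylT F A (fun e => T * spinP P σ e + WE lab γ S ω T e) ∂(uniformField V)
        - cylInd P F A σ = ∫ ω, (cylT F A (fun e => T * spinP P σ e + WE lab γ S ω T e)
          - cylInd P F A σ) ∂(uniformField V) := by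
      rw [integral_sub hI0 (integrable_const _)]
      simp
    rw [e1]
    refine (abs_integral_le_integral_abs).trans ?_
    have hI1 : ∀ e ∈ F, Integrable (fun ω => |clip (T * spinP P σ e + WE lab γ S ω T e) - spinP P σ e|)
        (uniformField V) := by
      intro e _
      refine integrable_of_abs_le_two (C := 1 + |spinP P σ e|)
        ((measurable_clip_exact hl S T _ e).sub_const _).abs fun ω => ?_
      rw [abs_abs]
      exact (abs_sub _ _).trans (by linarith [abs_clip_le (T * spinP P σ e + WE lab γ S ω T e)])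
    calc ∫ ω, |cylT F A (fun e => T * spinP P σ e + WE lab γ S ω T e) - cylInd P F A σ| ∂(uniformField V)
        ≤ ∫ ω, ∑ e ∈ F, |clip (T * spinP P σ e + WE lab γ S ω T e) - spinP P σ e| ∂(uniformField V) := by
          refine integral_mono (hI0.sub (integrable_const _)).abs
            (integrable_finsetSum _ hI1) fun ω => ?_
          show |cylT F A _ - cylInd P F A σ| ≤ _
          rw [cylInd_eq]
          unfold cylT
          refine (abs_prod_sub_prod_le F (fun e _ => rho_mem_of_abs_le A e (abs_clip_le _))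
            (fun e _ => rho_mem_of_abs_le A e ?_)).trans ?_
          · rcases spinP_eq P σ e with h | h <;> rw [h] <;> simp
          · refine Finset.sum_le_sum fun e _ => ?_
            rw [abs_rho_sub]
            have := abs_nonneg (clip (T * spinP P σ e + WE lab γ S ω T e) - spinP P σ e)
            linarith
      _ = ∑ e ∈ F, ∫ ω, |clip (T * spinP P σ e + WE lab γ S ω T e) - spinP P σ e| ∂(uniformField V) :=
          integral_finsetSum _ hI1
      _ ≤ ∑ e ∈ F, (8 / (T : ℝ)) :=
          Finset.sum_le_sum fun e he =>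
            exact_clip hl hS hfin (hP (Finset.mem_coe.2 (hF he))) hT (spinP_eq P σ e)
      _ = F.card * (8 / T) := by rw [Finset.sum_const, nsmul_eq_mul]
  have hmain : ∫ ω, cylT F A (YO lab γ (bP P) S ω T) ∂(uniformField V)
      = ∑ σ, unifP P σ * ∫ ω, cylT F A (fun e => T * spinP P σ e + WE lab γ S ω T e) ∂(uniformField V) :=
    hlaw
  rw [hmain, ← Finset.sum_sub_distrib]
  simp_rw [← mul_sub]
  refine (Finset.abs_sum_le_sum_abs _ _).trans ?_
  calc ∑ σ, |unifP P σ * (∫ ω, cylT F A (fun e => T * spinP P σ e + WE lab γ S ω T e) ∂(uniformField V)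
        - cylInd P F A σ)|
      ≤ ∑ σ, unifP P σ * (F.card * (8 / (T : ℝ))) := by
        refine Finset.sum_le_sum fun σ _ => ?_
        rw [abs_mul, abs_of_nonneg (unifP_nonneg P σ)]
        exact mul_le_mul_of_nonneg_left (hbound σ) (unifP_nonneg P σ)
    _ = F.card * (8 / T) := by rw [← Finset.sum_mul, sum_unifP, one_mul]

end Moment

end

end Vale.Agent.Lib.P143B
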